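import Vale.Agent.Lib.P078.Thin.Defs

/-!
# P078 (subtask U0): block-diagonal norm lemmas, reindexing, refinement
-/

set_option linter.unusedSectionVars false

namespace Vale.Agent.Lib.P078

variable {H : Type*} [NormedAddCommGroup H] [InnerProductSpace ℂ H] [CompleteSpace H]
variable {M : VonNeumannAlgebra H} {A : StarSubalgebra ℂ (H →L[ℂ] H)}

lemma norm_proj_le_one {e : H →L[ℂ] H} (he : IsStarProjection e) : ‖e‖ ≤ 1 :=
  IsStarProjection.norm_le e he

lemma norm_mul_sq_eq {q e : H →L[ℂ] H} (hq : IsStarProjection q) (he : IsStarProjection e) :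
    ‖q * e‖ ^ 2 = ‖e * q * e‖ := by
  have h1 : star (q * e) * (q * e) = e * q * e := by
    rw [star_mul, hq.isSelfAdjoint.star_eq, he.isSelfAdjoint.star_eq, mul_assoc, ← mul_assoc q q e,
      hq.isIdempotentElem.eq, mul_assoc]
  rw [← h1, CStarRing.norm_star_mul_self, sq]

lemma IsPartition.mul_pinching_mul {ι : Type*} [Fintype ι] {f : ι → H →L[ℂ] H}
    (hf : IsPartition A f) (x : H →L[ℂ] H) (b : ι) : f b * pinching f x * f b = f b * x * f b := by
  classical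
  unfold pinching
  rw [Finset.mul_sum, Finset.sum_mul, Finset.sum_eq_single b]
  · have h := (hf.proj b).isIdempotentElem.eq
    calc f b * (f b * x * f b) * f b = (f b * f b) * x * (f b * f b) := by simp only [mul_assoc]
      _ = f b * x * f b := by rw [h]
  · intro c _ hc
    have h := hf.orth b c (Ne.symm hc)
    calc f b * (f c * x * f c) * f b = (f b * f c) * x * f c * f b := by simp only [mul_assoc]
      _ = 0 := by rw [h]; simp
  · intro h
    exact absurd (Finset.mem_univ b) h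

lemma norm_mul_sq_le_pinching {ι : Type*} [Fintype ι] {f : ι → H →L[ℂ] H} (hf : IsPartition A f)
    {q : H →L[ℂ] H} (hq : IsStarProjection q) (b : ι) : ‖q * f b‖ ^ 2 ≤ ‖pinching f q‖ := by
  rw [norm_mul_sq_eq hq (hf.proj b), ← hf.mul_pinching_mul q b]
  have h1 := norm_proj_le_one (hf.proj b)
  calc ‖f b * pinching f q * f b‖ ≤ ‖f b * pinching f q‖ * ‖f b‖ := norm_mul_le _ _
    _ ≤ (‖f b‖ * ‖pinching f q‖) * ‖f b‖ := by gcongr; exact norm_mul_le _ _
    _ ≤ (1 * ‖pinching f q‖) * 1 := by gcongr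
    _ = ‖pinching f q‖ := by ring

lemma norm_pinching_le_of_forall {ι : Type*} [Fintype ι] {f : ι → H →L[ℂ] H}
    (hf : IsPartition A f) {q : H →L[ℂ] H} (hq : IsStarProjection q) {τ : ℝ} (hτ : 0 ≤ τ)
    (h : ∀ b, ‖q * f b‖ ^ 2 ≤ τ) : ‖pinching f q‖ ≤ τ := by
  refine ContinuousLinearMap.opNorm_le_bound _ hτ fun v => ?_
  have h1 : pinching f q v = ∑ b, f b (q (f b v)) := by simp [pinching]
  have h2 : ∀ b, ‖f b (q (f b v))‖ ≤ τ * ‖f b v‖ := by
    intro b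
    have h3 : f b (q (f b v)) = (f b * q * f b) (f b v) := by
      simp only [mul_apply_eq_comp]
      rw [proj_apply_apply (hf.proj b)]
    rw [h3]
    calc ‖(f b * q * f b) (f b v)‖ ≤ ‖f b * q * f b‖ * ‖f b v‖ := (f b * q * f b).le_opNorm _
      _ ≤ τ * ‖f b v‖ := by
        gcongr
        rw [← norm_mul_sq_eq hq (hf.proj b)]
        exact h b
  have h4 : ‖pinching f q v‖ ^ 2 ≤ (τ * ‖v‖) ^ 2 := by
    rw [h1, hf.norm_sq_sum (fun b => q (f b v))]
    calc ∑ b, ‖f b (q (f b v))‖ ^ 2 ≤ ∑ b, τ ^ 2 * ‖f b v‖ ^ 2 := by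
          refine Finset.sum_le_sum fun b _ => ?_
          calc ‖f b (q (f b v))‖ ^ 2 ≤ (τ * ‖f b v‖) ^ 2 := by
                gcongr
                exact h2 b
            _ = τ ^ 2 * ‖f b v‖ ^ 2 := mul_pow _ _ _
      _ = τ ^ 2 * ‖v‖ ^ 2 := by rw [← Finset.mul_sum, hf.parseval]
      _ = (τ * ‖v‖) ^ 2 := (mul_pow _ _ _).symm
  exact (abs_le_of_sq_le_sq' h4 (by positivity)).2

/-- Multiplying by a further projection does not destroy the bound. -/
lemma norm_mul_mul_sq_le {q e g : H →L[ℂ] H} (hg : IsStarProjection g) {τ : ℝ}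
    (h : ‖q * e‖ ^ 2 ≤ τ) : ‖q * (e * g)‖ ^ 2 ≤ τ := by
  refine le_trans ?_ h
  have h1 := norm_proj_le_one hg
  have h2 : ‖q * (e * g)‖ ≤ ‖q * e‖ := by
    calc ‖q * (e * g)‖ = ‖(q * e) * g‖ := by rw [mul_assoc]
      _ ≤ ‖q * e‖ * ‖g‖ := norm_mul_le _ _
      _ ≤ ‖q * e‖ * 1 := by gcongr
      _ = ‖q * e‖ := mul_one _
  gcongr

/-- The product partition still satisfies the bound. -/
lemma norm_mul_prod_sq_le {ι κ : Type*} {f : ι → H →L[ℂ] H} {g : κ → H →L[ℂ] H}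
    (hg : ∀ u, IsStarProjection (g u)) {q : H →L[ℂ] H} {τ : ℝ} (h : ∀ b, ‖q * f b‖ ^ 2 ≤ τ)
    (b : ι) (u : κ) : ‖q * (f b * g u)‖ ^ 2 ≤ τ :=
  norm_mul_mul_sq_le (hg u) (h b)

lemma IsPartition.reindex {ι κ : Type*} [Fintype ι] [Fintype κ] {f : ι → H →L[ℂ] H}
    (hf : IsPartition A f) (e : κ ≃ ι) : IsPartition A (fun k => f (e k)) where
  mem k := hf.mem _
  proj k := hf.proj _
  orth k l hkl := hf.orth _ _ fun h => hkl (e.injective h)
  sum_eq := by rw [e.sum_comp f, hf.sum_eq]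

lemma pinching_reindex {ι κ : Type*} [Fintype ι] [Fintype κ] (f : ι → H →L[ℂ] H) (e : κ ≃ ι)
    (x : H →L[ℂ] H) : pinching (fun k => f (e k)) x = pinching f x := by
  unfold pinching
  exact e.sum_comp fun i => f i * x * f i

/-- Thinness may be checked with partitions indexed by arbitrary finite types and with the
bound `‖q * f b‖ ^ 2 ≤ τ`. -/
lemma isThin_of_fintype
    (h : ∀ (F : Finset H) (δ τ : ℝ), 0 < δ → 0 < τ →
      ∃ (q : H →L[ℂ] H) (ι : Type) (_ : Fintype ι) (f : ι → H →L[ℂ] H), q ∈ M ∧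
        IsStarProjection q ∧ (∀ ξ ∈ F, ‖(1 - q) ξ‖ < δ) ∧ IsPartition A f ∧
        ∀ b, ‖q * f b‖ ^ 2 ≤ τ) : IsThin M A := by
  intro F δ τ hδ hτ
  obtain ⟨q, ι, _, f, hqM, hq, hF, hf, hb⟩ := h F δ τ hδ hτ
  refine ⟨q, Fintype.card ι, fun k => f ((Fintype.equivFin ι).symm k), hqM, hq, hF,
    hf.reindex _, ?_⟩
  rw [pinching_reindex]
  exact norm_pinching_le_of_forall hf hq hτ.le hb

/-- The form of thinness used in the proofs. -/
lemma IsThin.exists_proj (h : IsThin M A) (F : Finset H) {δ τ : ℝ} (hδ : 0 < δ) (hτ : 0 < τ) :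
    ∃ (q : H →L[ℂ] H) (n : ℕ) (f : Fin n → H →L[ℂ] H), q ∈ M ∧ IsStarProjection q ∧
      (∀ ξ ∈ F, ‖(1 - q) ξ‖ < δ) ∧ IsPartition A f ∧ ∀ b, ‖q * f b‖ ^ 2 ≤ τ := by
  obtain ⟨q, n, f, hqM, hq, hF, hf, hτ'⟩ := h F δ τ hδ hτ
  exact ⟨q, n, f, hqM, hq, hF, hf, fun b => (norm_mul_sq_le_pinching hf hq b).trans hτ'⟩

end Vale.Agent.Lib.P078
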