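import Vale.Agent.Lib.P078.Thin.VecColoring
import Vale.Agent.Lib.P078.Thin.Block
import Vale.Agent.Lib.P078.Rotation

/-!
# P078 (subtask U5b): random colourings and random signs after compression by a thin `q`

Setting: `f` a partition (index `T`) with `‖q * f t‖^2 ≤ τ` for all `t`.

Blueprint.
* `pinching_coarsen_sub_apply`: by `pinching_coarsen`, `x = ∑ s t, f s * x * f t` (`hf.sum_eq`) and the definition of `Zc`
  (compare `sum_Zc_mul_eq` in `Coloring.lean`).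
* `sum_sum_norm_sq_le`: for fixed `t` put `w = x (f t ζ)`; `‖q (f s w)‖ = ‖(q * f s) (f s w)‖ ≤ sqrt τ ‖f s w‖`, so
  `∑ s ‖q (f s w)‖^2 ≤ τ ‖w‖^2` (`parseval`); `∑ t ‖x (f t ζ)‖^2 ≤ ‖x‖^2 ‖ζ‖^2` (`parseval`).
* `exists_coloring_op`: `exists_coloring_vec` with `w i s t = q (f s (x (f t (ζ i))))`.
* `exists_signs_op`: `exists_signs_vec` with the same `wq` and two linear families (index `K = I ⊕ I`):
  `t ↦ q (f t (x (ζ i)))` (sum of squares `≤ τ ‖x‖^2 ‖ζ i‖^2`) and `t ↦ q (x (f t (ζ i)))`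
  (`= (q * x * f t) (f t (ζ i))`, sum of squares `≤ τ' ‖ζ i‖^2`).  With `u = signOp f sg` (file `Rotation.lean`):
  `(u * x * u - pinching f x) ζ = ∑ s t, (sg s * sg t - [s = t]) • f s (x (f t ζ))`, `(u * x) ζ = ∑ t, sg t • f t (x ζ)`,
  `(x * u) ζ = ∑ t, sg t • x (f t ζ)`.
-/

set_option linter.unusedSectionVars false

namespace Vale.Agent.Lib.P078

open scoped InnerProductSpace

variable {H : Type*} [NormedAddCommGroup H] [InnerProductSpace ℂ H] [CompleteSpace H]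
variable {A : StarSubalgebra ℂ (H →L[ℂ] H)}
variable {T : Type*} [Fintype T] [DecidableEq T] {f : T → H →L[ℂ] H}

lemma apply_eq_sum_sum (hf : IsPartition A f) (x : H →L[ℂ] H) (ζ : H) :
    x ζ = ∑ s, ∑ t, f s (x (f t ζ)) := by
  have h1 : ∀ s, ∑ t, f s (x (f t ζ)) = f s (x ζ) := by
    intro s
    rw [← map_sum, ← map_sum, hf.sum_apply]
  rw [Finset.sum_congr rfl fun s _ => h1 s, hf.sum_apply]

lemma pinching_apply (x : H →L[ℂ] H) (ζ : H) :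
    pinching f x ζ = ∑ s, ∑ t, (if s = t then (1 : ℂ) else 0) • f s (x (f t ζ)) := by
  have h1 : pinching f x ζ = ∑ s, f s (x (f s ζ)) := by simp [pinching]
  rw [h1]
  refine Finset.sum_congr rfl fun s _ => ?_
  simp

lemma pinching_coarsen_apply {r : ℕ} (col : T → Fin r) (x : H →L[ℂ] H) (ζ : H) :
    pinching (coarsen f col) x ζ
      = ∑ s, ∑ t, (if col s = col t then (1 : ℂ) else 0) • f s (x (f t ζ)) := by
  rw [pinching_coarsen, _root_.sum_apply]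
  refine Finset.sum_congr rfl fun s _ => ?_
  rw [_root_.sum_apply]
  refine Finset.sum_congr rfl fun t _ => ?_
  split_ifs <;> simp

lemma Zc_eq {r : ℕ} (col : T → Fin r) (s t : T) :
    Zc col s t = (if col s = col t then (1 : ℂ) else 0)
      - (1 - 1 / (r : ℂ)) * (if s = t then (1 : ℂ) else 0) - 1 / (r : ℂ) := by
  unfold Zc
  by_cases h : s = t
  · subst h
    simp
  · simp [h]

lemma pinching_coarsen_sub_apply (hf : IsPartition A f) {r : ℕ} (col : T → Fin r)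
    (x : H →L[ℂ] H) (ζ : H) :
    (pinching (coarsen f col) x - (1 - 1 / (r : ℂ)) • pinching f x - (1 / (r : ℂ)) • x) ζ
      = ∑ s, ∑ t, Zc col s t • f s (x (f t ζ)) := by
  rw [sub_apply, sub_apply, smul_apply, smul_apply,
    pinching_coarsen_apply, pinching_apply, apply_eq_sum_sum hf x ζ, Finset.smul_sum,
    Finset.smul_sum, ← Finset.sum_sub_distrib, ← Finset.sum_sub_distrib]
  refine Finset.sum_congr rfl fun s _ => ?_
  rw [Finset.smul_sum, Finset.smul_sum, ← Finset.sum_sub_distrib, ← Finset.sum_sub_distrib]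
  refine Finset.sum_congr rfl fun t _ => ?_
  rw [Zc_eq]
  module

lemma norm_mul_apply_sq_le {q e : H →L[ℂ] H} (he : IsStarProjection e) {τ : ℝ}
    (h : ‖q * e‖ ^ 2 ≤ τ) (w : H) : ‖q (e w)‖ ^ 2 ≤ τ * ‖e w‖ ^ 2 := by
  have h1 : q (e w) = (q * e) (e w) := by
    simp only [mul_apply_eq_comp]
    rw [proj_apply_apply he]
  rw [h1]
  calc ‖(q * e) (e w)‖ ^ 2 ≤ (‖q * e‖ * ‖e w‖) ^ 2 := by
        gcongr
        exact (q * e).le_opNorm _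
    _ = ‖q * e‖ ^ 2 * ‖e w‖ ^ 2 := mul_pow _ _ _
    _ ≤ τ * ‖e w‖ ^ 2 := by gcongr

lemma sum_norm_sq_apply_le (hf : IsPartition A f) (q : H →L[ℂ] H) {τ : ℝ}
    (hq : ∀ t, ‖q * f t‖ ^ 2 ≤ τ) (w : H) : ∑ s, ‖q (f s w)‖ ^ 2 ≤ τ * ‖w‖ ^ 2 := by
  calc ∑ s, ‖q (f s w)‖ ^ 2 ≤ ∑ s, τ * ‖f s w‖ ^ 2 :=
        Finset.sum_le_sum fun s _ => norm_mul_apply_sq_le (hf.proj s) (hq s) w
    _ = τ * ‖w‖ ^ 2 := by rw [← Finset.mul_sum, hf.parseval]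

lemma tau_nonneg [Nonempty T] {q : H →L[ℂ] H} {τ : ℝ} (hq : ∀ t, ‖q * f t‖ ^ 2 ≤ τ) : 0 ≤ τ :=
  (sq_nonneg _).trans (hq (Classical.arbitrary T))

lemma sum_norm_sq_map_le (hf : IsPartition A f) (x : H →L[ℂ] H) (ζ : H) :
    ∑ t, ‖x (f t ζ)‖ ^ 2 ≤ ‖x‖ ^ 2 * ‖ζ‖ ^ 2 := by
  calc ∑ t, ‖x (f t ζ)‖ ^ 2 ≤ ∑ t, ‖x‖ ^ 2 * ‖f t ζ‖ ^ 2 := by
        refine Finset.sum_le_sum fun t _ => ?_
        calc ‖x (f t ζ)‖ ^ 2 ≤ (‖x‖ * ‖f t ζ‖) ^ 2 := by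
              gcongr
              exact x.le_opNorm _
          _ = ‖x‖ ^ 2 * ‖f t ζ‖ ^ 2 := mul_pow _ _ _
    _ = ‖x‖ ^ 2 * ‖ζ‖ ^ 2 := by rw [← Finset.mul_sum, hf.parseval]

lemma sum_sum_norm_sq_le (hf : IsPartition A f) (q x : H →L[ℂ] H) {τ : ℝ}
    (hq : ∀ t, ‖q * f t‖ ^ 2 ≤ τ) (ζ : H) :
    ∑ s, ∑ t, ‖q (f s (x (f t ζ)))‖ ^ 2 ≤ τ * ‖x‖ ^ 2 * ‖ζ‖ ^ 2 := by
  rcases isEmpty_or_nonempty T with hT | hT
  · have h1 : (1 : H →L[ℂ] H) = 0 := by rw [← hf.sum_eq]; simp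
    have h2 : ζ = 0 := by
      have := congrArg (fun S : H →L[ℂ] H => S ζ) h1
      simpa using this
    simp [h2]
  have hτ : 0 ≤ τ := tau_nonneg hq
  rw [Finset.sum_comm]
  calc ∑ t, ∑ s, ‖q (f s (x (f t ζ)))‖ ^ 2 ≤ ∑ t, τ * ‖x (f t ζ)‖ ^ 2 :=
        Finset.sum_le_sum fun t _ => sum_norm_sq_apply_le hf q hq _
    _ = τ * ∑ t, ‖x (f t ζ)‖ ^ 2 := by rw [Finset.mul_sum]
    _ ≤ τ * (‖x‖ ^ 2 * ‖ζ‖ ^ 2) := by
        gcongr
        exact sum_norm_sq_map_le hf x ζ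
    _ = τ * ‖x‖ ^ 2 * ‖ζ‖ ^ 2 := by ring

theorem exists_coloring_op (hf : IsPartition A f) (q x : H →L[ℂ] H) {τ : ℝ}
    (hq : ∀ t, ‖q * f t‖ ^ 2 ≤ τ) {r : ℕ} (hr : 0 < r) {I : Type*} [Fintype I] (ζ : I → H) :
    ∃ col : T → Fin r,
      ∑ i, ‖q ((pinching (coarsen f col) x - (1 - 1 / (r : ℂ)) • pinching f x
          - (1 / (r : ℂ)) • x) (ζ i))‖ ^ 2
        ≤ 2 * τ * ‖x‖ ^ 2 * ∑ i, ‖ζ i‖ ^ 2 := by
  obtain ⟨col, hcol⟩ := exists_coloring_vec hr (fun i s t => q (f s (x (f t (ζ i)))))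
  refine ⟨col, ?_⟩
  have h1 : ∀ i, q ((pinching (coarsen f col) x - (1 - 1 / (r : ℂ)) • pinching f x
      - (1 / (r : ℂ)) • x) (ζ i)) = ∑ s, ∑ t, Zc col s t • q (f s (x (f t (ζ i)))) := by
    intro i
    rw [pinching_coarsen_sub_apply hf, map_sum]
    refine Finset.sum_congr rfl fun s _ => ?_
    rw [map_sum]
    refine Finset.sum_congr rfl fun t _ => ?_
    rw [map_smul]
  rw [Finset.sum_congr rfl fun i _ => by rw [h1 i]]
  refine hcol.trans ?_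
  calc 2 * ∑ i, ∑ s, ∑ t, ‖q (f s (x (f t (ζ i))))‖ ^ 2
      ≤ 2 * ∑ i, τ * ‖x‖ ^ 2 * ‖ζ i‖ ^ 2 := by
        gcongr with i _
        exact sum_sum_norm_sq_le hf q x hq (ζ i)
    _ = 2 * τ * ‖x‖ ^ 2 * ∑ i, ‖ζ i‖ ^ 2 := by
        rw [← Finset.mul_sum]
        ring

lemma conj_signOp_sub_apply (sg : T → ℂ) (x : H →L[ℂ] H) (ζ : H) :
    (signOp f sg * x * signOp f sg - pinching f x) ζ
      = ∑ s, ∑ t, (sg s * sg t - (if s = t then 1 else 0)) • f s (x (f t ζ)) := by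
  rw [sub_apply, pinching_apply]
  simp only [mul_apply_eq_comp]
  rw [signOp_apply, ← Finset.sum_sub_distrib]
  refine Finset.sum_congr rfl fun s _ => ?_
  rw [signOp_apply, map_sum, map_sum, Finset.smul_sum, ← Finset.sum_sub_distrib]
  refine Finset.sum_congr rfl fun t _ => ?_
  rw [map_smul, map_smul, smul_smul, sub_smul]

lemma sum_norm_sq_right_le (hf : IsPartition A f) (q x : H →L[ℂ] H) {τ' : ℝ}
    (hqx : ∀ t, ‖q * x * f t‖ ^ 2 ≤ τ') (ζ : H) :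
    ∑ t, ‖q (x (f t ζ))‖ ^ 2 ≤ τ' * ‖ζ‖ ^ 2 :=
  sum_norm_sq_apply_le hf (q * x) hqx ζ

theorem exists_signs_op (hf : IsPartition A f) (q x : H →L[ℂ] H) {τ τ' : ℝ}
    (hq : ∀ t, ‖q * f t‖ ^ 2 ≤ τ) (hqx : ∀ t, ‖q * x * f t‖ ^ 2 ≤ τ') {I : Type*} [Fintype I]
    (ζ : I → H) :
    ∃ sg : T → ℂ, (∀ t, sg t = 1 ∨ sg t = -1) ∧
      ∑ i, ‖q ((signOp f sg * x * signOp f sg - pinching f x) (ζ i))‖ ^ 2
        + ∑ i, ‖q ((signOp f sg * x) (ζ i))‖ ^ 2 + ∑ i, ‖q ((x * signOp f sg) (ζ i))‖ ^ 2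
      ≤ 8 * (2 * τ * ‖x‖ ^ 2 + τ') * ∑ i, ‖ζ i‖ ^ 2 := by
  obtain ⟨sg, hsg, hsum⟩ := exists_signs_vec (I := I) (K := I ⊕ I)
    (fun i s t => q (f s (x (f t (ζ i)))))
    (fun k t => Sum.elim (fun i => q (f t (x (ζ i)))) (fun i => q (x (f t (ζ i)))) k)
  refine ⟨sg, hsg, ?_⟩
  have h1 : ∀ i, q ((signOp f sg * x * signOp f sg - pinching f x) (ζ i))
      = ∑ s, ∑ t, (sg s * sg t - (if s = t then 1 else 0)) • q (f s (x (f t (ζ i)))) := by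
    intro i
    rw [conj_signOp_sub_apply, map_sum]
    refine Finset.sum_congr rfl fun s _ => ?_
    rw [map_sum]
    refine Finset.sum_congr rfl fun t _ => ?_
    rw [map_smul]
  have h2 : ∀ i, q ((signOp f sg * x) (ζ i)) = ∑ t, sg t • q (f t (x (ζ i))) := by
    intro i
    simp only [mul_apply_eq_comp]
    rw [signOp_apply, map_sum]
    refine Finset.sum_congr rfl fun t _ => ?_
    rw [map_smul]
  have h3 : ∀ i, q ((x * signOp f sg) (ζ i)) = ∑ t, sg t • q (x (f t (ζ i))) := by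
    intro i
    simp only [mul_apply_eq_comp]
    rw [signOp_apply, map_sum, map_sum]
    refine Finset.sum_congr rfl fun t _ => ?_
    rw [map_smul, map_smul]
  rw [Fintype.sum_sum_type, Fintype.sum_sum_type] at hsum
  simp only [Sum.elim_inl, Sum.elim_inr] at hsum
  simp only [h1, h2, h3]
  rw [add_assoc]
  refine hsum.trans ?_
  have b1 : ∑ i, ∑ s, ∑ t, ‖q (f s (x (f t (ζ i))))‖ ^ 2 ≤ τ * ‖x‖ ^ 2 * ∑ i, ‖ζ i‖ ^ 2 := by
    rw [Finset.mul_sum]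
    exact Finset.sum_le_sum fun i _ => sum_sum_norm_sq_le hf q x hq (ζ i)
  have b2 : ∑ i, ∑ t, ‖q (f t (x (ζ i)))‖ ^ 2 ≤ τ * ‖x‖ ^ 2 * ∑ i, ‖ζ i‖ ^ 2 := by
    rw [Finset.mul_sum]
    refine Finset.sum_le_sum fun i _ => ?_
    rcases isEmpty_or_nonempty T with hT | hT
    · simp only [Finset.univ_eq_empty, Finset.sum_empty]
      have h1 : (1 : H →L[ℂ] H) = 0 := by rw [← hf.sum_eq]; simp
      have h2 : ζ i = 0 := by
        have := congrArg (fun S : H →L[ℂ] H => S (ζ i)) h1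
        simpa using this
      simp [h2]
    have hτ : 0 ≤ τ := tau_nonneg hq
    calc ∑ t, ‖q (f t (x (ζ i)))‖ ^ 2 ≤ τ * ‖x (ζ i)‖ ^ 2 := sum_norm_sq_apply_le hf q hq _
      _ ≤ τ * (‖x‖ * ‖ζ i‖) ^ 2 := by
          gcongr
          exact x.le_opNorm _
      _ = τ * ‖x‖ ^ 2 * ‖ζ i‖ ^ 2 := by ring
  have b3 : ∑ i, ∑ t, ‖q (x (f t (ζ i)))‖ ^ 2 ≤ τ' * ∑ i, ‖ζ i‖ ^ 2 := by
    rw [Finset.mul_sum]
    exact Finset.sum_le_sum fun i _ => sum_norm_sq_right_le hf q x hqx (ζ i)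
  generalize ∑ i, ∑ s, ∑ t, ‖q (f s (x (f t (ζ i))))‖ ^ 2 = S1 at b1 ⊢
  generalize ∑ i, ∑ t, ‖q (f t (x (ζ i)))‖ ^ 2 = S2 at b2 ⊢
  generalize ∑ i, ∑ t, ‖q (x (f t (ζ i)))‖ ^ 2 = S3 at b3 ⊢
  generalize ∑ i, ‖ζ i‖ ^ 2 = Z at b1 b2 b3 ⊢
  nlinarith

end Vale.Agent.Lib.P078
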