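import Vale.Agent.Lib.P078.Basic

/-!
# P078 (subtask U4): Mazur's lemma for operators (weak operator closure versus strong closure of the convex hull)

Blueprint.  Work in the normed space `I → H` (or `PiLp 2`).  Let `P T = fun i => T (ζ i)`, `K = closure (convexHull ℝ (P '' S))`, closed and convex.
If `P a ∉ K`, `RCLike.geometric_hahn_banach_closed_point` (or the real version) gives a continuous linear functional `φ` and `c` with
`re (φ y) < c < re (φ (P a))` for `y ∈ K`.  Now `φ y = ∑ i, φ (Pi.single i (y i))` and each `y ↦ φ (Pi.single i y)` is a continuous linear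
functional on `H`, so it equals `⟪u i, ·⟫` (`InnerProductSpace.toDual`).  Thus `φ (P T) - φ (P a) = ∑ i, ⟪u i, (T - a) (ζ i)⟫`, which `hwot`
makes smaller than `re (φ (P a)) - c` in modulus for some `T ∈ S`: contradiction.  So `P a ∈ K`; pick `y ∈ convexHull ℝ (P '' S)` with
`‖y - P a‖ < η` (`Metric.mem_closure_iff`) and write it as a finite convex combination (`mem_convexHull_iff_exists_fintype` or
`convexHull_eq`; reindex the finite type by `Fin k`).
-/

set_option linter.unusedSectionVars false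

namespace Vale.Agent.Lib.P078

open scoped InnerProductSpace

variable {H : Type*} [NormedAddCommGroup H] [InnerProductSpace ℂ H] [CompleteSpace H]

/-- a continuous functional on `I → H` is a finite sum of inner products. -/
lemma exists_riesz_pi {I : Type} [Fintype I] (φ : (I → H) →L[ℂ] ℂ) :
    ∃ u : I → H, ∀ y : I → H, φ y = ∑ i, ⟪u i, y i⟫_ℂ := by
  classical
  refine ⟨fun i => (InnerProductSpace.toDual ℂ H).symm
    (φ.comp (ContinuousLinearMap.single ℂ (fun _ : I => H) i)), fun y => ?_⟩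
  have h1 : φ y = ∑ i, φ (Pi.single i (y i)) := by
    conv_lhs => rw [← Finset.univ_sum_single y]
    rw [map_sum]
  rw [h1]
  refine Finset.sum_congr rfl fun i _ => ?_
  rw [InnerProductSpace.toDual_symm_apply]
  rfl

/-- the point `i ↦ a (ζ i)` lies in the closed convex hull of the points `i ↦ T (ζ i)`, `T ∈ S`. -/
lemma mem_closure_convexHull {S : Set (H →L[ℂ] H)} {a : H →L[ℂ] H}
    (hwot : ∀ (I : Type) [Fintype I] (u v : I → H) (η : ℝ), 0 < η →
      ∃ T ∈ S, ∀ i, ‖⟪u i, (T - a) (v i)⟫_ℂ‖ < η)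
    {I : Type} [Fintype I] (ζ : I → H) :
    (fun i => a (ζ i)) ∈
      closure (convexHull ℝ ((fun (T : H →L[ℂ] H) (i : I) => T (ζ i)) '' S)) := by
  by_contra hnot
  obtain ⟨φ, c, hφ1, hφ2⟩ := RCLike.geometric_hahn_banach_closed_point (𝕜 := ℂ)
    (convex_convexHull ℝ _).closure isClosed_closure hnot
  obtain ⟨u, hu⟩ := exists_riesz_pi φ
  set δ : ℝ := RCLike.re (φ fun i => a (ζ i)) - c with hδ
  have hδ0 : 0 < δ := by rw [hδ]; linarith
  have hcard : (0 : ℝ) < (Fintype.card I : ℝ) + 1 := by positivity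
  obtain ⟨T, hTS, hT⟩ := hwot I u ζ (δ / ((Fintype.card I : ℝ) + 1)) (by positivity)
  have hmem : (fun i => T (ζ i)) ∈
      closure (convexHull ℝ ((fun (T : H →L[ℂ] H) (i : I) => T (ζ i)) '' S)) :=
    subset_closure (subset_convexHull ℝ _ ⟨T, hTS, rfl⟩)
  have h1 := hφ1 _ hmem
  have hdiff : φ (fun i => T (ζ i)) - φ (fun i => a (ζ i)) = ∑ i, ⟪u i, (T - a) (ζ i)⟫_ℂ := by
    rw [hu, hu, ← Finset.sum_sub_distrib]
    refine Finset.sum_congr rfl fun i _ => ?_
    rw [ContinuousLinearMap.sub_apply, inner_sub_right]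
  have hnorm : ‖φ (fun i => T (ζ i)) - φ (fun i => a (ζ i))‖ < δ := by
    rw [hdiff]
    calc ‖∑ i, ⟪u i, (T - a) (ζ i)⟫_ℂ‖ ≤ ∑ i, ‖⟪u i, (T - a) (ζ i)⟫_ℂ‖ := norm_sum_le _ _
      _ ≤ ∑ _i : I, δ / ((Fintype.card I : ℝ) + 1) :=
          Finset.sum_le_sum fun i _ => (hT i).le
      _ = (Fintype.card I : ℝ) * (δ / ((Fintype.card I : ℝ) + 1)) := by
          rw [Finset.sum_const, Finset.card_univ, nsmul_eq_mul]
      _ < δ := by
          rw [← mul_div_assoc, div_lt_iff₀ hcard]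
          nlinarith
  have hre : RCLike.re (φ fun i => a (ζ i)) - RCLike.re (φ fun i => T (ζ i)) < δ := by
    have h2 : RCLike.re (φ (fun i => a (ζ i)) - φ (fun i => T (ζ i))) ≤
        ‖φ (fun i => a (ζ i)) - φ (fun i => T (ζ i))‖ := RCLike.re_le_norm _
    rw [map_sub] at h2
    rw [norm_sub_rev] at h2
    linarith
  rw [hδ] at hre
  linarith

theorem exists_convex_approx {S : Set (H →L[ℂ] H)} {a : H →L[ℂ] H}
    (hwot : ∀ (I : Type) [Fintype I] (u v : I → H) (η : ℝ), 0 < η →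
      ∃ T ∈ S, ∀ i, ‖⟪u i, (T - a) (v i)⟫_ℂ‖ < η)
    {I : Type} [Fintype I] (ζ : I → H) {η : ℝ} (hη : 0 < η) :
    ∃ (k : ℕ) (lam : Fin k → ℝ) (T : Fin k → H →L[ℂ] H), (∀ j, 0 ≤ lam j) ∧ ∑ j, lam j = 1 ∧
      (∀ j, T j ∈ S) ∧ ∀ i, ‖(∑ j, (lam j : ℂ) • T j) (ζ i) - a (ζ i)‖ < η := by
  obtain ⟨b, hb, hdist⟩ := Metric.mem_closure_iff.1 (mem_closure_convexHull hwot ζ) η hη
  obtain ⟨ι, hι, w, z, hw0, hw1, hz, hsum⟩ := mem_convexHull_iff_exists_fintype.1 hb
  choose T hTS hTz using hz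
  let e : ι ≃ Fin (Fintype.card ι) := Fintype.equivFin ι
  refine ⟨Fintype.card ι, fun j => w (e.symm j), fun j => T (e.symm j), fun j => hw0 _, ?_,
    fun j => hTS _, fun i => ?_⟩
  · rw [← hw1]; exact Equiv.sum_comp e.symm w
  · have h1 : (∑ j, ((w (e.symm j) : ℝ) : ℂ) • T (e.symm j)) = ∑ l, ((w l : ℝ) : ℂ) • T l :=
      Equiv.sum_comp e.symm fun l => ((w l : ℝ) : ℂ) • T l
    have h2 : (∑ l, ((w l : ℝ) : ℂ) • T l) (ζ i) = b i := by
      rw [← hsum, ContinuousLinearMap.sum_apply, Finset.sum_apply]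
      refine Finset.sum_congr rfl fun l _ => ?_
      rw [ContinuousLinearMap.smul_apply, Pi.smul_apply, ← hTz l, Complex.coe_smul]
    rw [h1, h2]
    have h3 : ‖b i - a (ζ i)‖ ≤ ‖b - fun i => a (ζ i)‖ :=
      norm_le_pi_norm (b - fun i => a (ζ i)) i
    rw [dist_comm, dist_eq_norm] at hdist
    exact lt_of_le_of_lt h3 hdist

end Vale.Agent.Lib.P078
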