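import Vale.Agent.Lib.P078.Basic

/-!
# P078: thin MASAs (definition and first lemmas)

`A` is *thin* in `M` if `1` is a strong limit of projections `q ∈ M` that can be paved to `0` in norm over `A`:
for every finite `F ⊆ H` and `δ, τ > 0` there are a projection `q ∈ M` with `‖(1 - q) ξ‖ < δ` on `F` and a finite
partition `f` in `A` with `‖∑ b, f b * q * f b‖ ≤ τ`.
-/

set_option linter.unusedSectionVars false

namespace Vale.Agent.Lib.P078

variable {H : Type*} [NormedAddCommGroup H] [InnerProductSpace ℂ H] [CompleteSpace H]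

/-- `A` is thin in `M`. -/
def IsThin (M : VonNeumannAlgebra H) (A : StarSubalgebra ℂ (H →L[ℂ] H)) : Prop :=
  ∀ (F : Finset H) (δ τ : ℝ), 0 < δ → 0 < τ →
    ∃ (q : H →L[ℂ] H) (n : ℕ) (f : Fin n → H →L[ℂ] H), q ∈ M ∧ IsStarProjection q ∧
      (∀ ξ ∈ F, ‖(1 - q) ξ‖ < δ) ∧ IsPartition A f ∧ ‖pinching f q‖ ≤ τ

end Vale.Agent.Lib.P078
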