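import Vale.Agent.Lib.P078.Spectral
import Vale.Agent.Lib.P078.Thin.Defs

/-!
# P078 (subtask U2): spectral lemmas relative to a von Neumann algebra `M`

Blueprint.
* `IsMASA.bicommutant`: if `x` commutes with everything commuting with `A`, then `x` commutes with `M.commutant`
  (elements of the commutant commute with `A ⊆ M`), so `x ∈ M` (`VonNeumannAlgebra.commutant_commutant`,
  `VonNeumannAlgebra.mem_commutant_iff`), and `x` commutes with `A` (`A` is commutative), so `x ∈ A` by maximality.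
* `commute_of_commute_projections'`: copy the proof of `commute_of_commute_projections` (file `Spectral.lean`), replacing
  `hmax` by `hbic`.  `hmax` is only used to show that `b⁺`, `b⁻` and the kernel projections `E` of elements of `A` lie in
  `A`; all of these commute with every `y` commuting with `A` (`ker_proj_commute`, and CFC commutes with what commutes
  with `b`; note that `star y` also commutes with `A`).
* `exists_split_vN`: as `exists_split`: `e` = projection onto `ker b⁺` ... it commutes with every `z` such that `z` and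
  `star z` commute with `b`; in particular with `M.commutant`, hence `e ∈ M`.
* `exists_cut_nonneg`: apply `exists_split_vN` to `b = γ • q - c`; `q` and `c` commute with `b`; put `q' = q * e`.
  On the range of `q'`: `0 ≤ ⟪v, b v⟫ = γ ‖v‖^2 - ⟪v, c v⟫`.  For `w = (q - q') ξ = (1 - e) (q ξ)`:
  `0 ≥ ⟪w, b w⟫ = γ ‖w‖^2 - ⟪w, c w⟫` and `⟪w, c w⟫ = ⟪ξ, (1 - e) c ξ⟫ ≤ ⟪ξ, c ξ⟫` (`c`, `e` commute, `c ≥ 0`, `c q = c`).
* `exists_cut`: `exists_cut_nonneg` with `c = y * y`, `γ = η ^ 2`; `‖q' y q'‖ ≤ ‖y q'‖` and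
  `‖y q'‖^2 = ‖q' y y q'‖ ≤ η^2`.
-/

set_option linter.unusedSectionVars false

namespace Vale.Agent.Lib.P078

open scoped InnerProductSpace

variable {H : Type*} [NormedAddCommGroup H] [InnerProductSpace ℂ H] [CompleteSpace H]
variable {M : VonNeumannAlgebra H} {A : StarSubalgebra ℂ (H →L[ℂ] H)}

/-- A MASA of a von Neumann algebra equals its bicommutant. -/
lemma IsMASA.bicommutant (hM : IsMASA M A) :
    ∀ x : H →L[ℂ] H, (∀ y : H →L[ℂ] H, (∀ a ∈ A, a * y = y * a) → x * y = y * x) → x ∈ A := by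
  obtain ⟨hAM, hcomm, hmax⟩ := hM
  intro x hx
  refine hmax x ?_ ?_
  · rw [← M.commutant_commutant, VonNeumannAlgebra.mem_commutant_iff]
    intro g hg
    rw [VonNeumannAlgebra.mem_commutant_iff] at hg
    exact (hx g (fun a ha => hg a (hAM a ha))).symm
  · intro a ha
    exact (hx a (fun a' ha' => hcomm a' ha' a ha)).symm

/-- the adjoint of an operator commuting with `A` commutes with `A` -/
lemma star_comm_of_comm {y : H →L[ℂ] H} (hy : ∀ a ∈ A, a * y = y * a) :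
    ∀ a ∈ A, a * star y = star y * a := by
  intro a ha
  have h := congrArg star (hy (star a) (star_mem ha))
  simpa [star_mul] using h.symm

/-- Splitting a self-adjoint operator by a projection in its bicommutant. -/
lemma exists_split_base {b : H →L[ℂ] H} (hsa : IsSelfAdjoint b) :
    ∃ e : H →L[ℂ] H, IsStarProjection e ∧
      (∀ z : H →L[ℂ] H, z * b = b * z → star z * b = b * star z → z * e = e * z) ∧
      0 ≤ b * e ∧ 0 ≤ -(b * (1 - e)) := by
  obtain ⟨E, hE, h0, hu⟩ := exists_ker_proj (b⁺)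
  have hs : star E = E := hE.isSelfAdjoint.star_eq
  have hcomm : ∀ x : H →L[ℂ] H, x * b = b * x → x * b⁺ = b⁺ * x := by
    intro x hx
    have h1 : Commute b x := hx.symm
    have h2 : Commute (b⁺) x := by
      rw [CFC.posPart_def]
      exact h1.cfcₙ_real _
    exact h2.eq.symm
  have h3 : E * b⁻ = b⁻ := hu _ (CFC.posPart_mul_negPart b)
  have h4 : b⁻ * E = b⁻ := by
    have hn : star (b⁻) = b⁻ := (CFC.negPart_nonneg b).isSelfAdjoint.star_eq
    have := congrArg star h3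
    simpa [star_mul, hs, hn] using this
  have hdec : b⁺ - b⁻ = b := CFC.posPart_sub_negPart b hsa
  refine ⟨1 - E, hE.one_sub, ?_, ?_, ?_⟩
  · intro z hz hz'
    have := ker_proj_commute hE h0 hu (hcomm z hz) (hcomm _ hz')
    rw [mul_sub, sub_mul, mul_one, one_mul, this]
  · have : b * (1 - E) = b⁺ := by
      conv_lhs => rw [← hdec]
      rw [mul_sub, mul_one, sub_mul, h0, h4]
      abel
    rw [this]
    exact CFC.posPart_nonneg b
  · have : -(b * (1 - (1 - E))) = b⁻ := by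
      conv_lhs => rw [← hdec]
      rw [sub_sub_cancel, sub_mul, h0, h4]
      abel
    rw [this]
    exact CFC.negPart_nonneg b

/-- Splitting a self-adjoint element of `A = A''` by a projection of `A`. -/
lemma exists_split' (hbic : ∀ x : H →L[ℂ] H,
      (∀ y : H →L[ℂ] H, (∀ a ∈ A, a * y = y * a) → x * y = y * x) → x ∈ A)
    {b : H →L[ℂ] H} (hb : b ∈ A) (hsa : IsSelfAdjoint b) :
    ∃ e ∈ A, IsStarProjection e ∧ 0 ≤ b * e ∧ 0 ≤ -(b * (1 - e)) := by
  obtain ⟨e, he, hc, h1, h2⟩ := exists_split_base hsa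
  refine ⟨e, hbic e ?_, he, h1, h2⟩
  intro y hy
  exact (hc y (hy b hb).symm (star_comm_of_comm hy b hb).symm).symm

/-- One dyadic step. -/
lemma exists_dyadic' (hA : ∀ a ∈ A, ∀ b ∈ A, a * b = b * a)
    (hbic : ∀ x : H →L[ℂ] H,
      (∀ y : H →L[ℂ] H, (∀ a ∈ A, a * y = y * a) → x * y = y * x) → x ∈ A)
    {a : H →L[ℂ] H} {c : ℝ} (ha : a ∈ A) (h0 : 0 ≤ a) (h1 : a ≤ (c : ℂ) • (1 : H →L[ℂ] H)) :
    ∃ e ∈ A, IsStarProjection e ∧ 0 ≤ a - ((c / 2 : ℝ) : ℂ) • e ∧
      a - ((c / 2 : ℝ) : ℂ) • e ≤ ((c / 2 : ℝ) : ℂ) • (1 : H →L[ℂ] H) := by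
  have hone : IsSelfAdjoint (((c / 2 : ℝ) : ℂ) • (1 : H →L[ℂ] H)) := by
    rw [IsSelfAdjoint, star_smul, star_one]
    simp
  have hbA : a - ((c / 2 : ℝ) : ℂ) • (1 : H →L[ℂ] H) ∈ A :=
    A.sub_mem ha (A.smul_mem A.one_mem _)
  obtain ⟨e, heA, he, hp, hn⟩ := exists_split' hbic hbA (h0.isSelfAdjoint.sub hone)
  refine ⟨e, heA, he, ?_, ?_⟩
  · have h2 : 0 ≤ a * (1 - e) :=
      nonneg_mul_proj h0 he.one_sub (hA a ha _ (A.sub_mem A.one_mem heA))
    have h3 : a - ((c / 2 : ℝ) : ℂ) • e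
        = a * (1 - e) + (a - ((c / 2 : ℝ) : ℂ) • (1 : H →L[ℂ] H)) * e := by
      rw [mul_sub, sub_mul, mul_one, smul_mul_assoc, one_mul]
      abel
    rw [h3]
    exact add_nonneg h2 hp
  · have h2 : 0 ≤ ((c : ℂ) • (1 : H →L[ℂ] H) - a) * e :=
      nonneg_mul_proj (sub_nonneg.mpr h1) he
        (hA _ (A.sub_mem (A.smul_mem A.one_mem _) ha) _ heA)
    have h3 : ((c / 2 : ℝ) : ℂ) • (1 : H →L[ℂ] H) - (a - ((c / 2 : ℝ) : ℂ) • e)
        = -((a - ((c / 2 : ℝ) : ℂ) • (1 : H →L[ℂ] H)) * (1 - e))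
          + ((c : ℂ) • (1 : H →L[ℂ] H) - a) * e := by
      have hc : (c : ℂ) = ((c / 2 : ℝ) : ℂ) + ((c / 2 : ℝ) : ℂ) := by
        push_cast
        ring
      rw [hc, add_smul]
      simp only [mul_sub, sub_mul, mul_one, smul_mul_assoc, one_mul, add_mul]
      abel
    rw [← sub_nonneg, h3]
    exact add_nonneg hn h2

lemma norm_comm_le' (hA : ∀ a ∈ A, ∀ b ∈ A, a * b = b * a)
    (hbic : ∀ x : H →L[ℂ] H,
      (∀ y : H →L[ℂ] H, (∀ a ∈ A, a * y = y * a) → x * y = y * x) → x ∈ A)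
    (T : H →L[ℂ] H) (hT : ∀ e ∈ A, IsStarProjection e → e * T = T * e) (n : ℕ) :
    ∀ (a : H →L[ℂ] H) (c : ℝ), a ∈ A → 0 ≤ a → a ≤ (c : ℂ) • (1 : H →L[ℂ] H) →
      ‖a * T - T * a‖ ≤ 2 * ‖T‖ * |c| / 2 ^ n := by
  induction n with
  | zero =>
    intro a c _ h0 h1
    have h2 := norm_le_of_between h0 h1
    calc ‖a * T - T * a‖ ≤ ‖a * T‖ + ‖T * a‖ := norm_sub_le _ _
      _ ≤ ‖a‖ * ‖T‖ + ‖T‖ * ‖a‖ := add_le_add (norm_mul_le _ _) (norm_mul_le _ _)
      _ = 2 * ‖T‖ * ‖a‖ := by ring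
      _ ≤ 2 * ‖T‖ * |c| := by gcongr
      _ = 2 * ‖T‖ * |c| / 2 ^ 0 := by simp
  | succ n ih =>
    intro a c ha h0 h1
    obtain ⟨e, heA, he, h2, h3⟩ := exists_dyadic' hA hbic ha h0 h1
    have h4 := ih _ (c / 2) (A.sub_mem ha (A.smul_mem heA _)) h2 h3
    have h5 : (a - ((c / 2 : ℝ) : ℂ) • e) * T - T * (a - ((c / 2 : ℝ) : ℂ) • e)
        = a * T - T * a := by
      rw [sub_mul, mul_sub, smul_mul_assoc, mul_smul_comm, hT e heA he]
      abel
    rw [h5] at h4
    refine h4.trans (le_of_eq ?_)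
    rw [abs_div, pow_succ]
    simp only [abs_two]
    field_simp

lemma comm_of_nonneg' (hA : ∀ a ∈ A, ∀ b ∈ A, a * b = b * a)
    (hbic : ∀ x : H →L[ℂ] H,
      (∀ y : H →L[ℂ] H, (∀ a ∈ A, a * y = y * a) → x * y = y * x) → x ∈ A)
    (T : H →L[ℂ] H) (hT : ∀ e ∈ A, IsStarProjection e → e * T = T * e)
    {a : H →L[ℂ] H} (ha : a ∈ A) (h0 : 0 ≤ a) : a * T = T * a := by
  have h1 : a ≤ ((‖a‖ : ℝ) : ℂ) • (1 : H →L[ℂ] H) := by
    have := IsSelfAdjoint.le_algebraMap_norm_self h0.isSelfAdjoint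
    rw [Algebra.algebraMap_eq_smul_one] at this
    simpa using this
  have h2 : ∀ n : ℕ, ‖a * T - T * a‖ ≤ 2 * ‖T‖ * |‖a‖| / 2 ^ n := fun n =>
    norm_comm_le' hA hbic T hT n a ‖a‖ ha h0 h1
  have h3 : Filter.Tendsto (fun n : ℕ => 2 * ‖T‖ * |‖a‖| / 2 ^ n) Filter.atTop (nhds 0) := by
    have := tendsto_pow_atTop_nhds_zero_of_lt_one (r := (1 / 2 : ℝ)) (by norm_num) (by norm_num)
    have h := this.const_mul (2 * ‖T‖ * |‖a‖|)
    simp only [mul_zero] at h
    refine h.congr fun n => ?_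
    rw [one_div, inv_pow, div_eq_mul_inv]
  have h4 : ‖a * T - T * a‖ ≤ 0 := ge_of_tendsto' h3 h2
  exact sub_eq_zero.mp (norm_le_zero_iff.mp h4)

/-- An operator commuting with all projections of a commutative algebra `A = A''` commutes with
`A`. -/
theorem commute_of_commute_projections' (hA : ∀ a ∈ A, ∀ b ∈ A, a * b = b * a)
    (hbic : ∀ x : H →L[ℂ] H,
      (∀ y : H →L[ℂ] H, (∀ a ∈ A, a * y = y * a) → x * y = y * x) → x ∈ A)
    (T : H →L[ℂ] H) (hT : ∀ e ∈ A, IsStarProjection e → e * T = T * e) :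
    ∀ a ∈ A, a * T = T * a := by
  have hsa : ∀ b ∈ A, IsSelfAdjoint b → b * T = T * b := by
    intro b hb hs
    have hcomm : ∀ x : H →L[ℂ] H, (∀ a ∈ A, a * x = x * a) →
        b⁺ * x = x * b⁺ ∧ b⁻ * x = x * b⁻ := by
      intro x hx
      have h1 : Commute b x := hx b hb
      have h2 : Commute (b⁺) x := by
        rw [CFC.posPart_def]
        exact h1.cfcₙ_real _
      have h3 : Commute (b⁻) x := by
        rw [CFC.negPart_def]
        exact h1.cfcₙ_real _
      exact ⟨h2.eq, h3.eq⟩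
    have hp : b⁺ ∈ A := hbic _ fun x hx => (hcomm x hx).1
    have hn : b⁻ ∈ A := hbic _ fun x hx => (hcomm x hx).2
    have e1 := comm_of_nonneg' hA hbic T hT hp (CFC.posPart_nonneg b)
    have e2 := comm_of_nonneg' hA hbic T hT hn (CFC.negPart_nonneg b)
    rw [← CFC.posPart_sub_negPart b hs, sub_mul, mul_sub, e1, e2]
  intro a ha
  have hst : star a ∈ A := star_mem ha
  have hre : (realPart a : H →L[ℂ] H) ∈ A := by
    rw [realPart_apply_coe]
    exact A.smul_mem (A.add_mem ha hst) _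
  have him : (imaginaryPart a : H →L[ℂ] H) ∈ A := by
    rw [imaginaryPart_apply_coe]
    exact A.smul_mem (A.smul_mem (A.sub_mem ha hst) _) _
  have e1 := hsa _ hre (realPart a).2
  have e2 := hsa _ him (imaginaryPart a).2
  conv_lhs => rw [← realPart_add_I_smul_imaginaryPart a]
  conv_rhs => rw [← realPart_add_I_smul_imaginaryPart a]
  rw [add_mul, mul_add, smul_mul_assoc, mul_smul_comm, e1, e2]

lemma exists_split_vN {b : H →L[ℂ] H} (hb : b ∈ M) (hsa : IsSelfAdjoint b) :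
    ∃ e ∈ M, IsStarProjection e ∧
      (∀ z : H →L[ℂ] H, z * b = b * z → star z * b = b * star z → z * e = e * z) ∧
      0 ≤ b * e ∧ 0 ≤ -(b * (1 - e)) := by
  obtain ⟨e, he, hc, h1, h2⟩ := exists_split_base hsa
  refine ⟨e, ?_, he, hc, h1, h2⟩
  rw [← M.commutant_commutant, VonNeumannAlgebra.mem_commutant_iff]
  intro g hg
  have hg' : star g ∈ M.commutant := star_mem hg
  rw [VonNeumannAlgebra.mem_commutant_iff] at hg hg'
  exact hc g (hg b hb).symm (hg' b hb).symm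

/-- an operator inequality evaluated on a vector -/
lemma re_inner_le_of_le {a b : H →L[ℂ] H} (h : a ≤ b) (ξ : H) :
    (⟪ξ, a ξ⟫_ℂ).re ≤ (⟪ξ, b ξ⟫_ℂ).re := by
  rw [ContinuousLinearMap.le_def] at h
  have := h.re_inner_nonneg_right ξ
  simp only [sub_apply, inner_sub_right, map_sub] at this
  have h2 : RCLike.re (⟪ξ, b ξ⟫_ℂ) - RCLike.re (⟪ξ, a ξ⟫_ℂ) = (⟪ξ, b ξ⟫_ℂ).re - (⟪ξ, a ξ⟫_ℂ).re := rfl
  linarith

lemma proj_norm_sq {p : H →L[ℂ] H} (hp : IsStarProjection p) (ξ : H) :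
    ‖p ξ‖ ^ 2 = (⟪ξ, p ξ⟫_ℂ).re := by
  rw [proj_inner_right hp, inner_self_ofReal, Complex.ofReal_re]

lemma exists_cut_nonneg {q c : H →L[ℂ] H} (hq : q ∈ M) (hqp : IsStarProjection q) (hc : c ∈ M)
    (hc0 : 0 ≤ c) (hqc : q * c = c) {γ : ℝ} (hγ : 0 < γ) :
    ∃ q' ∈ M, IsStarProjection q' ∧ q * q' = q' ∧ ‖q' * c * q'‖ ≤ γ ∧
      ∀ ξ : H, γ * ‖(q - q') ξ‖ ^ 2 ≤ (⟪ξ, c ξ⟫_ℂ).re := by
  have hqs : star q = q := hqp.isSelfAdjoint.star_eq
  have hcs : star c = c := hc0.isSelfAdjoint.star_eq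
  have hqq : q * q = q := hqp.isIdempotentElem.eq
  have hcq : c * q = c := by
    have := congrArg star hqc
    simpa [star_mul, hqs, hcs] using this
  have hbM : (γ : ℂ) • q - c ∈ M := sub_mem (M.toStarSubalgebra.smul_mem hq _) hc
  have hbsa : IsSelfAdjoint ((γ : ℂ) • q - c) := by
    refine IsSelfAdjoint.sub ?_ hc0.isSelfAdjoint
    rw [IsSelfAdjoint, star_smul, hqs]
    simp
  obtain ⟨e, heM, he, hcomm, hpos, hneg⟩ := exists_split_vN hbM hbsa
  have hee : e * e = e := he.isIdempotentElem.eq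
  have hqb : q * ((γ : ℂ) • q - c) = ((γ : ℂ) • q - c) * q := by
    rw [mul_sub, sub_mul, mul_smul_comm, smul_mul_assoc, hqc, hcq]
  have hcb : c * ((γ : ℂ) • q - c) = ((γ : ℂ) • q - c) * c := by
    rw [mul_sub, sub_mul, mul_smul_comm, smul_mul_assoc, hqc, hcq]
  have hqe : q * e = e * q := hcomm q hqb (by rw [hqs]; exact hqb)
  have hce : c * e = e * c := hcomm c hcb (by rw [hcs]; exact hcb)
  have hq' : IsStarProjection (q * e) := hqp.mul he hqe
  have hce0 : 0 ≤ c * e := nonneg_mul_proj hc0 he hce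
  have hce1 : 0 ≤ c * (1 - e) := by
    refine nonneg_mul_proj hc0 he.one_sub ?_
    rw [mul_sub, sub_mul, mul_one, one_mul, hce]
  refine ⟨q * e, mul_mem hq heM, hq', ?_, ?_, ?_⟩
  · rw [← mul_assoc, hqq]
  · have e1 : q * e * c * (q * e) = c * e := by
      calc q * e * c * (q * e) = q * (e * c) * (q * e) := by simp only [mul_assoc]
        _ = q * (c * e) * (q * e) := by rw [hce]
        _ = (q * c) * (e * q) * e := by simp only [mul_assoc]
        _ = c * (q * e) * e := by rw [hqc, hqe]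
        _ = (c * q) * (e * e) := by simp only [mul_assoc]
        _ = c * e := by rw [hcq, hee]
    rw [e1]
    have e2 : c * e ≤ (γ : ℂ) • (q * e) := by
      rw [← sub_nonneg]
      have : (γ : ℂ) • (q * e) - c * e = ((γ : ℂ) • q - c) * e := by
        rw [sub_mul, smul_mul_assoc]
      rw [this]
      exact hpos
    have h2 := CStarAlgebra.norm_le_norm_of_nonneg_of_le hce0 e2
    refine h2.trans ?_
    rw [norm_smul]
    have h3 : ‖q * e‖ ≤ 1 := IsStarProjection.norm_le _ hq'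
    calc ‖(γ : ℂ)‖ * ‖q * e‖ ≤ ‖(γ : ℂ)‖ * 1 := by gcongr
      _ = γ := by simp [abs_of_pos hγ]
  · intro ξ
    have hp : IsStarProjection (q * (1 - e)) := by
      refine hqp.mul he.one_sub ?_
      show q * (1 - e) = (1 - e) * q
      rw [mul_sub, sub_mul, mul_one, one_mul, hqe]
    have e0 : q - q * e = q * (1 - e) := by rw [mul_sub, mul_one]
    rw [e0, proj_norm_sq hp]
    have e3 : (γ : ℂ) • (q * (1 - e)) ≤ c := by
      have e4 : c - (γ : ℂ) • (q * (1 - e)) = -(((γ : ℂ) • q - c) * (1 - e)) + c * e := by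
        rw [sub_mul, smul_mul_assoc, mul_sub c, mul_one]
        abel
      rw [← sub_nonneg, e4]
      exact add_nonneg hneg hce0
    have h5 := re_inner_le_of_le e3 ξ
    simp only [smul_apply, inner_smul_right, Complex.mul_re,
      Complex.ofReal_re, Complex.ofReal_im, zero_mul, sub_zero] at h5
    exact h5

lemma exists_cut {q y : H →L[ℂ] H} (hq : q ∈ M) (hqp : IsStarProjection q) (hy : y ∈ M)
    (hsa : IsSelfAdjoint y) (hqy : q * y = y) {η : ℝ} (hη : 0 < η) :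
    ∃ q' ∈ M, IsStarProjection q' ∧ q * q' = q' ∧ ‖q' * y * q'‖ ≤ η ∧
      ∀ ξ : H, η * ‖(q - q') ξ‖ ≤ ‖y ξ‖ := by
  have hys : star y = y := hsa.star_eq
  have hc0 : 0 ≤ y * y := by
    have := star_mul_self_nonneg y
    rwa [hys] at this
  obtain ⟨q', hq'M, hq', h1, h2, h3⟩ := exists_cut_nonneg hq hqp (mul_mem hy hy) hc0
    (by rw [← mul_assoc, hqy]) (pow_pos hη 2)
  have hq's : star q' = q' := hq'.isSelfAdjoint.star_eq
  refine ⟨q', hq'M, hq', h1, ?_, ?_⟩
  · have h4 : ‖y * q'‖ ^ 2 ≤ η ^ 2 := by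
      have h5 : ‖star (y * q') * (y * q')‖ = ‖y * q'‖ * ‖y * q'‖ := CStarRing.norm_star_mul_self
      have h6 : star (y * q') * (y * q') = q' * (y * y) * q' := by
        rw [star_mul, hys, hq's]
        simp only [mul_assoc]
      rw [h6] at h5
      rw [sq, ← h5]
      exact h2
    have h7 : ‖y * q'‖ ≤ η := (pow_le_pow_iff_left₀ (norm_nonneg _) hη.le two_ne_zero).1 h4
    have h8 : ‖q'‖ ≤ 1 := IsStarProjection.norm_le _ hq'
    calc ‖q' * y * q'‖ = ‖q' * (y * q')‖ := by rw [mul_assoc]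
      _ ≤ ‖q'‖ * ‖y * q'‖ := norm_mul_le _ _
      _ ≤ 1 * η := by gcongr
      _ = η := one_mul _
  · intro ξ
    have h4 := h3 ξ
    have h5 : (⟪ξ, (y * y) ξ⟫_ℂ).re = ‖y ξ‖ ^ 2 := by
      have : ⟪ξ, (y * y) ξ⟫_ℂ = ⟪y ξ, y ξ⟫_ℂ := by
        rw [sa_inner hsa]
        rfl
      rw [this, inner_self_ofReal, Complex.ofReal_re]
    rw [h5, ← mul_pow] at h4
    exact (pow_le_pow_iff_left₀ (by positivity) (norm_nonneg _) two_ne_zero).1 h4

end Vale.Agent.Lib.P078
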