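import Vale.Agent.Lib.P078.Thin.WotCompact
import Vale.Agent.Lib.P078.Thin.Spectral2
import Vale.Agent.Lib.P078.Step

/-!
# P078 (subtask U3b): a weak operator cluster point of the fine pinchings of `x` lies in the MASA

Blueprint.  Let `S f₀ = finePinchings A f₀ x`.
1. `S f₀` is nonempty (`g = fun _ : Unit => 1`, `IsPartition.unit` in `Step.lean`, or reprove), every `T ∈ S f₀` is self-adjoint, lies in
   `M`, has `‖T‖ ≤ ‖x‖` (`IsPartition.norm_pinching_le`, `IsPartition.prod`) and commutes with every `f₀ b`.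
2. `S (fun p : ι₀ × ι₁ => f₀ p.1 * f₁ p.2) ⊆ S f₀ ∩ S f₁` (reindex with `Equiv.prodAssoc`, `mul_assoc`, commutativity of `A`).
   Hence the filter `⨅ f₀, 𝓟 (S f₀)` (index: sigma type of all partitions with index type in `Type`) is `NeBot`
   (`Filter.iInf_neBot_of_directed'`).  Take `U = Ultrafilter.of` it and `a` from `exists_wot_ultralimit` with `C = ‖x‖`.
3. `a` is self-adjoint: `⟪u, a v⟫ = lim ⟪u, T v⟫ = lim ⟪T u, v⟫ = ⟪a u, v⟫` (limits of conjugates).
   `a ∈ M`: for `m ∈ M.commutant`, `⟪u, a (m v)⟫ = lim ⟪u, T (m v)⟫ = lim ⟪star m u, T v⟫ = ⟪u, m (a v)⟫`; use `commutant_commutant`.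
   `a` commutes with every projection `e ∈ A`: eventually `T ∈ S (bool partition of e)` (`IsPartition.bool` in `Step.lean`), which commutes with `e`.
   Then `commute_of_commute_projections'` (with `IsMASA.bicommutant`) and maximality give `a ∈ A`.
4. The last clause: `S f₀ ∈ U` and `{T | ∀ i, ‖⟪u i, (T - a) (v i)⟫‖ < η} ∈ U` (finite intersection of preimages of
   neighbourhoods); two members of an ultrafilter meet.
-/

set_option linter.unusedSectionVars false

namespace Vale.Agent.Lib.P078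

open scoped InnerProductSpace

variable {H : Type*} [NormedAddCommGroup H] [InnerProductSpace ℂ H] [CompleteSpace H]
variable {M : VonNeumannAlgebra H} {A : StarSubalgebra ℂ (H →L[ℂ] H)}

/-- The pinchings of `x` by the partitions `(f₀ b * g u)`, `g` a partition in `A`. -/
def finePinchings (A : StarSubalgebra ℂ (H →L[ℂ] H)) {ι₀ : Type*} [Fintype ι₀]
    (f₀ : ι₀ → H →L[ℂ] H) (x : H →L[ℂ] H) : Set (H →L[ℂ] H) :=
  {T | ∃ (κ : Type) (_ : Fintype κ) (g : κ → H →L[ℂ] H), IsPartition A g ∧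
    T = pinching (fun p : ι₀ × κ => f₀ p.1 * g p.2) x}

/-- A bundled finite partition in `A` with index type in `Type`. -/
structure BPart (A : StarSubalgebra ℂ (H →L[ℂ] H)) where
  idx : Type
  inst : Fintype idx
  f : idx → H →L[ℂ] H
  isP : IsPartition A f

attribute [instance] BPart.inst

lemma finePinchings_nonempty {ι₀ : Type*} [Fintype ι₀] (f₀ : ι₀ → H →L[ℂ] H) (x : H →L[ℂ] H) :
    (finePinchings A f₀ x).Nonempty :=
  ⟨_, Unit, inferInstance, fun _ => 1, IsPartition.unit, rfl⟩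

lemma finePinchings_prod_left (hA : ∀ a ∈ A, ∀ b ∈ A, a * b = b * a)
    {ι₀ ι₁ : Type} [Fintype ι₀] [Fintype ι₁] {f₀ : ι₀ → H →L[ℂ] H} {f₁ : ι₁ → H →L[ℂ] H}
    (h₁ : IsPartition A f₁) (x : H →L[ℂ] H) :
    finePinchings A (fun p : ι₀ × ι₁ => f₀ p.1 * f₁ p.2) x ⊆ finePinchings A f₀ x := by
  rintro T ⟨κ, _, g, hg, rfl⟩
  refine ⟨ι₁ × κ, inferInstance, fun q => f₁ q.1 * g q.2, h₁.prod hA hg, ?_⟩
  unfold pinching
  simp only [Fintype.sum_prod_type, mul_assoc]

lemma finePinchings_prod_right (hA : ∀ a ∈ A, ∀ b ∈ A, a * b = b * a)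
    {ι₀ ι₁ : Type} [Fintype ι₀] [Fintype ι₁] {f₀ : ι₀ → H →L[ℂ] H} {f₁ : ι₁ → H →L[ℂ] H}
    (h₀ : IsPartition A f₀) (h₁ : IsPartition A f₁) (x : H →L[ℂ] H) :
    finePinchings A (fun p : ι₀ × ι₁ => f₀ p.1 * f₁ p.2) x ⊆ finePinchings A f₁ x := by
  rintro T ⟨κ, _, g, hg, rfl⟩
  refine ⟨ι₀ × κ, inferInstance, fun q => f₀ q.1 * g q.2, h₀.prod hA hg, ?_⟩
  unfold pinching
  simp only [Fintype.sum_prod_type]
  rw [Finset.sum_comm]
  refine Finset.sum_congr rfl fun b _ => Finset.sum_congr rfl fun a _ =>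
    Finset.sum_congr rfl fun c _ => ?_
  have h : f₀ a * f₁ b * g c = f₁ b * (f₀ a * g c) := by
    rw [hA _ (h₀.mem a) _ (h₁.mem b), mul_assoc]
  rw [h]

lemma isSelfAdjoint_pinching {ι : Type*} [Fintype ι] {f : ι → H →L[ℂ] H}
    (hf : ∀ i, IsSelfAdjoint (f i)) {x : H →L[ℂ] H} (hx : IsSelfAdjoint x) :
    IsSelfAdjoint (pinching f x) := by
  unfold pinching
  refine isSelfAdjoint_sum _ fun i _ => ?_
  have h := hx.conjugate (f i)
  rwa [(hf i).star_eq] at h

lemma pinching_mem {ι : Type*} [Fintype ι] {f : ι → H →L[ℂ] H}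
    (hf : ∀ i, f i ∈ M) {x : H →L[ℂ] H} (hx : x ∈ M) : pinching f x ∈ M := by
  unfold pinching
  exact sum_mem fun i _ => mul_mem (mul_mem (hf i) hx) (hf i)

lemma finePinchings_commute (hA : ∀ a ∈ A, ∀ b ∈ A, a * b = b * a)
    {ι₀ : Type*} [Fintype ι₀] {f₀ : ι₀ → H →L[ℂ] H} (h₀ : IsPartition A f₀) {x T : H →L[ℂ] H}
    (hT : T ∈ finePinchings A f₀ x) (b : ι₀) : f₀ b * T = T * f₀ b := by
  obtain ⟨κ, _, g, hg, rfl⟩ := hT
  unfold pinching
  rw [Finset.mul_sum, Finset.sum_mul]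
  refine Finset.sum_congr rfl fun p _ => ?_
  obtain ⟨a, c⟩ := p
  show f₀ b * (f₀ a * g c * x * (f₀ a * g c)) = f₀ a * g c * x * (f₀ a * g c) * f₀ b
  have hcomm : f₀ a * g c * f₀ b = f₀ b * (f₀ a * g c) :=
    hA _ (A.mul_mem (h₀.mem a) (hg.mem c)) _ (h₀.mem b)
  by_cases hab : b = a
  · subst hab
    have h1 : f₀ b * (f₀ b * g c) = f₀ b * g c := by
      rw [← mul_assoc, (h₀.proj b).isIdempotentElem.eq]
    rw [mul_assoc (f₀ b * g c * x), hcomm, h1, mul_assoc (f₀ b * g c), ← mul_assoc (f₀ b), h1,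
      mul_assoc]
  · have h1 : f₀ b * (f₀ a * g c) = 0 := by
      rw [← mul_assoc, h₀.orth b a hab, zero_mul]
    rw [mul_assoc (f₀ a * g c * x), hcomm, h1, mul_zero, mul_assoc (f₀ a * g c), ← mul_assoc (f₀ b),
      h1, zero_mul]

/-- An operator commuting with eventually all `T` commutes with the weak operator limit. -/
lemma commute_wot_limit {U : Filter (H →L[ℂ] H)} [U.NeBot] {a : H →L[ℂ] H}
    (ha : ∀ u v : H, Filter.Tendsto (fun T : H →L[ℂ] H => ⟪u, T v⟫_ℂ) U (nhds ⟪u, a v⟫_ℂ))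
    {m : H →L[ℂ] H} (hm : ∀ᶠ T in U, m * T = T * m) : m * a = a * m := by
  refine ContinuousLinearMap.ext fun v => ext_inner_left ℂ fun u => ?_
  show ⟪u, m (a v)⟫_ℂ = ⟪u, a (m v)⟫_ℂ
  rw [← ContinuousLinearMap.adjoint_inner_left]
  refine tendsto_nhds_unique_of_eventuallyEq (ha _ v) (ha u (m v)) ?_
  filter_upwards [hm] with T hT
  rw [ContinuousLinearMap.adjoint_inner_left]
  have := congrArg (fun S : H →L[ℂ] H => S v) hT
  exact congrArg (fun w => ⟪u, w⟫_ℂ) this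

theorem exists_wot_limit (hM : IsMASA M A) {x : H →L[ℂ] H} (hxM : x ∈ M)
    (hx : IsSelfAdjoint x) :
    ∃ a ∈ A, IsSelfAdjoint a ∧ ‖a‖ ≤ ‖x‖ ∧
      ∀ (ι₀ : Type) [Fintype ι₀] (f₀ : ι₀ → H →L[ℂ] H), IsPartition A f₀ →
        ∀ (I : Type) [Fintype I] (u v : I → H) (η : ℝ), 0 < η →
          ∃ T ∈ finePinchings A f₀ x, ∀ i, ‖⟪u i, (T - a) (v i)⟫_ℂ‖ < η := by
  have hA := hM.2.1
  let F : Filter (H →L[ℂ] H) := ⨅ P : BPart A, Filter.principal (finePinchings A P.f x)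
  have : Nonempty (BPart A) := ⟨⟨Unit, inferInstance, fun _ => 1, IsPartition.unit⟩⟩
  have hF : F.NeBot := by
    refine Filter.iInf_neBot_of_directed' ?_ ?_
    · intro P Q
      refine ⟨⟨P.idx × Q.idx, inferInstance, fun p => P.f p.1 * Q.f p.2, P.isP.prod hA Q.isP⟩,
        ?_, ?_⟩
      · exact Filter.principal_mono.2 (finePinchings_prod_left hA Q.isP x)
      · exact Filter.principal_mono.2 (finePinchings_prod_right hA P.isP Q.isP x)
    · intro P
      exact Filter.principal_neBot_iff.2 (finePinchings_nonempty _ _)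
  let U : Ultrafilter (H →L[ℂ] H) := Ultrafilter.of F
  have hS : ∀ (ι₀ : Type) [Fintype ι₀] (f₀ : ι₀ → H →L[ℂ] H), IsPartition A f₀ →
      ∀ᶠ T in (U : Filter (H →L[ℂ] H)), T ∈ finePinchings A f₀ x := by
    intro ι₀ _ f₀ h₀
    have h1 : finePinchings A f₀ x ∈ F :=
      Filter.mem_iInf_of_mem (⟨ι₀, inferInstance, f₀, h₀⟩ : BPart A) (Filter.mem_principal_self _)
    exact Ultrafilter.of_le F h1
  have hunit := hS Unit (fun _ => 1) IsPartition.unit
  have hC : ∀ᶠ T in (U : Filter (H →L[ℂ] H)), ‖T‖ ≤ ‖x‖ := by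
    filter_upwards [hunit] with T hT
    obtain ⟨κ, _, g, hg, rfl⟩ := hT
    exact (IsPartition.unit.prod hA hg).norm_pinching_le x
  have hsa : ∀ᶠ T in (U : Filter (H →L[ℂ] H)), IsSelfAdjoint T := by
    filter_upwards [hunit] with T hT
    obtain ⟨κ, _, g, hg, rfl⟩ := hT
    exact isSelfAdjoint_pinching
      (fun i => ((IsPartition.unit.prod hA hg).proj i).isSelfAdjoint) hx
  have hmem : ∀ᶠ T in (U : Filter (H →L[ℂ] H)), T ∈ M := by
    filter_upwards [hunit] with T hT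
    obtain ⟨κ, _, g, hg, rfl⟩ := hT
    exact pinching_mem (fun i => hM.1 _ ((IsPartition.unit.prod hA hg).mem i)) hxM
  obtain ⟨a, haC, ha⟩ := exists_wot_ultralimit U hC
  have haM : a ∈ M := by
    rw [← VonNeumannAlgebra.commutant_commutant M, VonNeumannAlgebra.mem_commutant_iff]
    intro m hm
    refine commute_wot_limit ha ?_
    filter_upwards [hmem] with T hT
    exact ((VonNeumannAlgebra.mem_commutant_iff.1 hm) T hT).symm
  have haA : a ∈ A := by
    refine hM.2.2 a haM ?_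
    refine commute_of_commute_projections' hA hM.bicommutant a ?_
    intro e he hep
    refine commute_wot_limit ha ?_
    filter_upwards [hS Bool _ (IsPartition.bool he hep)] with T hT
    exact finePinchings_commute hA (IsPartition.bool he hep) hT true
  have hasa : IsSelfAdjoint a := by
    rw [ContinuousLinearMap.isSelfAdjoint_iff_isSymmetric]
    intro u v
    show ⟪a u, v⟫_ℂ = ⟪u, a v⟫_ℂ
    have h1 : Filter.Tendsto (fun T : H →L[ℂ] H => ⟪T u, v⟫_ℂ) (U : Filter (H →L[ℂ] H))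
        (nhds ⟪a u, v⟫_ℂ) := by
      have h2 := (Complex.continuous_conj.tendsto _).comp (ha v u)
      rw [inner_conj_symm] at h2
      refine h2.congr fun T => ?_
      exact inner_conj_symm _ _
    refine tendsto_nhds_unique_of_eventuallyEq h1 (ha u v) ?_
    filter_upwards [hsa] with T hT
    exact sa_inner hT u v
  refine ⟨a, haA, hasa, haC, ?_⟩
  intro ι₀ _ f₀ h₀ I _ u v η hη
  have hE : ∀ᶠ T in (U : Filter (H →L[ℂ] H)), ∀ i, ‖⟪u i, (T - a) (v i)⟫_ℂ‖ < η := by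
    rw [Filter.eventually_all]
    intro i
    filter_upwards [Metric.tendsto_nhds.1 (ha (u i) (v i)) η hη] with T hT
    rw [dist_eq_norm, ← inner_sub_right] at hT
    exact hT
  obtain ⟨T, hT1, hT2⟩ := ((hS ι₀ f₀ h₀).and hE).exists
  exact ⟨T, hT1, hT2⟩

end Vale.Agent.Lib.P078
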