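import Vale.Agent.Lib.P078.Thin.Select
import Vale.Agent.Lib.P078.Thin.Color
import Vale.Agent.Lib.P078.Thin.WotLimit
import Vale.Agent.Lib.P078.Thin.Mazur

/-!
# P078 (subtask U5c): the two core approximation theorems for a MASA `A` of `M`

Blueprint.
`exists_pinching_approx`.  Let `a'` be the operator of `exists_wot_limit` (it depends only on `x`).  Given `q`, `f₀` (with `‖q * f₀ b‖^2 ≤ τ`), vectors `ζ i`, `γ > 0`:
1. `exists_convex_approx` with `S = finePinchings A f₀ x` (hypothesis `hwot` = last clause of `exists_wot_limit`) gives `k`, `lam`, `T j ∈ S` with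
   `‖(∑ lam j • T j) (ζ i) - a' (ζ i)‖ < γ`.  `choose κ inst g hg hT using` the memberships `T j ∈ finePinchings A f₀ x`.
2. `exists_selection_op` gives `sel`; let `f = selPart κ f₀ g sel` (index type `Σ b, κ (sel b)`, a partition by `isPartition_selPart`).
3. `‖q ((pinching f x - a') (ζ i))‖ ≤ ‖q ((pinching f x - xbar) (ζ i))‖ + ‖q‖ ‖(xbar - a') (ζ i)‖ ≤ sqrt (4 τ ‖x‖^2 Z) + γ`, `Z = ∑ i ‖ζ i‖^2`
   (a term of a sum of squares is at most the sum; `‖q‖ ≤ 1`).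
`exists_paving_approx`.  Take `f` from `exists_pinching_approx`; `‖q * f t‖^2 ≤ τ` by the refinement clause and `norm_mul_prod_sq_le`-type reasoning
(`‖q * (f₀ b * e)‖ ≤ ‖q * f₀ b‖ ‖e‖`).  `exists_coloring_op` gives `col`; `p = coarsen f col`.  Then
`pinching p x - (1 - 1/r) • a' - (1/r) • x = [pinching p x - (1 - 1/r) • pinching f x - (1/r) • x] + (1 - 1/r) • (pinching f x - a')`, and `|1 - 1/r| ≤ 1`,
`sqrt 2 + 2 ≤ 4`.
-/

set_option linter.unusedSectionVars false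

namespace Vale.Agent.Lib.P078

open scoped InnerProductSpace

variable {H : Type*} [NormedAddCommGroup H] [InnerProductSpace ℂ H] [CompleteSpace H]
variable {M : VonNeumannAlgebra H} {A : StarSubalgebra ℂ (H →L[ℂ] H)}

/-- Extracting a square root from a quadratic bound (valid also for negative `τ`). -/
lemma le_sqrt_aux {v c τ X Z : ℝ} (_hv : 0 ≤ v) (hX : 0 ≤ X) (hZ : 0 ≤ Z) (hc0 : 0 ≤ c)
    (hc : c ≤ 4) (h : v ^ 2 ≤ c * τ * X ^ 2 * Z) :
    v ≤ 2 * Real.sqrt τ * X * Real.sqrt Z := by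
  have hXZ : 0 ≤ X ^ 2 * Z := by positivity
  by_cases hτ : 0 ≤ τ
  · have h1 : (2 * Real.sqrt τ * X * Real.sqrt Z) ^ 2 = 4 * τ * X ^ 2 * Z := by
      rw [mul_pow, mul_pow, mul_pow, Real.sq_sqrt hτ, Real.sq_sqrt hZ]
      norm_num
    have h2 : v ^ 2 ≤ (2 * Real.sqrt τ * X * Real.sqrt Z) ^ 2 := by
      rw [h1]
      have h3 : c * (τ * (X ^ 2 * Z)) ≤ 4 * (τ * (X ^ 2 * Z)) :=
        mul_le_mul_of_nonneg_right hc (mul_nonneg hτ hXZ)
      nlinarith
    exact (abs_le_of_sq_le_sq' h2 (by positivity)).2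
  · have hτ' : τ ≤ 0 := le_of_not_ge hτ
    have h1 : c * τ * X ^ 2 * Z ≤ 0 := by
      have : c * (-τ) * (X ^ 2 * Z) ≥ 0 := by
        have h4 : 0 ≤ -τ := by linarith
        positivity
      nlinarith
    have h2 : v ^ 2 ≤ 0 := h.trans h1
    have h3 : v = 0 := by
      have := sq_nonneg v
      exact pow_eq_zero_iff (two_ne_zero) |>.1 (le_antisymm h2 this)
    rw [h3]
    positivity

lemma term_le_sum {I : Type*} [Fintype I] (F : I → ℝ) (hF : ∀ i, 0 ≤ F i) (i : I) :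
    F i ≤ ∑ i, F i :=
  Finset.single_le_sum (fun j _ => hF j) (Finset.mem_univ i)

lemma norm_one_sub_inv_le {r : ℕ} (hr : 0 < r) : ‖(1 - 1 / (r : ℂ))‖ ≤ 1 := by
  have h1 : (1 - 1 / (r : ℂ)) = ((1 - 1 / (r : ℝ) : ℝ) : ℂ) := by
    push_cast
    ring
  have hr' : (1 : ℝ) ≤ r := by exact_mod_cast hr
  have h2 : 1 / (r : ℝ) ≤ 1 := by
    rw [div_le_one (by linarith)]
    exact hr'
  have h3 : 0 ≤ 1 / (r : ℝ) := by positivity
  rw [h1, Complex.norm_real, Real.norm_eq_abs, abs_le]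
  constructor <;> linarith

/-- There is `a' ∈ A` depending only on `x` such that for every pair `(q, f₀)` with `‖q * f₀ b‖^2 ≤ τ` some partition `f`
refining `f₀` has `q (S_f(x) - a')` small on given vectors. -/
theorem exists_pinching_approx (hM : IsMASA M A) {x : H →L[ℂ] H} (hxM : x ∈ M)
    (hx : IsSelfAdjoint x) :
    ∃ a' ∈ A, IsSelfAdjoint a' ∧ ‖a'‖ ≤ ‖x‖ ∧
      ∀ (q : H →L[ℂ] H), IsStarProjection q → ∀ (ι₀ : Type) [Fintype ι₀] (f₀ : ι₀ → H →L[ℂ] H),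
        IsPartition A f₀ → ∀ τ : ℝ, (∀ b, ‖q * f₀ b‖ ^ 2 ≤ τ) →
        ∀ (I : Type) [Fintype I] (ζ : I → H) (γ : ℝ), 0 < γ →
          ∃ (T : Type) (_ : Fintype T) (f : T → H →L[ℂ] H), IsPartition A f ∧
            (∀ t, ∃ (b : ι₀) (e : H →L[ℂ] H), IsStarProjection e ∧ f t = f₀ b * e) ∧
            ∀ i, ‖q ((pinching f x - a') (ζ i))‖
              ≤ 2 * Real.sqrt τ * ‖x‖ * Real.sqrt (∑ i, ‖ζ i‖ ^ 2) + γ := by
  obtain ⟨a', ha'A, ha'sa, ha'n, hwot⟩ := exists_wot_limit hM hxM hx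
  refine ⟨a', ha'A, ha'sa, ha'n, ?_⟩
  intro q hq ι₀ _ f₀ hf₀ τ hτ I _ ζ γ hγ
  obtain ⟨k, lam, T, h0, h1, hTS, happ⟩ :=
    exists_convex_approx (S := finePinchings A f₀ x) (a := a') (hwot ι₀ f₀ hf₀) ζ hγ
  choose κ inst g hg hT using hTS
  let _ : ∀ j, Fintype (κ j) := inst
  obtain ⟨sel, hsel⟩ := exists_selection_op (κ := κ) (g := g) hM.2.1 hf₀ hg lam h0 h1 q x hτ ζ
  refine ⟨Σ b, κ (sel b), inferInstance, selPart κ f₀ g sel,
    isPartition_selPart (κ := κ) (g := g) hM.2.1 hf₀ hg sel, ?_, ?_⟩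
  · rintro ⟨b, u⟩
    exact ⟨b, g (sel b) u, (hg (sel b)).proj u, rfl⟩
  · intro i
    have hxbar : ∑ j, (lam j : ℂ) • pinching (fun p : ι₀ × κ j => f₀ p.1 * g j p.2) x
        = ∑ j, (lam j : ℂ) • T j :=
      Finset.sum_congr rfl fun j _ => by rw [hT j]
    rw [hxbar] at hsel
    set xbar : H →L[ℂ] H := ∑ j, (lam j : ℂ) • T j with hxb
    set f := selPart κ f₀ g sel with hf
    have e1 : q ((pinching f x - a') (ζ i))
        = q ((pinching f x - xbar) (ζ i)) + q (xbar (ζ i) - a' (ζ i)) := by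
      rw [← map_add]
      congr 1
      simp only [sub_apply]
      abel
    have b1 : ‖q ((pinching f x - xbar) (ζ i))‖
        ≤ 2 * Real.sqrt τ * ‖x‖ * Real.sqrt (∑ i, ‖ζ i‖ ^ 2) := by
      refine le_sqrt_aux (c := 4) (norm_nonneg _) (norm_nonneg _)
        (Finset.sum_nonneg fun j _ => by positivity) (by norm_num) le_rfl ?_
      exact (term_le_sum (fun i => ‖q ((pinching f x - xbar) (ζ i))‖ ^ 2)
        (fun j => by positivity) i).trans hsel
    have b2 : ‖q (xbar (ζ i) - a' (ζ i))‖ ≤ γ :=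
      (proj_norm_le hq _).trans (happ i).le
    rw [e1]
    exact (norm_add_le _ _).trans (add_le_add b1 b2)

/-- There is `a' ∈ A` depending only on `x` such that for every pair `(q, f₀)` with `‖q * f₀ b‖^2 ≤ τ` some partition `p` with
`r` pieces has `q (S_p(x) - (1 - 1/r) a' - x / r)` small on given vectors. -/
theorem exists_paving_approx (hM : IsMASA M A) {x : H →L[ℂ] H} (hxM : x ∈ M)
    (hx : IsSelfAdjoint x) :
    ∃ a' ∈ A, IsSelfAdjoint a' ∧ ‖a'‖ ≤ ‖x‖ ∧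
      ∀ (q : H →L[ℂ] H), IsStarProjection q → ∀ (ι₀ : Type) [Fintype ι₀] (f₀ : ι₀ → H →L[ℂ] H),
        IsPartition A f₀ → ∀ τ : ℝ, (∀ b, ‖q * f₀ b‖ ^ 2 ≤ τ) → ∀ r : ℕ, 0 < r →
        ∀ (I : Type) [Fintype I] (ζ : I → H) (γ : ℝ), 0 < γ →
          ∃ p : Fin r → H →L[ℂ] H, IsPartition A p ∧
            ∀ i, ‖q ((pinching p x - (1 - 1 / (r : ℂ)) • a' - (1 / (r : ℂ)) • x) (ζ i))‖
              ≤ 4 * Real.sqrt τ * ‖x‖ * Real.sqrt (∑ i, ‖ζ i‖ ^ 2) + γ := by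
  classical
  obtain ⟨a', ha'A, ha'sa, ha'n, Hyp⟩ := exists_pinching_approx hM hxM hx
  refine ⟨a', ha'A, ha'sa, ha'n, ?_⟩
  intro q hq ι₀ _ f₀ hf₀ τ hτ r hr I _ ζ γ hγ
  obtain ⟨T, instT, f, hf, href, hest⟩ := Hyp q hq ι₀ f₀ hf₀ τ hτ I ζ γ hγ
  have hqf : ∀ t, ‖q * f t‖ ^ 2 ≤ τ := by
    intro t
    obtain ⟨b, e, he, hfe⟩ := href t
    rw [hfe]
    exact norm_mul_prod_sq_le (f := f₀) (g := fun _ : Unit => e) (fun _ => he) hτ b ()
  obtain ⟨col, hcol⟩ := exists_coloring_op hf q x hqf hr ζ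
  refine ⟨coarsen f col, hf.coarsen col, ?_⟩
  intro i
  set B : ℝ := 2 * Real.sqrt τ * ‖x‖ * Real.sqrt (∑ i, ‖ζ i‖ ^ 2) with hB
  have hB0 : 0 ≤ B := by positivity
  have e1 : q ((pinching (coarsen f col) x - (1 - 1 / (r : ℂ)) • a' - (1 / (r : ℂ)) • x) (ζ i))
      = q ((pinching (coarsen f col) x - (1 - 1 / (r : ℂ)) • pinching f x
          - (1 / (r : ℂ)) • x) (ζ i))
        + (1 - 1 / (r : ℂ)) • q ((pinching f x - a') (ζ i)) := by
    rw [← map_smul, ← map_add]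
    congr 1
    simp only [sub_apply, smul_apply, smul_sub]
    abel
  have b1 : ‖q ((pinching (coarsen f col) x - (1 - 1 / (r : ℂ)) • pinching f x
          - (1 / (r : ℂ)) • x) (ζ i))‖ ≤ B := by
    refine le_sqrt_aux (c := 2) (norm_nonneg _) (norm_nonneg _)
      (Finset.sum_nonneg fun j _ => by positivity) (by norm_num) (by norm_num) ?_
    exact (term_le_sum (fun i => ‖q ((pinching (coarsen f col) x
      - (1 - 1 / (r : ℂ)) • pinching f x - (1 / (r : ℂ)) • x) (ζ i))‖ ^ 2)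
      (fun j => by positivity) i).trans hcol
  have b2 : ‖(1 - 1 / (r : ℂ)) • q ((pinching f x - a') (ζ i))‖ ≤ B + γ := by
    rw [norm_smul]
    calc ‖(1 - 1 / (r : ℂ))‖ * ‖q ((pinching f x - a') (ζ i))‖
        ≤ 1 * ‖q ((pinching f x - a') (ζ i))‖ :=
          mul_le_mul_of_nonneg_right (norm_one_sub_inv_le hr) (norm_nonneg _)
      _ = ‖q ((pinching f x - a') (ζ i))‖ := one_mul _
      _ ≤ B + γ := hest i
  rw [e1]
  refine (norm_add_le _ _).trans ((add_le_add b1 b2).trans (le_of_eq ?_))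
  rw [hB]
  ring

end Vale.Agent.Lib.P078
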