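import Vale.Agent.Lib.P078.Thin.Spectral2
import Vale.Agent.Lib.P078.Thin.Block

/-!
# P078 (subtask U7a): a thin projection `q` for which `q * x` is thin as well

Blueprint.  Let `X = ‖x‖`.  Choose `γ₁ = τ / 4`, `τ₁ > 0` with `τ₁ ≤ τ` and `τ₁ X^2 ≤ τ / 4`, and `δ₁ > 0` with `δ₁ + δ₁ (1 + X) / sqrt γ₁ < δ`.
`IsThin.exists_proj` for the finite set `F ∪ F.image x` gives `q₁ ∈ M`, `f₀` with `‖(1 - q₁) ξ‖ < δ₁`, `‖(1 - q₁) (x ξ)‖ < δ₁` for `ξ ∈ F`, `‖q₁ * f₀ b‖^2 ≤ τ₁`.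
Let `β = (1 - q₁) * x * q₁ ∈ M`, `c = star β * β = q₁ x (1 - q₁) x q₁ ≥ 0`, `q₁ * c = c`.  `exists_cut_nonneg` (level `γ₁`) gives `q ∈ M`, `q₁ * q = q`,
`‖q c q‖ ≤ γ₁` (so `‖β * q‖^2 ≤ γ₁` by the C*-identity) and `γ₁ ‖(q₁ - q) ξ‖^2 ≤ re ⟪ξ, c ξ⟫ = ‖β ξ‖^2`, where
`‖β ξ‖ ≤ ‖(1 - q₁) (x ξ)‖ + ‖x‖ ‖(1 - q₁) ξ‖ ≤ δ₁ (1 + X)` (write `q₁ ξ = ξ - (1 - q₁) ξ`).
* `‖(1 - q) ξ‖ ≤ ‖(1 - q₁) ξ‖ + ‖(q₁ - q) ξ‖ < δ`.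
* `q * f₀ b = q * (q₁ * f₀ b)` (`q = q * q₁` by taking adjoints), so `‖q * f₀ b‖^2 ≤ τ₁ ≤ τ`.
* `x * q = q₁ * x * q + β * q`; taking adjoints, `q * x * f₀ b = q * x * (q₁ * f₀ b) + star (β * q) * f₀ b`, hence
  `‖q * x * f₀ b‖ ≤ X sqrt τ₁ + sqrt γ₁` and `‖q * x * f₀ b‖^2 ≤ 2 (X^2 τ₁ + γ₁) ≤ τ`.
-/

set_option linter.unusedSectionVars false

namespace Vale.Agent.Lib.P078

open scoped InnerProductSpace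

variable {H : Type*} [NormedAddCommGroup H] [InnerProductSpace ℂ H] [CompleteSpace H]
variable {M : VonNeumannAlgebra H} {A : StarSubalgebra ℂ (H →L[ℂ] H)}

/-- The choice of the auxiliary constants. -/
lemma joint_consts {X δ τ : ℝ} (hX : 0 ≤ X) (hδ : 0 < δ) (hτ : 0 < τ) :
    ∃ δ₁ τ₁ s : ℝ, 0 < δ₁ ∧ 0 < τ₁ ∧ 0 < s ∧ s ^ 2 = τ / 4 ∧ τ₁ ≤ τ ∧ X ^ 2 * τ₁ ≤ τ / 4 ∧
      δ₁ + δ₁ * (1 + X) / s < δ := by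
  have hs : 0 < Real.sqrt (τ / 4) := Real.sqrt_pos.mpr (by positivity)
  have hs2 : Real.sqrt (τ / 4) ^ 2 = τ / 4 := Real.sq_sqrt (by positivity)
  set s := Real.sqrt (τ / 4) with hsdef
  have hK : 0 < 1 + (1 + X) / s := by positivity
  refine ⟨δ / (2 * (1 + (1 + X) / s)), τ / (4 * (X ^ 2 + 1)), s, by positivity, by positivity, hs,
    hs2, ?_, ?_, ?_⟩
  · rw [div_le_iff₀ (by positivity)]
    nlinarith [sq_nonneg X]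
  · rw [mul_div_assoc', div_le_iff₀ (by positivity)]
    nlinarith [sq_nonneg X]
  · have h1 : δ / (2 * (1 + (1 + X) / s)) + δ / (2 * (1 + (1 + X) / s)) * (1 + X) / s
        = δ / 2 := by
      field_simp
    rw [h1]
    linarith

/-- The off-diagonal corner. -/
lemma star_corner {q₁ x : H →L[ℂ] H} (hq₁ : IsStarProjection q₁) (hx : IsSelfAdjoint x) :
    star ((1 - q₁) * x * q₁) = q₁ * x * (1 - q₁) := by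
  rw [star_mul, star_mul, hq₁.isSelfAdjoint.star_eq, hx.star_eq,
    hq₁.one_sub.isSelfAdjoint.star_eq, mul_assoc]

lemma corner_apply_norm_le {q₁ x : H →L[ℂ] H} (hq₁ : IsStarProjection q₁) (ξ : H) :
    ‖((1 - q₁) * x * q₁) ξ‖ ≤ ‖(1 - q₁) (x ξ)‖ + ‖x‖ * ‖(1 - q₁) ξ‖ := by
  have h1 : ((1 - q₁) * x * q₁) ξ = (1 - q₁) (x ξ) - (1 - q₁) (x ((1 - q₁) ξ)) := by
    simp only [ContinuousLinearMap.mul_apply, ContinuousLinearMap.sub_apply,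
      ContinuousLinearMap.one_apply, map_sub]
    abel
  rw [h1]
  calc ‖(1 - q₁) (x ξ) - (1 - q₁) (x ((1 - q₁) ξ))‖
      ≤ ‖(1 - q₁) (x ξ)‖ + ‖(1 - q₁) (x ((1 - q₁) ξ))‖ := norm_sub_le _ _
    _ ≤ ‖(1 - q₁) (x ξ)‖ + ‖x‖ * ‖(1 - q₁) ξ‖ := by
        gcongr
        exact (proj_norm_le hq₁.one_sub _).trans (x.le_opNorm _)

lemma inner_star_mul_self_re (β : H →L[ℂ] H) (ξ : H) :
    (⟪ξ, (star β * β) ξ⟫_ℂ).re = ‖β ξ‖ ^ 2 := by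
  rw [ContinuousLinearMap.mul_apply, ContinuousLinearMap.star_eq_adjoint,
    ContinuousLinearMap.adjoint_inner_right, inner_self_ofReal, Complex.ofReal_re]

lemma norm_le_div_of_mul_sq_le {s a b : ℝ} (hs : 0 < s) (ha : 0 ≤ a) (hb : 0 ≤ b)
    (h : s ^ 2 * a ^ 2 ≤ b ^ 2) : a ≤ b / s := by
  rw [le_div_iff₀ hs]
  have h1 : (a * s) ^ 2 ≤ b ^ 2 := by
    rw [mul_pow]
    linarith
  exact (abs_le_of_sq_le_sq' h1 hb).2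

lemma norm_mul_proj_sq_le {β q c : H →L[ℂ] H} (hq : IsStarProjection q) (hc : c = star β * β) :
    ‖β * q‖ ^ 2 = ‖q * c * q‖ := by
  have h1 : star (β * q) * (β * q) = q * c * q := by
    rw [star_mul, hq.isSelfAdjoint.star_eq, hc]
    simp only [mul_assoc]
  rw [← h1, CStarRing.norm_star_mul_self, sq]

lemma sq_add_le_of {X a b τ₁ γ₁ τ : ℝ} (hX : 0 ≤ X) (ha0 : 0 ≤ a) (hb0 : 0 ≤ b)
    (ha : a ^ 2 ≤ τ₁) (hb : b ^ 2 ≤ γ₁) (h1 : X ^ 2 * τ₁ ≤ τ / 4) (h2 : γ₁ = τ / 4) :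
    (X * a + b) ^ 2 ≤ τ := by
  have h3 : X ^ 2 * a ^ 2 ≤ X ^ 2 * τ₁ := by gcongr
  nlinarith [sq_nonneg (X * a - b)]

theorem exists_joint_thin (hthin : IsThin M A) {x : H →L[ℂ] H} (hxM : x ∈ M)
    (hx : IsSelfAdjoint x) (F : Finset H) {δ τ : ℝ} (hδ : 0 < δ) (hτ : 0 < τ) :
    ∃ (q : H →L[ℂ] H) (n : ℕ) (f₀ : Fin n → H →L[ℂ] H), q ∈ M ∧ IsStarProjection q ∧
      (∀ ξ ∈ F, ‖(1 - q) ξ‖ < δ) ∧ IsPartition A f₀ ∧ (∀ b, ‖q * f₀ b‖ ^ 2 ≤ τ) ∧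
      ∀ b, ‖q * x * f₀ b‖ ^ 2 ≤ τ := by
  classical
  obtain ⟨δ₁, τ₁, s, hδ₁, hτ₁, hs, hs2, hτ₁τ, hXτ, hδδ⟩ := joint_consts (norm_nonneg x) hδ hτ
  obtain ⟨q₁, n, f₀, hq₁M, hq₁, hF₁, hf₀, hb₁⟩ := hthin.exists_proj (F ∪ F.image x) hδ₁ hτ₁
  have h1M : (1 - q₁) ∈ M := sub_mem (one_mem M) hq₁M
  have hβM : (1 - q₁) * x * q₁ ∈ M := mul_mem (mul_mem h1M hxM) hq₁M
  set β : H →L[ℂ] H := (1 - q₁) * x * q₁ with hβ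
  have hsβ : star β = q₁ * x * (1 - q₁) := star_corner hq₁ hx
  have hcM : star β * β ∈ M := mul_mem (star_mem hβM) hβM
  have hc0 : 0 ≤ star β * β := star_mul_self_nonneg β
  have hq₁c : q₁ * (star β * β) = star β * β := by
    have h : q₁ * star β = star β := by
      rw [hsβ, ← mul_assoc, ← mul_assoc, hq₁.isIdempotentElem.eq]
    rw [← mul_assoc, h]
  have hγ : 0 < s ^ 2 := by positivity
  obtain ⟨q, hqM, hq, hq₁q, hnorm, hcut⟩ := exists_cut_nonneg hq₁M hq₁ hcM hc0 hq₁c hγ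
  have hqq₁ : q * q₁ = q := by
    have h := congrArg star hq₁q
    rwa [star_mul, hq.isSelfAdjoint.star_eq, hq₁.isSelfAdjoint.star_eq] at h
  have hβq : ‖β * q‖ ^ 2 ≤ s ^ 2 := by
    rw [norm_mul_proj_sq_le hq rfl]
    exact hnorm
  have hq1 : ‖q‖ ≤ 1 := norm_proj_le_one hq
  refine ⟨q, n, f₀, hqM, hq, ?_, hf₀, ?_, ?_⟩
  · intro ξ hξ
    have h1 : ‖(1 - q₁) ξ‖ < δ₁ := hF₁ ξ (Finset.mem_union_left _ hξ)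
    have h2 : ‖(1 - q₁) (x ξ)‖ < δ₁ :=
      hF₁ (x ξ) (Finset.mem_union_right _ (Finset.mem_image_of_mem _ hξ))
    have h3 : ‖β ξ‖ ≤ δ₁ * (1 + ‖x‖) := by
      calc ‖β ξ‖ ≤ ‖(1 - q₁) (x ξ)‖ + ‖x‖ * ‖(1 - q₁) ξ‖ := corner_apply_norm_le hq₁ ξ
        _ ≤ δ₁ + ‖x‖ * δ₁ := by gcongr
        _ = δ₁ * (1 + ‖x‖) := by ring
    have h4 : ‖(q₁ - q) ξ‖ ≤ δ₁ * (1 + ‖x‖) / s := by
      refine norm_le_div_of_mul_sq_le hs (norm_nonneg _) (by positivity) ?_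
      calc s ^ 2 * ‖(q₁ - q) ξ‖ ^ 2 ≤ (⟪ξ, (star β * β) ξ⟫_ℂ).re := hcut ξ
        _ = ‖β ξ‖ ^ 2 := inner_star_mul_self_re β ξ
        _ ≤ (δ₁ * (1 + ‖x‖)) ^ 2 := by gcongr
    have h5 : (1 - q) ξ = (1 - q₁) ξ + (q₁ - q) ξ := by
      simp only [ContinuousLinearMap.sub_apply, ContinuousLinearMap.one_apply]
      abel
    calc ‖(1 - q) ξ‖ ≤ ‖(1 - q₁) ξ‖ + ‖(q₁ - q) ξ‖ := by rw [h5]; exact norm_add_le _ _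
      _ ≤ δ₁ + δ₁ * (1 + ‖x‖) / s := by gcongr
      _ < δ := hδδ
  · intro b
    have h1 : q * f₀ b = q * (q₁ * f₀ b) := by rw [← mul_assoc, hqq₁]
    have h2 : ‖q * f₀ b‖ ≤ ‖q₁ * f₀ b‖ := by
      rw [h1]
      calc ‖q * (q₁ * f₀ b)‖ ≤ ‖q‖ * ‖q₁ * f₀ b‖ := norm_mul_le _ _
        _ ≤ 1 * ‖q₁ * f₀ b‖ := by gcongr
        _ = ‖q₁ * f₀ b‖ := one_mul _
    calc ‖q * f₀ b‖ ^ 2 ≤ ‖q₁ * f₀ b‖ ^ 2 := by gcongr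
      _ ≤ τ₁ := hb₁ b
      _ ≤ τ := hτ₁τ
  · intro b
    have h0 : star (β * q) = q * x * (1 - q₁) := by
      rw [star_mul, hq.isSelfAdjoint.star_eq, hsβ, ← mul_assoc, ← mul_assoc, hqq₁]
    have h1 : q * x * f₀ b = q * x * (q₁ * f₀ b) + star (β * q) * f₀ b := by
      rw [h0]
      noncomm_ring
    have h2 : ‖q * x * (q₁ * f₀ b)‖ ≤ ‖x‖ * ‖q₁ * f₀ b‖ := by
      calc ‖q * x * (q₁ * f₀ b)‖ ≤ ‖q * x‖ * ‖q₁ * f₀ b‖ := norm_mul_le _ _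
        _ ≤ (‖q‖ * ‖x‖) * ‖q₁ * f₀ b‖ := by gcongr; exact norm_mul_le _ _
        _ ≤ (1 * ‖x‖) * ‖q₁ * f₀ b‖ := by gcongr
        _ = ‖x‖ * ‖q₁ * f₀ b‖ := by rw [one_mul]
    have h3 : ‖star (β * q) * f₀ b‖ ≤ ‖β * q‖ := by
      calc ‖star (β * q) * f₀ b‖ ≤ ‖star (β * q)‖ * ‖f₀ b‖ := norm_mul_le _ _
        _ ≤ ‖star (β * q)‖ * 1 := by gcongr; exact norm_proj_le_one (hf₀.proj b)
        _ = ‖β * q‖ := by rw [mul_one, norm_star]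
    have h4 : ‖q * x * f₀ b‖ ≤ ‖x‖ * ‖q₁ * f₀ b‖ + ‖β * q‖ := by
      rw [h1]
      exact (norm_add_le _ _).trans (add_le_add h2 h3)
    calc ‖q * x * f₀ b‖ ^ 2 ≤ (‖x‖ * ‖q₁ * f₀ b‖ + ‖β * q‖) ^ 2 := by gcongr
      _ ≤ τ := sq_add_le_of (norm_nonneg _) (norm_nonneg _) (norm_nonneg _) (hb₁ b) hβq hXτ hs2

end Vale.Agent.Lib.P078
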