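import Vale.Agent.Lib.P078.Thin.Rotation
import Vale.Agent.Lib.P078.Thin.Joint
import Vale.Agent.Lib.P078.Boundary

/-!
# P078 (subtask U7c): so-pavability over a thin MASA at the boundary value `ε = 1 / r`

Blueprint (compare `Vale/Agent/Lib/P078/Boundary.lean`, whose lemmas `rot`, `star_rot_mul_rot`, `rot_mul_star_rot`, `star_rot_mul_mul_rot`, `norm_star_rot_sub_one_le`,
`conj_compress`, `isStarProjection_conj`, `norm_one_sub_conj_apply_le`, `exists_small_s` can be reused).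
If `x = 0`: trivial (as in `Thin/Upper.lean`).  Let `X = ‖x‖ > 0`.  Given `F`, `δ`:
1. `exists_small_s`: `0 < s ≤ 1` (shrink to `s < 1` if needed) with `2 s ‖ξ‖ ≤ δ / 2` on `F`; `c = sqrt (1 - s^2)`.  Let `η = s^2 X / r > 0` (the slack).
2. Choose `γ₀ > 0` with `γ₀ / η < δ / 4`, then `τ > 0`, `γ > 0` so small that all error terms below add up to at most `γ₀`.
3. `exists_joint_thin` gives `q`, `f₀` with `‖(1 - q) ξ‖ < δ / 4`, `‖q * f₀ b‖^2 ≤ τ`, `‖q * x * f₀ b‖^2 ≤ τ`.  Vectors `ζ ξ = q ξ`.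
4. `exists_rotation_thin` gives `d`, `u`.  Let `V = rot c s u ∈ A`, `x' = star V * x * V = c^2 x + s^2 u x u + i s c (x u - u x)`: self-adjoint, in `M`, `‖x'‖ ≤ X`.
5. `exists_paving_approx` for `x'` (same `q`, `f₀`, `τ`) gives `a'` (`‖a'‖ ≤ ‖x'‖ ≤ X`) and `p`.
6. `a = (1 - 1/r) • a' + (s^2 / r) • d`, `‖a‖ ≤ X`.  `y = q * (pinching p x' - a - (c^2 / r) • x) * q`, where
   `pinching p x' - a - (c^2/r) x = [pinching p x' - (1 - 1/r) a' - x'/r] + (s^2/r) (u x u - d) + (i s c / r) (x u - u x)`, so `‖y ξ‖ ≤ γ₀`.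
7. `exists_cut` (level `η`): `q' ≤ q`, `‖q' y q'‖ ≤ η`, `η ‖(q - q') ξ‖ ≤ γ₀`.  Then `‖q' (pinching p x' - a) q'‖ ≤ η + c^2 X / r = X / r`.
8. Final projection `q'' = V * q' * star V ∈ M`; `conj_compress` turns `q'' (pinching p x - a) q''` into `V (q' (pinching p x' - a) q') star V`;
   `‖(1 - q'') ξ‖ ≤ ‖(1 - q') ξ‖ + 2 s ‖ξ‖ < δ / 4 + δ / 4 + δ / 2`.
-/

set_option linter.unusedSectionVars false

namespace Vale.Agent.Lib.P078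

open scoped InnerProductSpace

variable {H : Type*} [NormedAddCommGroup H] [InnerProductSpace ℂ H] [CompleteSpace H]
variable {M : VonNeumannAlgebra H} {A : StarSubalgebra ℂ (H →L[ℂ] H)}

private lemma vN_smul_mem {y : H →L[ℂ] H} (hy : y ∈ M) (c : ℂ) : c • y ∈ M :=
  M.toStarSubalgebra.smul_mem hy c

private lemma isSelfAdjoint_pinching_bd {ι : Type*} [Fintype ι] {p : ι → H →L[ℂ] H}
    (hp : ∀ i, IsSelfAdjoint (p i)) {x : H →L[ℂ] H} (hx : IsSelfAdjoint x) :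
    IsSelfAdjoint (pinching p x) := by
  unfold pinching
  rw [IsSelfAdjoint, star_sum]
  refine Finset.sum_congr rfl fun i _ => ?_
  rw [star_mul, star_mul, (hp i).star_eq, hx.star_eq, mul_assoc]

private lemma isSelfAdjoint_real_smul (t : ℝ) {y : H →L[ℂ] H} (hy : IsSelfAdjoint y) :
    IsSelfAdjoint (((t : ℝ) : ℂ) • y) := by
  rw [IsSelfAdjoint, star_smul, hy.star_eq]
  simp

/-- The vector estimate for the error operator. -/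
private lemma norm_err_apply_le {q S a' x x' d P Q : H →L[ℂ] H} {ρ c s : ℝ} (hρ0 : 0 ≤ ρ)
    (hρ1 : ρ ≤ 1) (hc : 0 ≤ c) (hs : 0 ≤ s) (hcs : c ^ 2 + s ^ 2 = 1)
    (hx' : x' = ((c ^ 2 : ℝ) : ℂ) • x + ((s ^ 2 : ℝ) : ℂ) • P
      + (Complex.I * ((s * c : ℝ) : ℂ)) • Q)
    {ζ : H} {E1 E2 : ℝ}
    (h1 : ‖q ((S - ((1 - ρ : ℝ) : ℂ) • a' - ((ρ : ℝ) : ℂ) • x') ζ)‖ ≤ E1)
    (h2 : ‖q ((P - d) ζ)‖ ≤ E2) (h3 : ‖q (Q ζ)‖ ≤ E2) :
    ‖q ((S - (((1 - ρ : ℝ) : ℂ) • a' + ((ρ * s ^ 2 : ℝ) : ℂ) • d)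
      - ((ρ * c ^ 2 : ℝ) : ℂ) • x) ζ)‖ ≤ E1 + 2 * E2 := by
  have hdecomp : S - (((1 - ρ : ℝ) : ℂ) • a' + ((ρ * s ^ 2 : ℝ) : ℂ) • d)
      - ((ρ * c ^ 2 : ℝ) : ℂ) • x
      = (S - ((1 - ρ : ℝ) : ℂ) • a' - ((ρ : ℝ) : ℂ) • x')
        + ((ρ * s ^ 2 : ℝ) : ℂ) • (P - d) + (Complex.I * ((ρ * (s * c) : ℝ) : ℂ)) • Q := by
    rw [hx']
    simp only [smul_add, smul_sub, smul_smul]
    push_cast
    module
  have hs1 : s ^ 2 ≤ 1 := by nlinarith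
  have hsc : s * c ≤ 1 := by nlinarith [sq_nonneg (s - c)]
  have hsc0 : 0 ≤ s * c := mul_nonneg hs hc
  have hE2 : 0 ≤ E2 := (norm_nonneg _).trans h2
  rw [hdecomp]
  simp only [add_apply, smul_apply, map_add, map_smul]
  have n2 : ‖((ρ * s ^ 2 : ℝ) : ℂ) • q ((P - d) ζ)‖ ≤ E2 := by
    rw [norm_smul, Complex.norm_real, Real.norm_eq_abs, abs_of_nonneg (by positivity)]
    calc ρ * s ^ 2 * ‖q ((P - d) ζ)‖ ≤ 1 * 1 * E2 := by gcongr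
      _ = E2 := by ring
  have n3 : ‖(Complex.I * ((ρ * (s * c) : ℝ) : ℂ)) • q (Q ζ)‖ ≤ E2 := by
    rw [norm_smul, norm_mul, Complex.norm_I, Complex.norm_real, Real.norm_eq_abs,
      abs_of_nonneg (by positivity), one_mul]
    calc ρ * (s * c) * ‖q (Q ζ)‖ ≤ 1 * 1 * E2 := by gcongr
      _ = E2 := by ring
  calc _ ≤ ‖q ((S - ((1 - ρ : ℝ) : ℂ) • a' - ((ρ : ℝ) : ℂ) • x') ζ)‖
        + ‖((ρ * s ^ 2 : ℝ) : ℂ) • q ((P - d) ζ)‖
        + ‖(Complex.I * ((ρ * (s * c) : ℝ) : ℂ)) • q (Q ζ)‖ := norm_add₃_le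
    _ ≤ E1 + E2 + E2 := by gcongr
    _ = E1 + 2 * E2 := by ring

/-- The norm estimate after the spectral cut. -/
private lemma norm_cut_le {q q' W x : H →L[ℂ] H} (hq : IsStarProjection q)
    (hq' : IsStarProjection q') (hqq' : q * q' = q') {η t : ℝ} (ht : 0 ≤ t)
    (h : ‖q' * (q * (W - ((t : ℝ) : ℂ) • x) * q) * q'‖ ≤ η) :
    ‖q' * W * q'‖ ≤ η + t * ‖x‖ := by
  have hq'q : q' * q = q' := by
    have := congrArg star hqq'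
    rwa [star_mul, hq.isSelfAdjoint.star_eq, hq'.isSelfAdjoint.star_eq] at this
  have h1 : q' * (q * (W - ((t : ℝ) : ℂ) • x) * q) * q'
      = q' * W * q' - ((t : ℝ) : ℂ) • (q' * x * q') := by
    calc q' * (q * (W - ((t : ℝ) : ℂ) • x) * q) * q'
        = (q' * q) * (W - ((t : ℝ) : ℂ) • x) * (q * q') := by simp only [mul_assoc]
      _ = q' * (W - ((t : ℝ) : ℂ) • x) * q' := by rw [hq'q, hqq']
      _ = _ := by
          simp only [mul_sub, sub_mul, mul_smul_comm, smul_mul_assoc]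
  have h2 : q' * W * q' = q' * (q * (W - ((t : ℝ) : ℂ) • x) * q) * q'
      + ((t : ℝ) : ℂ) • (q' * x * q') := by
    rw [h1]
    abel
  rw [h2]
  calc _ ≤ ‖q' * (q * (W - ((t : ℝ) : ℂ) • x) * q) * q'‖ + ‖((t : ℝ) : ℂ) • (q' * x * q')‖ :=
        norm_add_le _ _
    _ ≤ η + t * ‖x‖ := by
        rw [norm_smul, Complex.norm_real, Real.norm_eq_abs, abs_of_nonneg ht]
        have := norm_compress_le_of_proj hq' x
        gcongr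

private lemma exists_small_params (X Z γ₀ : ℝ) (hX : 0 ≤ X) (hZ : 0 ≤ Z) (hγ₀ : 0 < γ₀) :
    ∃ τ γ : ℝ, 0 < τ ∧ 0 < γ ∧
      (4 * Real.sqrt τ * X * Z + γ) + 2 * (8 * Real.sqrt τ * (X + 1) * Z + γ) ≤ γ₀ := by
  have hD : 0 < 40 * (X + 1) * (Z + 1) := by positivity
  refine ⟨(γ₀ / (40 * (X + 1) * (Z + 1))) ^ 2, γ₀ / 6, by positivity, by positivity, ?_⟩
  rw [Real.sqrt_sq (by positivity)]
  have ht : 0 < γ₀ / (40 * (X + 1) * (Z + 1)) := by positivity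
  have hkey : γ₀ / (40 * (X + 1) * (Z + 1)) * (40 * (X + 1) * (Z + 1)) = γ₀ := by
    field_simp
  generalize γ₀ / (40 * (X + 1) * (Z + 1)) = t at ht hkey
  have h1 : 0 ≤ t * X * Z := by positivity
  have h2 : 0 ≤ t * X := by positivity
  have h3 : 0 ≤ t * Z := by positivity
  nlinarith

private lemma sqrt_sum_proj_le {q : H →L[ℂ] H} (hq : IsStarProjection q) {N : ℕ} (ξ : Fin N → H) :
    Real.sqrt (∑ i, ‖q (ξ i)‖ ^ 2) ≤ Real.sqrt (∑ i, ‖ξ i‖ ^ 2) := by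
  refine Real.sqrt_le_sqrt (Finset.sum_le_sum fun i _ => ?_)
  have := proj_norm_le hq (ξ i)
  gcongr

/-- The core of the argument: for a jointly thin projection `q`. -/
private lemma core (hM : IsMASA M A) {x : H →L[ℂ] H} (hxM : x ∈ M) (hx : IsSelfAdjoint x)
    (hX : 0 < ‖x‖) {r : ℕ} (hr : 0 < r) {c s : ℝ} (hc : 0 ≤ c) (hs : 0 < s)
    (hcs : c ^ 2 + s ^ 2 = 1) {N : ℕ} (ξ : Fin N → H) {q : H →L[ℂ] H} (hqM : q ∈ M)
    (hq : IsStarProjection q) {n : ℕ} {f₀ : Fin n → H →L[ℂ] H} (hf₀ : IsPartition A f₀)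
    {τ γ γ₀ : ℝ} (hτ1 : ∀ b, ‖q * f₀ b‖ ^ 2 ≤ τ) (hτ2 : ∀ b, ‖q * x * f₀ b‖ ^ 2 ≤ τ)
    (hγ : 0 < γ)
    (hsmall : (4 * Real.sqrt τ * ‖x‖ * Real.sqrt (∑ i, ‖ξ i‖ ^ 2) + γ)
      + 2 * (8 * Real.sqrt τ * (‖x‖ + 1) * Real.sqrt (∑ i, ‖ξ i‖ ^ 2) + γ) ≤ γ₀) :
    ∃ (V : H →L[ℂ] H) (p : Fin r → H →L[ℂ] H) (a q' : H →L[ℂ] H),
      V ∈ A ∧ star V * V = 1 ∧ V * star V = 1 ∧ ‖star V - 1‖ ≤ 2 * s ∧
      IsPartition A p ∧ a ∈ A ∧ IsSelfAdjoint a ∧ ‖a‖ ≤ ‖x‖ ∧ q' ∈ M ∧ IsStarProjection q' ∧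
      (∀ i, (1 / (r : ℝ) * s ^ 2 * ‖x‖) * ‖(q - q') (ξ i)‖ ≤ γ₀) ∧
      ‖q' * (pinching p (star V * x * V) - a) * q'‖ ≤ 1 / (r : ℝ) * ‖x‖ := by
  have hAM := hM.1
  have hr0 : (0 : ℝ) < r := by exact_mod_cast hr
  have hr1 : (1 : ℝ) ≤ r := by exact_mod_cast hr
  have hρ0 : (0 : ℝ) < 1 / (r : ℝ) := by positivity
  have hρ1 : 1 / (r : ℝ) ≤ 1 := by
    rw [div_le_one hr0]
    exact hr1
  have hs1 : s ^ 2 ≤ 1 := by nlinarith
  have hZ := sqrt_sum_proj_le hq ξ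
  obtain ⟨d, hdA, hdsa, hdn, hrot⟩ := exists_rotation_thin hM hxM hx
  obtain ⟨u, huA, husa, huu, hu1, hu2⟩ :=
    hrot q hq (Fin n) f₀ hf₀ τ hτ1 hτ2 (Fin N) (fun i => q (ξ i)) γ hγ
  have hVV := star_rot_mul_rot hcs husa huu
  have hVV' := rot_mul_star_rot hcs husa huu
  have hVn := norm_star_rot_sub_one_le hcs hc hs.le husa huu
  have hVx := star_rot_mul_mul_rot c s husa x
  have hVA : rot c s u ∈ A := rot_mem c s huA
  generalize rot c s u = V at hVV hVV' hVn hVx hVA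
  have hV1 : ‖V‖ ≤ 1 := norm_le_one_of_star_mul_self hVV
  have hV1' : ‖star V‖ ≤ 1 := by rwa [norm_star]
  have hx'sa : IsSelfAdjoint (star V * x * V) := by
    rw [IsSelfAdjoint, star_mul, star_mul, star_star, hx.star_eq, mul_assoc]
  have hx'n : ‖star V * x * V‖ ≤ ‖x‖ := by
    calc ‖star V * x * V‖ ≤ ‖star V * x‖ * ‖V‖ := norm_mul_le _ _
      _ ≤ (‖star V‖ * ‖x‖) * ‖V‖ := by gcongr; exact norm_mul_le _ _
      _ ≤ (1 * ‖x‖) * 1 := by gcongr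
      _ = ‖x‖ := by ring
  have hx'M : star V * x * V ∈ M :=
    mul_mem (mul_mem (hAM _ (star_mem hVA)) hxM) (hAM _ hVA)
  generalize hx'def : star V * x * V = x' at hVx hx'sa hx'n hx'M
  obtain ⟨a', ha'A, ha'sa, ha'n, hpav⟩ := exists_paving_approx hM hx'M hx'sa
  obtain ⟨p, hp, hpe⟩ := hpav q hq (Fin n) f₀ hf₀ τ hτ1 r hr (Fin N) (fun i => q (ξ i)) γ hγ
  have e1 : (1 : ℂ) - 1 / (r : ℂ) = ((1 - 1 / (r : ℝ) : ℝ) : ℂ) := by push_cast; rfl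
  have e2 : (1 : ℂ) / (r : ℂ) = ((1 / (r : ℝ) : ℝ) : ℂ) := by push_cast; rfl
  rw [e1, e2] at hpe
  have haA : ((1 - 1 / (r : ℝ) : ℝ) : ℂ) • a' + ((1 / (r : ℝ) * s ^ 2 : ℝ) : ℂ) • d ∈ A :=
    A.add_mem (A.smul_mem ha'A _) (A.smul_mem hdA _)
  have hasa : IsSelfAdjoint
      (((1 - 1 / (r : ℝ) : ℝ) : ℂ) • a' + ((1 / (r : ℝ) * s ^ 2 : ℝ) : ℂ) • d) :=
    (isSelfAdjoint_real_smul _ ha'sa).add (isSelfAdjoint_real_smul _ hdsa)
  have han : ‖((1 - 1 / (r : ℝ) : ℝ) : ℂ) • a' + ((1 / (r : ℝ) * s ^ 2 : ℝ) : ℂ) • d‖ ≤ ‖x‖ := by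
    calc ‖((1 - 1 / (r : ℝ) : ℝ) : ℂ) • a' + ((1 / (r : ℝ) * s ^ 2 : ℝ) : ℂ) • d‖
        ≤ ‖((1 - 1 / (r : ℝ) : ℝ) : ℂ) • a'‖ + ‖((1 / (r : ℝ) * s ^ 2 : ℝ) : ℂ) • d‖ :=
          norm_add_le _ _
      _ = (1 - 1 / (r : ℝ)) * ‖a'‖ + (1 / (r : ℝ) * s ^ 2) * ‖d‖ := by
          rw [norm_smul, norm_smul, Complex.norm_real, Complex.norm_real, Real.norm_eq_abs,
            Real.norm_eq_abs, abs_of_nonneg (by linarith), abs_of_nonneg (by positivity)]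
      _ ≤ (1 - 1 / (r : ℝ)) * ‖x‖ + (1 / (r : ℝ) * 1) * ‖x‖ := by
          have h0 : 0 ≤ 1 - 1 / (r : ℝ) := by linarith
          have hDx : ‖a'‖ ≤ ‖x‖ := ha'n.trans hx'n
          gcongr
      _ = ‖x‖ := by ring
  have herr : ∀ i, ‖q ((pinching p x'
      - (((1 - 1 / (r : ℝ) : ℝ) : ℂ) • a' + ((1 / (r : ℝ) * s ^ 2 : ℝ) : ℂ) • d)
      - ((1 / (r : ℝ) * c ^ 2 : ℝ) : ℂ) • x) (q (ξ i)))‖ ≤ γ₀ := by
    intro i
    refine (norm_err_apply_le hρ0.le hρ1 hc hs.le hcs hVx (hpe i) (hu1 i) (hu2 i)).trans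
      (le_trans ?_ hsmall)
    have hτ0 : 0 ≤ Real.sqrt τ := Real.sqrt_nonneg _
    gcongr
  have hPsa : IsSelfAdjoint (pinching p x') :=
    isSelfAdjoint_pinching_bd (fun i => (hp.proj i).isSelfAdjoint) hx'sa
  have hPM : pinching p x' ∈ M :=
    sum_mem fun i _ => mul_mem (mul_mem (hAM _ (hp.mem i)) hx'M) (hAM _ (hp.mem i))
  generalize ((1 - 1 / (r : ℝ) : ℝ) : ℂ) • a' + ((1 / (r : ℝ) * s ^ 2 : ℝ) : ℂ) • d = a
    at haA hasa han herr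
  have hWM : pinching p x' - a - ((1 / (r : ℝ) * c ^ 2 : ℝ) : ℂ) • x ∈ M :=
    sub_mem (sub_mem hPM (hAM _ haA)) (vN_smul_mem hxM _)
  have hWsa : IsSelfAdjoint (pinching p x' - a - ((1 / (r : ℝ) * c ^ 2 : ℝ) : ℂ) • x) :=
    (hPsa.sub hasa).sub (isSelfAdjoint_real_smul _ hx)
  have hyM : q * (pinching p x' - a - ((1 / (r : ℝ) * c ^ 2 : ℝ) : ℂ) • x) * q ∈ M :=
    mul_mem (mul_mem hqM hWM) hqM
  have hysa : IsSelfAdjoint (q * (pinching p x' - a - ((1 / (r : ℝ) * c ^ 2 : ℝ) : ℂ) • x) * q) := by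
    rw [IsSelfAdjoint, star_mul, star_mul, hq.isSelfAdjoint.star_eq, hWsa.star_eq, mul_assoc]
  have hqy : q * (q * (pinching p x' - a - ((1 / (r : ℝ) * c ^ 2 : ℝ) : ℂ) • x) * q)
      = q * (pinching p x' - a - ((1 / (r : ℝ) * c ^ 2 : ℝ) : ℂ) • x) * q := by
    rw [← mul_assoc, ← mul_assoc, hq.isIdempotentElem.eq]
  obtain ⟨q', hq'M, hq', hqq', hcut, hcut2⟩ :=
    exists_cut hqM hq hyM hysa hqy (η := 1 / (r : ℝ) * s ^ 2 * ‖x‖) (by positivity)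
  refine ⟨V, p, a, q', hVA, hVV, hVV', hVn, hp, haA, hasa, han, hq'M, hq', ?_, ?_⟩
  · intro i
    exact (hcut2 (ξ i)).trans (herr i)
  · rw [hx'def]
    refine (norm_cut_le hq hq' hqq' (t := 1 / (r : ℝ) * c ^ 2) (by positivity) hcut).trans
      (le_of_eq ?_)
    have hc2 : c ^ 2 = 1 - s ^ 2 := by linarith
    rw [hc2]
    ring

theorem soPavable_of_thin_boundary (hM : IsMASA M A) (hthin : IsThin M A) {x : H →L[ℂ] H}
    (hxM : x ∈ M) (hx : IsSelfAdjoint x) {r : ℕ} (hr : 0 < r) :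
    SoPavable M A x (1 / (r : ℝ)) r := by
  classical
  intro F δ hδ
  by_cases hx0 : x = 0
  · subst hx0
    refine ⟨coarsen (fun _ : Unit => 1) (fun _ => ⟨0, hr⟩), 0, 1, IsPartition.unit.coarsen _,
      A.zero_mem, IsSelfAdjoint.zero _, by simp, one_mem M, IsStarProjection.one _, ?_, ?_⟩
    · intro ξ _
      simpa using hδ
    · simp [pinching]
  have hX : 0 < ‖x‖ := norm_pos_iff.mpr hx0
  have hr0 : (0 : ℝ) < r := by exact_mod_cast hr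
  obtain ⟨s, hs0, hs1, hsF⟩ := exists_small_s F hδ
  have hc0 : 0 ≤ Real.sqrt (1 - s ^ 2) := Real.sqrt_nonneg _
  have hcs : Real.sqrt (1 - s ^ 2) ^ 2 + s ^ 2 = 1 := by
    rw [Real.sq_sqrt (by nlinarith)]
    ring
  have hη : 0 < 1 / (r : ℝ) * s ^ 2 * ‖x‖ := by positivity
  obtain ⟨τ, γ, hτ, hγ, hsmall⟩ := exists_small_params ‖x‖
    (Real.sqrt (∑ i, ‖((F.equivFin.symm i : F) : H)‖ ^ 2)) ((1 / (r : ℝ) * s ^ 2 * ‖x‖) * (δ / 8))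
    (norm_nonneg x) (Real.sqrt_nonneg _) (by positivity)
  obtain ⟨q, n, f₀, hqM, hq, hqF, hf₀, hτ1, hτ2⟩ :=
    exists_joint_thin hthin hxM hx F (δ := δ / 4) (τ := τ) (by positivity) hτ
  obtain ⟨V, p, a, q', hVA, hVV, hVV', hVn, hp, haA, hasa, han, hq'M, hq', hclose, hmain⟩ :=
    core hM hxM hx hX hr hc0 hs0 hcs (fun i => ((F.equivFin.symm i : F) : H)) hqM hq hf₀ hτ1 hτ2
      hγ hsmall
  have hVM : V ∈ M := hM.1 _ hVA
  have hV1 : ‖V‖ ≤ 1 := norm_le_one_of_star_mul_self hVV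
  have hV1' : ‖star V‖ ≤ 1 := by rwa [norm_star]
  refine ⟨p, a, V * q' * star V, hp, haA, hasa, han, mul_mem (mul_mem hVM hq'M) (star_mem hVM),
    isStarProjection_conj hVV hq', ?_, ?_⟩
  · intro ξ hξ
    have h1 : ‖(1 - q) ξ‖ < δ / 4 := hqF ξ hξ
    have h2 : ‖(q - q') ξ‖ ≤ δ / 8 := by
      have := hclose (F.equivFin ⟨ξ, hξ⟩)
      simp only [Equiv.symm_apply_apply] at this
      exact le_of_mul_le_mul_left this hη
    have h3 : ‖star V - 1‖ * ‖ξ‖ ≤ δ / 2 :=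
      (mul_le_mul_of_nonneg_right hVn (norm_nonneg ξ)).trans (hsF ξ hξ)
    have h4 : ‖(1 - q') ξ‖ ≤ ‖(1 - q) ξ‖ + ‖(q - q') ξ‖ := by
      have : (1 - q') ξ = (1 - q) ξ + (q - q') ξ := by
        rw [← add_apply]
        congr 1
        abel
      rw [this]
      exact norm_add_le _ _
    calc ‖(1 - V * q' * star V) ξ‖
        ≤ ‖(1 - q') ξ‖ + ‖star V - 1‖ * ‖ξ‖ := norm_one_sub_conj_apply_le hVV hVV' hq' ξ
      _ < δ := by linarith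
  · rw [conj_compress hM.2.1 hp.mem hVA haA hVV x q']
    generalize q' * (pinching p (star V * x * V) - a) * q' = Y at hmain
    calc ‖V * Y * star V‖ ≤ ‖V * Y‖ * ‖star V‖ := norm_mul_le _ _
      _ ≤ (‖V‖ * ‖Y‖) * ‖star V‖ := by gcongr; exact norm_mul_le _ _
      _ ≤ (1 * ‖Y‖) * 1 := by gcongr
      _ = ‖Y‖ := by ring
      _ ≤ _ := hmain

end Vale.Agent.Lib.P078
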