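import Vale.Agent.Lib.P078.Thin.PosFunctional
import Vale.Agent.Lib.P078.Fine

/-!
# P078 (subtask V3): suprema of chains of projections of `M`; a maximal projection on which `ρ` dominates a vector functional

Blueprint.
* `chain_sup`.  Adapt the proof of `chain_inf` (file `Vale/Agent/Lib/P078/Fine.lean`).  Let `L = ⨆ p ∈ C, range p` (a directed union of closed subspaces), `K` its closure and `P` the orthogonal projection onto `K`
  (`K.starProjection`).  `P * p = p` for `p ∈ C`.  `P ∈ M`: by `M.commutant_commutant` and `VonNeumannAlgebra.mem_commutant_iff` it suffices that `P` commutes with every `g ∈ M.commutant`; `g` and `star g`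
  commute with all `p ∈ C`, so they leave `L`, hence `K`, invariant, hence `g` commutes with `P`.  For `ξ : H`, `P ξ ∈ K` is within `η` of some `v ∈ range p`, `p ∈ C`, and then `‖P ξ - p ξ‖ = ‖P ξ - p (P ξ)‖ ≤ ‖P ξ - v‖`
  (`p (P ξ) = p ξ` since `p * P = p`; `p (P ξ)` is the best approximation of `P ξ` in `range p`; or simply `‖P ξ - p (P ξ)‖ = ‖(1 - p) (P ξ - v)‖ ≤ ‖P ξ - v‖`).  The same holds for every larger `p' ∈ C`
  (`‖P ξ - p' ξ‖ = ‖(1 - p') (P ξ - v)‖`, as `p' v = v`), so by induction on the finite set `F` one `p ∈ C` works for all `ξ ∈ F`.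
* `exists_dominated_corner`.  Let `S` be the set of projections `p ∈ M` with `C * ∑ ξ ∈ F, ‖p ξ‖^2 ≤ re (ρ p)`, ordered by `p ≤ p' ↔ p' * p = p`; `0 ∈ S`.  Every nonempty chain in `S` has the upper bound `P` of `chain_sup`:
  `re (ρ p) ≤ re (ρ P)` for `p ∈ C` (`IsPosFunctional.mono`; `P - p` is a projection, hence `≥ 0`), and `∑ ‖P ξ‖^2 ≤ ∑ ‖p ξ‖^2 + small`.  Zorn (`zorn_le₀`, `exists_maximal_of_chains_bounded`, as in `Fine.lean`) gives a maximal `p ∈ S`.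
  If `p' ∈ M` is a projection with `p' * p = 0` and `re (ρ p') > C * ∑ ‖p' ξ‖^2` then `p + p'` is a projection of `M`, `‖(p + p') ξ‖^2 = ‖p ξ‖^2 + ‖p' ξ‖^2`, so `p + p' ∈ S`, and maximality gives `p + p' = p`, `p' = 0`: contradiction.
-/

set_option linter.unusedSectionVars false

namespace Vale.Agent.Lib.P078

open scoped InnerProductSpace

variable {H : Type*} [NormedAddCommGroup H] [InnerProductSpace ℂ H] [CompleteSpace H]
variable {M : VonNeumannAlgebra H} {ρ : (H →L[ℂ] H) →L[ℂ] ℂ}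

/-- Swapping the factors of a product of two projections that equals a projection. -/
lemma proj_mul_swap {p q r : H →L[ℂ] H} (hp : IsStarProjection p) (hq : IsStarProjection q)
    (hr : IsSelfAdjoint r) (h : p * q = r) : q * p = r := by
  have h1 := congrArg star h
  rwa [star_mul, hp.isSelfAdjoint.star_eq, hq.isSelfAdjoint.star_eq, hr.star_eq] at h1

/-- The orthogonal complement of a subspace invariant under `star g` is invariant under `g`. -/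
lemma orth_invariant {W : Submodule ℂ H} {g : H →L[ℂ] H} (h : ∀ v ∈ W, (star g) v ∈ W) :
    ∀ v ∈ Wᗮ, g v ∈ Wᗮ := by
  intro v hv
  rw [Submodule.mem_orthogonal] at hv ⊢
  intro u hu
  have h1 : ⟪u, g v⟫_ℂ = ⟪(star g) u, v⟫_ℂ := by
    rw [ContinuousLinearMap.star_eq_adjoint, ContinuousLinearMap.adjoint_inner_left]
  rw [h1]
  exact hv _ (h u hu)

/-- If `g` and `star g` leave `W` invariant, then `g` commutes with the projection on `Wᗮᗮ`. -/
lemma commute_starProjection_of_invariant {W : Submodule ℂ H} {g : H →L[ℂ] H}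
    (h1 : ∀ v ∈ W, g v ∈ W) (h2 : ∀ v ∈ W, (star g) v ∈ W) :
    g * Wᗮᗮ.starProjection = Wᗮᗮ.starProjection * g := by
  have h2' : ∀ v ∈ W, (star (star g)) v ∈ W := by rwa [star_star]
  have a1 : ∀ v ∈ Wᗮ, g v ∈ Wᗮ := orth_invariant h2
  have a2 : ∀ v ∈ Wᗮ, (star g) v ∈ Wᗮ := orth_invariant h2'
  have a2' : ∀ v ∈ Wᗮ, (star (star g)) v ∈ Wᗮ := by rwa [star_star]
  have b1 : ∀ v ∈ Wᗮᗮ, g v ∈ Wᗮᗮ := orth_invariant a2
  have b2 : ∀ v ∈ Wᗮᗮ, (star g) v ∈ Wᗮᗮ := orth_invariant a2'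
  have c1 : ∀ v ∈ Wᗮᗮᗮ, g v ∈ Wᗮᗮᗮ := orth_invariant b2
  ext v
  show g (Wᗮᗮ.starProjection v) = Wᗮᗮ.starProjection (g v)
  symm
  refine Submodule.eq_starProjection_of_mem_orthogonal
    (b1 _ (Submodule.starProjection_apply_mem _ v)) ?_
  rw [← map_sub]
  exact c1 _ (Submodule.sub_starProjection_mem_orthogonal v)

/-- One vector: the approximation holds for all larger members of the chain. -/
lemma chain_sup_aux {C : Set (H →L[ℂ] H)} (hCp : ∀ p ∈ C, IsStarProjection p)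
    {P : H →L[ℂ] H} (hP : IsStarProjection P) (hPp : ∀ p ∈ C, P * p = p)
    (hcl : ∀ (ξ : H) (η : ℝ), 0 < η → ∃ p ∈ C, ∃ u : H, p u = u ∧ ‖P ξ - u‖ ≤ η)
    (ξ : H) {η : ℝ} (hη : 0 < η) :
    ∃ p ∈ C, ∀ p' ∈ C, p' * p = p → ‖P ξ - p' ξ‖ ≤ η := by
  obtain ⟨p, hp, u, hu, hdist⟩ := hcl ξ η hη
  refine ⟨p, hp, fun p' hp' hle => ?_⟩
  have hp'p := hCp p' hp'
  have h1 : p' u = u := by
    have h2 : p' (p u) = p u := congrArg (fun T : H →L[ℂ] H => T u) hle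
    rwa [hu] at h2
  have h3 : p' * P = p' := proj_mul_swap hP hp'p hp'p.isSelfAdjoint (hPp p' hp')
  have h4 : p' (P ξ) = p' ξ := congrArg (fun T : H →L[ℂ] H => T ξ) h3
  have h5 : P ξ - p' ξ = (1 - p') (P ξ - u) := by
    simp only [sub_apply, one_apply_eq_self, map_sub, h4, h1]
    abel
  rw [h5]
  exact (proj_norm_le hp'p.one_sub _).trans hdist

/-- Finitely many vectors. -/
lemma chain_sup_aux2 {C : Set (H →L[ℂ] H)} (hCne : C.Nonempty)
    (hCp : ∀ p ∈ C, IsStarProjection p)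
    (hch : ∀ p ∈ C, ∀ q ∈ C, p * q = p ∨ q * p = q)
    {P : H →L[ℂ] H}
    (h1 : ∀ (ξ : H) (η : ℝ), 0 < η → ∃ p ∈ C, ∀ p' ∈ C, p' * p = p → ‖P ξ - p' ξ‖ ≤ η)
    (F : Finset H) {η : ℝ} (hη : 0 < η) :
    ∃ p ∈ C, ∀ p' ∈ C, p' * p = p → ∀ ξ ∈ F, ‖P ξ - p' ξ‖ ≤ η := by
  classical
  induction F using Finset.induction_on with
  | empty =>
    obtain ⟨p, hp⟩ := hCne
    exact ⟨p, hp, fun _ _ _ ξ hξ => absurd hξ (Finset.notMem_empty ξ)⟩
  | insert ξ₀ F _ ih =>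
    obtain ⟨p₁, hp₁, h₁⟩ := ih
    obtain ⟨p₂, hp₂, h₂⟩ := h1 ξ₀ η hη
    have key : ∀ q ∈ C, q * p₁ = p₁ → q * p₂ = p₂ →
        ∃ p ∈ C, ∀ p' ∈ C, p' * p = p → ∀ ξ ∈ insert ξ₀ F, ‖P ξ - p' ξ‖ ≤ η := by
      intro q hq hq1 hq2
      refine ⟨q, hq, fun p' hp' hle ξ hξ => ?_⟩
      have e1 : p' * p₁ = p₁ := by rw [← hq1, ← mul_assoc, hle]
      have e2 : p' * p₂ = p₂ := by rw [← hq2, ← mul_assoc, hle]
      rcases Finset.mem_insert.1 hξ with rfl | hξ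
      · exact h₂ p' hp' e2
      · exact h₁ p' hp' e1 ξ hξ
    rcases hch p₁ hp₁ p₂ hp₂ with h | h
    · exact key p₂ hp₂ (proj_mul_swap (hCp _ hp₁) (hCp _ hp₂) (hCp _ hp₁).isSelfAdjoint h)
        (hCp _ hp₂).isIdempotentElem.eq
    · exact key p₁ hp₁ (hCp _ hp₁).isIdempotentElem.eq
        (proj_mul_swap (hCp _ hp₂) (hCp _ hp₁) (hCp _ hp₂).isSelfAdjoint h)

/-- The supremum of a chain of projections of a von Neumann algebra. -/
lemma chain_sup (C : Set (H →L[ℂ] H)) (hCne : C.Nonempty) (hCM : ∀ p ∈ C, p ∈ M)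
    (hCp : ∀ p ∈ C, IsStarProjection p) (hch : ∀ p ∈ C, ∀ q ∈ C, p * q = p ∨ q * p = q) :
    ∃ P ∈ M, IsStarProjection P ∧ (∀ p ∈ C, P * p = p) ∧
      ∀ (F : Finset H) (η : ℝ), 0 < η → ∃ p ∈ C, ∀ ξ ∈ F, ‖P ξ - p ξ‖ ≤ η := by
  classical
  have : Nonempty C := hCne.to_subtype
  let S : C → Submodule ℂ H := fun p => LinearMap.ker ((1 - (p : H →L[ℂ] H) : H →L[ℂ] H) : H →ₗ[ℂ] H)
  have hS : ∀ (p : C) (v : H), v ∈ S p ↔ (p : H →L[ℂ] H) v = v := fun p v => by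
    simp only [S, LinearMap.mem_ker, ContinuousLinearMap.coe_coe, sub_apply,
      one_apply_eq_self, sub_eq_zero]
    exact eq_comm
  have hmono : ∀ p q : C, (q : H →L[ℂ] H) * (p : H →L[ℂ] H) = p → S p ≤ S q := by
    intro p q h v hv
    rw [hS] at hv ⊢
    have h' : (q : H →L[ℂ] H) ((p : H →L[ℂ] H) v) = (p : H →L[ℂ] H) v :=
      congrArg (fun T : H →L[ℂ] H => T v) h
    rwa [hv] at h'
  have hdir : Directed (· ≤ ·) S := by
    intro p q
    rcases hch p p.2 q q.2 with h | h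
    · exact ⟨q, hmono p q (proj_mul_swap (hCp _ p.2) (hCp _ q.2) (hCp _ p.2).isSelfAdjoint h),
        le_rfl⟩
    · exact ⟨p, le_rfl,
        hmono q p (proj_mul_swap (hCp _ q.2) (hCp _ p.2) (hCp _ q.2).isSelfAdjoint h)⟩
  have hL : ∀ v : H, v ∈ iSup S ↔ ∃ p : C, (p : H →L[ℂ] H) v = v := by
    intro v
    rw [Submodule.mem_iSup_of_directed S hdir]
    exact exists_congr fun p => hS p v
  have hLinv : ∀ g ∈ M.commutant, ∀ v ∈ iSup S, g v ∈ iSup S := by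
    intro g hg v hv
    rw [hL] at hv ⊢
    obtain ⟨p, hp⟩ := hv
    refine ⟨p, ?_⟩
    have h1 := (VonNeumannAlgebra.mem_commutant_iff).1 hg p (hCM p p.2)
    have h' : (p : H →L[ℂ] H) (g v) = g ((p : H →L[ℂ] H) v) :=
      congrArg (fun T : H →L[ℂ] H => T v) h1
    rw [h', hp]
  have hPM : (iSup S)ᗮᗮ.starProjection ∈ M := by
    rw [← M.commutant_commutant, VonNeumannAlgebra.mem_commutant_iff]
    intro g hg
    exact commute_starProjection_of_invariant (hLinv g hg) (hLinv _ (star_mem hg))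
  have hPproj : IsStarProjection (iSup S)ᗮᗮ.starProjection := isStarProjection_starProjection
  have hPp : ∀ p ∈ C, (iSup S)ᗮᗮ.starProjection * p = p := by
    intro p hp
    ext v
    show (iSup S)ᗮᗮ.starProjection (p v) = p v
    rw [Submodule.starProjection_eq_self_iff]
    refine Submodule.le_orthogonal_orthogonal _ ?_
    rw [hL]
    exact ⟨⟨p, hp⟩, proj_apply_apply (hCp p hp) v⟩
  have hcl : ∀ (ξ : H) (η : ℝ), 0 < η →
      ∃ p ∈ C, ∃ u : H, p u = u ∧ ‖(iSup S)ᗮᗮ.starProjection ξ - u‖ ≤ η := by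
    intro ξ η hη
    have h1 : (iSup S)ᗮᗮ.starProjection ξ ∈ (iSup S).topologicalClosure := by
      rw [← Submodule.orthogonal_orthogonal_eq_closure]
      exact Submodule.starProjection_apply_mem _ ξ
    have h2 : (iSup S)ᗮᗮ.starProjection ξ ∈ closure ((iSup S : Submodule ℂ H) : Set H) := h1
    rw [Metric.mem_closure_iff] at h2
    obtain ⟨u, hu, hdist⟩ := h2 η hη
    obtain ⟨p, hp⟩ := (hL u).1 hu
    refine ⟨p, p.2, u, hp, ?_⟩
    rw [← dist_eq_norm]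
    exact hdist.le
  refine ⟨(iSup S)ᗮᗮ.starProjection, hPM, hPproj, hPp, fun F η hη => ?_⟩
  obtain ⟨p, hp, h⟩ := chain_sup_aux2 hCne hCp hch
    (fun ξ η hη => chain_sup_aux hCp hPproj hPp hcl ξ hη) F hη
  exact ⟨p, hp, h p hp (hCp p hp).isIdempotentElem.eq⟩

/-- Difference of comparable projections. -/
lemma isStarProjection_sub_of_le {P p : H →L[ℂ] H} (hP : IsStarProjection P)
    (hp : IsStarProjection p) (h : P * p = p) : IsStarProjection (P - p) := by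
  have h' : p * P = p := proj_mul_swap hP hp hp.isSelfAdjoint h
  refine ⟨?_, hP.isSelfAdjoint.sub hp.isSelfAdjoint⟩
  show (P - p) * (P - p) = P - p
  rw [mul_sub, sub_mul, sub_mul, hP.isIdempotentElem.eq, h, h', hp.isIdempotentElem.eq]
  abel

lemma IsPosFunctional.re_le_of_proj_le (hρ : IsPosFunctional ρ) {P p : H →L[ℂ] H}
    (hP : IsStarProjection P) (hp : IsStarProjection p) (h : P * p = p) :
    (ρ p).re ≤ (ρ P).re := by
  refine hρ.mono ?_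
  rw [← sub_nonneg]
  exact (isStarProjection_sub_of_le hP hp h).nonneg

/-- Sum of orthogonal projections. -/
lemma isStarProjection_add_of_orth {p q : H →L[ℂ] H} (hp : IsStarProjection p)
    (hq : IsStarProjection q) (h : q * p = 0) : IsStarProjection (p + q) := by
  have h' : p * q = 0 := proj_mul_swap hq hp (IsSelfAdjoint.zero _) h
  refine ⟨?_, hp.isSelfAdjoint.add hq.isSelfAdjoint⟩
  show (p + q) * (p + q) = p + q
  rw [mul_add, add_mul, add_mul, hp.isIdempotentElem.eq, h, h', hq.isIdempotentElem.eq]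
  abel

lemma norm_sq_add_of_orth {p q : H →L[ℂ] H} (_hp : IsStarProjection p)
    (hq : IsStarProjection q) (h : q * p = 0) (ξ : H) :
    ‖(p + q) ξ‖ ^ 2 = ‖p ξ‖ ^ 2 + ‖q ξ‖ ^ 2 := by
  have h0 : ⟪p ξ, q ξ⟫_ℂ = 0 := by
    have h1 : q (p ξ) = 0 := by
      have := congrArg (fun T : H →L[ℂ] H => T ξ) h
      simpa using this
    rw [← sa_inner hq.isSelfAdjoint, h1, inner_zero_left]
  have h2 := norm_add_sq_eq_norm_sq_add_norm_sq_of_inner_eq_zero (p ξ) (q ξ) h0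
  rw [add_apply, sq, sq, sq]
  exact h2

/-- The estimate that passes the domination to the supremum of a chain. -/
lemma sum_sq_le_of_close {P p : H →L[ℂ] H} (hp : IsStarProjection p) (F : Finset H) {η : ℝ}
    (hη0 : 0 < η) (hη1 : η ≤ 1) (h : ∀ ξ ∈ F, ‖P ξ - p ξ‖ ≤ η) :
    ∑ ξ ∈ F, ‖P ξ‖ ^ 2 ≤ ∑ ξ ∈ F, ‖p ξ‖ ^ 2 + η * ∑ ξ ∈ F, (2 * ‖ξ‖ + 1) := by
  rw [Finset.mul_sum, ← Finset.sum_add_distrib]
  refine Finset.sum_le_sum fun ξ hξ => ?_
  have h1 : ‖P ξ‖ ≤ ‖p ξ‖ + η := by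
    have h2 : P ξ = p ξ + (P ξ - p ξ) := by abel
    calc ‖P ξ‖ = ‖p ξ + (P ξ - p ξ)‖ := by rw [← h2]
      _ ≤ ‖p ξ‖ + ‖P ξ - p ξ‖ := norm_add_le _ _
      _ ≤ ‖p ξ‖ + η := by linarith [h ξ hξ]
  have h3 : ‖p ξ‖ ≤ ‖ξ‖ := proj_norm_le hp ξ
  have h4 : 0 ≤ ‖p ξ‖ := norm_nonneg _
  calc ‖P ξ‖ ^ 2 ≤ (‖p ξ‖ + η) ^ 2 := by gcongr
    _ = ‖p ξ‖ ^ 2 + η * (2 * ‖p ξ‖ + η) := by ring
    _ ≤ ‖p ξ‖ ^ 2 + η * (2 * ‖ξ‖ + 1) := by
        have : 2 * ‖p ξ‖ + η ≤ 2 * ‖ξ‖ + 1 := by linarith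
        have := mul_le_mul_of_nonneg_left this hη0.le
        linarith

/-- The supremum of a chain of dominated projections is dominated. -/
lemma dominated_sup (hρ : IsPosFunctional ρ) (F : Finset H) {C : ℝ} (hC : 0 ≤ C)
    {c : Set (H →L[ℂ] H)} (hcp : ∀ p ∈ c, IsStarProjection p)
    (hcd : ∀ p ∈ c, C * ∑ ξ ∈ F, ‖p ξ‖ ^ 2 ≤ (ρ p).re)
    {P : H →L[ℂ] H} (hP : IsStarProjection P) (hPp : ∀ p ∈ c, P * p = p)
    (happ : ∀ (η : ℝ), 0 < η → ∃ p ∈ c, ∀ ξ ∈ F, ‖P ξ - p ξ‖ ≤ η) :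
    C * ∑ ξ ∈ F, ‖P ξ‖ ^ 2 ≤ (ρ P).re := by
  refine le_of_forall_pos_le_add fun ε hε => ?_
  set B : ℝ := C * ∑ ξ ∈ F, (2 * ‖ξ‖ + 1) with hB
  have hB0 : 0 ≤ B := by
    refine mul_nonneg hC (Finset.sum_nonneg fun ξ _ => ?_)
    positivity
  set η : ℝ := min 1 (ε / (B + 1)) with hηdef
  have hη0 : 0 < η := lt_min one_pos (by positivity)
  have hη1 : η ≤ 1 := min_le_left _ _
  have hη2 : η * B ≤ ε := by
    have h1 : η ≤ ε / (B + 1) := min_le_right _ _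
    calc η * B ≤ ε / (B + 1) * B := by gcongr
      _ ≤ ε / (B + 1) * (B + 1) := by
          have : 0 ≤ ε / (B + 1) := by positivity
          nlinarith
      _ = ε := by field_simp
  obtain ⟨p, hp, hclose⟩ := happ η hη0
  have h1 := sum_sq_le_of_close (hcp p hp) F hη0 hη1 hclose
  have h2 := hρ.re_le_of_proj_le hP (hcp p hp) (hPp p hp)
  have h3 := hcd p hp
  calc C * ∑ ξ ∈ F, ‖P ξ‖ ^ 2
      ≤ C * (∑ ξ ∈ F, ‖p ξ‖ ^ 2 + η * ∑ ξ ∈ F, (2 * ‖ξ‖ + 1)) := by gcongr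
    _ = C * ∑ ξ ∈ F, ‖p ξ‖ ^ 2 + η * B := by rw [hB]; ring
    _ ≤ (ρ P).re + ε := by linarith

theorem exists_dominated_corner (hρ : IsPosFunctional ρ) (F : Finset H) {C : ℝ} (hC : 0 ≤ C) :
    ∃ p ∈ M, IsStarProjection p ∧ C * ∑ ξ ∈ F, ‖p ξ‖ ^ 2 ≤ (ρ p).re ∧
      ∀ p' ∈ M, IsStarProjection p' → p' * p = 0 → (ρ p').re ≤ C * ∑ ξ ∈ F, ‖p' ξ‖ ^ 2 := by
  classical
  let α := {p : H →L[ℂ] H // p ∈ M ∧ IsStarProjection p ∧ C * ∑ ξ ∈ F, ‖p ξ‖ ^ 2 ≤ (ρ p).re}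
  let r : α → α → Prop := fun a b => b.1 * a.1 = a.1
  have hzero : (0 : H →L[ℂ] H) ∈ M ∧ IsStarProjection (0 : H →L[ℂ] H) ∧
      C * ∑ ξ ∈ F, ‖(0 : H →L[ℂ] H) ξ‖ ^ 2 ≤ (ρ 0).re := by
    refine ⟨zero_mem M, IsStarProjection.zero _, ?_⟩
    simp
  have hzorn : ∃ m : α, ∀ a : α, r m a → r a m := by
    refine exists_maximal_of_chains_bounded ?_ ?_
    · intro c hc
      by_cases hne : c.Nonempty
      · obtain ⟨P, hPM, hPp, hPle, hPapp⟩ := chain_sup (M := M) (Subtype.val '' c) (hne.image _)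
          (by rintro _ ⟨a, _, rfl⟩; exact a.2.1) (by rintro _ ⟨a, _, rfl⟩; exact a.2.2.1)
          (by
            rintro _ ⟨a, ha, rfl⟩ _ ⟨b, hb, rfl⟩
            by_cases hab : a = b
            · subst hab
              exact Or.inl a.2.2.1.isIdempotentElem.eq
            · rcases hc ha hb hab with h | h
              · exact Or.inl (proj_mul_swap b.2.2.1 a.2.2.1 a.2.2.1.isSelfAdjoint h)
              · exact Or.inr (proj_mul_swap a.2.2.1 b.2.2.1 b.2.2.1.isSelfAdjoint h))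
        have hdom : C * ∑ ξ ∈ F, ‖P ξ‖ ^ 2 ≤ (ρ P).re :=
          dominated_sup hρ F hC (c := Subtype.val '' c)
            (by rintro _ ⟨a, _, rfl⟩; exact a.2.2.1) (by rintro _ ⟨a, _, rfl⟩; exact a.2.2.2)
            hPp hPle (fun η hη => hPapp F η hη)
        exact ⟨⟨P, hPM, hPp, hdom⟩, fun a ha => hPle _ ⟨a, ha, rfl⟩⟩
      · refine ⟨⟨0, hzero⟩, fun a ha => ?_⟩
        exact absurd ⟨a, ha⟩ hne
    · intro a b c hab hbc
      show c.1 * a.1 = a.1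
      have hab' : b.1 * a.1 = a.1 := hab
      have hbc' : c.1 * b.1 = b.1 := hbc
      rw [← hab', ← mul_assoc, hbc']
  obtain ⟨m, hm⟩ := hzorn
  refine ⟨m.1, m.2.1, m.2.2.1, m.2.2.2, fun p' hp'M hp' horth => ?_⟩
  by_contra hcon
  rw [not_le] at hcon
  have hsum : IsStarProjection (m.1 + p') := isStarProjection_add_of_orth m.2.2.1 hp' horth
  have hdom : C * ∑ ξ ∈ F, ‖(m.1 + p') ξ‖ ^ 2 ≤ (ρ (m.1 + p')).re := by
    have h1 : ∑ ξ ∈ F, ‖(m.1 + p') ξ‖ ^ 2 = ∑ ξ ∈ F, ‖m.1 ξ‖ ^ 2 + ∑ ξ ∈ F, ‖p' ξ‖ ^ 2 := by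
      rw [← Finset.sum_add_distrib]
      exact Finset.sum_congr rfl fun ξ _ => norm_sq_add_of_orth m.2.2.1 hp' horth ξ
    rw [h1, map_add, Complex.add_re, mul_add]
    exact add_le_add m.2.2.2 hcon.le
  have h1 := hm ⟨m.1 + p', add_mem m.2.1 hp'M, hsum, hdom⟩
    (by show (m.1 + p') * m.1 = m.1; rw [add_mul, m.2.2.1.isIdempotentElem.eq, horth, add_zero])
  have h2 : m.1 * (m.1 + p') = m.1 + p' := h1
  have h3 : m.1 * p' = 0 := proj_mul_swap hp' m.2.2.1 (IsSelfAdjoint.zero _) horth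
  rw [mul_add, m.2.2.1.isIdempotentElem.eq, h3, add_zero] at h2
  have h4 : p' = 0 := by
    have := h2.symm
    simpa using this
  rw [h4] at hcon
  simp at hcon

end Vale.Agent.Lib.P078
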