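import Vale.Agent.Lib.P078.Thin.Block

/-!
# P078 (subtask W1a): operators on the Hilbert space `e H` versus operators on `H`

`e` is a projection, `K = cornerSpace e = ker (1 - e) = range e`, `ι = cornerIncl e : K → H` the inclusion, `π = cornerPi he : H → K` the map `ξ ↦ e ξ`.
`up he t = ι t π` extends an operator on `K` by `0`, `down he x = π x ι` compresses an operator on `H`.

Blueprint.  Everything is proved by `ext` and evaluation: `ι (π ξ) = e ξ` (by definition), `π (ι k) = k` (as `e k = k` for `k ∈ K`), `⟪π ξ, k⟫ = ⟪e ξ, k⟫ = ⟪ξ, e k⟫ = ⟪ξ, ι k⟫`, so `π` is the adjoint of `ι`.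
* `up_star`: `ContinuousLinearMap.star_eq_adjoint`, and `eq_adjoint_iff`, or check `⟪up (star t) ξ, η⟫ = ⟪ξ, up t η⟫` directly.
* `norm_up`: `‖up t‖ ≤ ‖ι‖ ‖t‖ ‖π‖ ≤ ‖t‖` and `t = down (up t)`, `‖down x‖ ≤ ‖x‖`.
-/

set_option linter.unusedSectionVars false

namespace Vale.Agent.Lib.P078

open scoped InnerProductSpace

variable {H : Type*} [NormedAddCommGroup H] [InnerProductSpace ℂ H] [CompleteSpace H]

/-- The range of the projection `e`, written as the kernel of `1 - e`. -/
def cornerSpace (e : H →L[ℂ] H) : Submodule ℂ H :=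
  LinearMap.ker ((1 - e : H →L[ℂ] H) : H →ₗ[ℂ] H)

lemma mem_cornerSpace {e : H →L[ℂ] H} {ξ : H} : ξ ∈ cornerSpace e ↔ e ξ = ξ := by
  unfold cornerSpace
  rw [LinearMap.mem_ker]
  simp only [ContinuousLinearMap.coe_coe, ContinuousLinearMap.sub_apply,
    ContinuousLinearMap.one_apply]
  rw [sub_eq_zero]
  exact eq_comm

lemma isClosed_cornerSpace (e : H →L[ℂ] H) : IsClosed (cornerSpace e : Set H) := by
  have h : (cornerSpace e : Set H) = {ξ | e ξ = ξ} := by
    ext ξ
    exact mem_cornerSpace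
  rw [h]
  exact isClosed_eq e.continuous continuous_id

instance (e : H →L[ℂ] H) : CompleteSpace (cornerSpace e) :=
  (isClosed_cornerSpace e).completeSpace_coe

/-- The inclusion of `e H` into `H`. -/
noncomputable def cornerIncl (e : H →L[ℂ] H) : cornerSpace e →L[ℂ] H := (cornerSpace e).subtypeL

/-- The projection of `H` onto `e H`. -/
noncomputable def cornerPi {e : H →L[ℂ] H} (he : IsStarProjection e) : H →L[ℂ] cornerSpace e :=
  e.codRestrict (cornerSpace e) (fun ξ => mem_cornerSpace.mpr (proj_apply_apply he ξ))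

/-- Extension by zero. -/
noncomputable def up {e : H →L[ℂ] H} (he : IsStarProjection e)
    (t : cornerSpace e →L[ℂ] cornerSpace e) : H →L[ℂ] H :=
  (cornerIncl e).comp (t.comp (cornerPi he))

/-- Compression. -/
noncomputable def down {e : H →L[ℂ] H} (he : IsStarProjection e) (x : H →L[ℂ] H) :
    cornerSpace e →L[ℂ] cornerSpace e :=
  (cornerPi he).comp (x.comp (cornerIncl e))

variable {e : H →L[ℂ] H} (he : IsStarProjection e)

lemma cornerIncl_cornerPi (ξ : H) : cornerIncl e (cornerPi he ξ) = e ξ := rfl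

lemma apply_cornerIncl (k : cornerSpace e) : e (cornerIncl e k) = cornerIncl e k :=
  mem_cornerSpace.mp k.2

lemma cornerIncl_injective : Function.Injective (cornerIncl e) := Subtype.val_injective

lemma cornerPi_cornerIncl (k : cornerSpace e) : cornerPi he (cornerIncl e k) = k := by
  apply cornerIncl_injective
  rw [cornerIncl_cornerPi, apply_cornerIncl]

lemma norm_cornerIncl_apply (k : cornerSpace e) : ‖cornerIncl e k‖ = ‖k‖ := rfl

lemma inner_cornerIncl (k l : cornerSpace e) :
    ⟪cornerIncl e k, cornerIncl e l⟫_ℂ = ⟪k, l⟫_ℂ := rfl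

lemma inner_cornerPi_left (ξ : H) (k : cornerSpace e) :
    ⟪cornerPi he ξ, k⟫_ℂ = ⟪ξ, cornerIncl e k⟫_ℂ := by
  rw [← inner_cornerIncl, cornerIncl_cornerPi, sa_inner he.isSelfAdjoint, apply_cornerIncl]

lemma inner_cornerPi_right (ξ : H) (k : cornerSpace e) :
    ⟪k, cornerPi he ξ⟫_ℂ = ⟪cornerIncl e k, ξ⟫_ℂ := by
  rw [← inner_cornerIncl, cornerIncl_cornerPi, ← sa_inner he.isSelfAdjoint, apply_cornerIncl]

lemma up_apply (t : cornerSpace e →L[ℂ] cornerSpace e) (ξ : H) :
    up he t ξ = cornerIncl e (t (cornerPi he ξ)) := rfl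

lemma down_apply (x : H →L[ℂ] H) (k : cornerSpace e) :
    down he x k = cornerPi he (x (cornerIncl e k)) := rfl

lemma up_mul (s t : cornerSpace e →L[ℂ] cornerSpace e) : up he (s * t) = up he s * up he t := by
  ext ξ
  rw [ContinuousLinearMap.mul_apply, up_apply, up_apply, up_apply, cornerPi_cornerIncl,
    ContinuousLinearMap.mul_apply]

lemma up_add (s t : cornerSpace e →L[ℂ] cornerSpace e) : up he (s + t) = up he s + up he t := by
  ext ξ
  rw [ContinuousLinearMap.add_apply, up_apply, up_apply, up_apply,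
    ContinuousLinearMap.add_apply, map_add]

lemma up_sub (s t : cornerSpace e →L[ℂ] cornerSpace e) : up he (s - t) = up he s - up he t := by
  ext ξ
  rw [ContinuousLinearMap.sub_apply, up_apply, up_apply, up_apply,
    ContinuousLinearMap.sub_apply, map_sub]

lemma up_smul (c : ℂ) (t : cornerSpace e →L[ℂ] cornerSpace e) : up he (c • t) = c • up he t := by
  ext ξ
  rw [ContinuousLinearMap.smul_apply, up_apply, up_apply,
    ContinuousLinearMap.smul_apply, map_smul]

lemma up_zero : up he 0 = 0 := by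
  ext ξ
  rw [up_apply, ContinuousLinearMap.zero_apply, map_zero, ContinuousLinearMap.zero_apply]

lemma up_one : up he 1 = e := by
  ext ξ
  rw [up_apply, ContinuousLinearMap.one_apply, cornerIncl_cornerPi]

lemma up_sum {ι : Type*} (s : Finset ι) (f : ι → cornerSpace e →L[ℂ] cornerSpace e) :
    up he (∑ i ∈ s, f i) = ∑ i ∈ s, up he (f i) := by
  classical
  induction s using Finset.induction_on with
  | empty => simp only [Finset.sum_empty, up_zero]
  | insert a s ha ih => rw [Finset.sum_insert ha, Finset.sum_insert ha, up_add, ih]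

lemma up_star (t : cornerSpace e →L[ℂ] cornerSpace e) : up he (star t) = star (up he t) := by
  rw [ContinuousLinearMap.star_eq_adjoint, ContinuousLinearMap.star_eq_adjoint,
    ContinuousLinearMap.eq_adjoint_iff]
  intro ξ η
  rw [up_apply, up_apply, ← inner_cornerPi_right, ← inner_cornerPi_left,
    ContinuousLinearMap.adjoint_inner_left]

lemma down_up (t : cornerSpace e →L[ℂ] cornerSpace e) : down he (up he t) = t := by
  ext1 k
  rw [down_apply, up_apply, cornerPi_cornerIncl, cornerPi_cornerIncl]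

lemma up_down (x : H →L[ℂ] H) : up he (down he x) = e * x * e := by
  ext ξ
  rw [up_apply, down_apply, cornerIncl_cornerPi, cornerIncl_cornerPi,
    ContinuousLinearMap.mul_apply, ContinuousLinearMap.mul_apply]

lemma up_injective : Function.Injective (up he) := by
  intro s t h
  rw [← down_up he s, ← down_up he t, h]

lemma norm_cornerPi_apply_le (ξ : H) : ‖cornerPi he ξ‖ ≤ ‖ξ‖ := by
  rw [← norm_cornerIncl_apply, cornerIncl_cornerPi]
  have h1 : ‖e ξ‖ ^ 2 ≤ ‖e ξ‖ * ‖ξ‖ := by
    have h2 : ⟪e ξ, e ξ⟫_ℂ = ⟪e ξ, ξ⟫_ℂ := (proj_inner_left he ξ ξ).symm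
    have h3 : ‖⟪e ξ, e ξ⟫_ℂ‖ = ‖e ξ‖ ^ 2 := by
      rw [inner_self_eq_norm_sq_to_K]
      simp
    rw [← h3, h2]
    exact norm_inner_le_norm _ _
  by_cases h0 : ‖e ξ‖ = 0
  · rw [h0]
    exact norm_nonneg _
  · have hpos : 0 < ‖e ξ‖ := lt_of_le_of_ne (norm_nonneg _) (Ne.symm h0)
    rw [pow_two] at h1
    exact le_of_mul_le_mul_left h1 hpos

lemma norm_down_le (x : H →L[ℂ] H) : ‖down he x‖ ≤ ‖x‖ := by
  refine ContinuousLinearMap.opNorm_le_bound (down he x) (norm_nonneg x) ?_
  intro k
  rw [down_apply]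
  calc ‖cornerPi he (x (cornerIncl e k))‖ ≤ ‖x (cornerIncl e k)‖ := norm_cornerPi_apply_le he _
    _ ≤ ‖x‖ * ‖cornerIncl e k‖ := x.le_opNorm _
    _ = ‖x‖ * ‖k‖ := by rw [norm_cornerIncl_apply]

lemma norm_up (t : cornerSpace e →L[ℂ] cornerSpace e) : ‖up he t‖ = ‖t‖ := by
  apply le_antisymm
  · refine ContinuousLinearMap.opNorm_le_bound (up he t) (norm_nonneg t) ?_
    intro ξ
    rw [up_apply, norm_cornerIncl_apply]
    calc ‖t (cornerPi he ξ)‖ ≤ ‖t‖ * ‖cornerPi he ξ‖ := t.le_opNorm _
      _ ≤ ‖t‖ * ‖ξ‖ := mul_le_mul_of_nonneg_left (norm_cornerPi_apply_le he ξ) (norm_nonneg t)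
  · calc ‖t‖ = ‖down he (up he t)‖ := by rw [down_up]
      _ ≤ ‖up he t‖ := norm_down_le he _

lemma mul_up (t : cornerSpace e →L[ℂ] cornerSpace e) : e * up he t = up he t := by
  ext ξ
  rw [ContinuousLinearMap.mul_apply, up_apply, apply_cornerIncl]

lemma up_mul_self (t : cornerSpace e →L[ℂ] cornerSpace e) : up he t * e = up he t := by
  ext ξ
  rw [ContinuousLinearMap.mul_apply, up_apply, up_apply, ← cornerIncl_cornerPi he ξ,
    cornerPi_cornerIncl]

lemma isSelfAdjoint_up {t : cornerSpace e →L[ℂ] cornerSpace e} (ht : IsSelfAdjoint t) :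
    IsSelfAdjoint (up he t) := by
  unfold IsSelfAdjoint
  rw [← up_star, ht.star_eq]

lemma isStarProjection_up {t : cornerSpace e →L[ℂ] cornerSpace e} (ht : IsStarProjection t) :
    IsStarProjection (up he t) := by
  refine ⟨?_, isSelfAdjoint_up he ht.isSelfAdjoint⟩
  unfold IsIdempotentElem
  rw [← up_mul, ht.isIdempotentElem.eq]

lemma down_star (x : H →L[ℂ] H) : down he (star x) = star (down he x) := by
  rw [ContinuousLinearMap.star_eq_adjoint, ContinuousLinearMap.star_eq_adjoint,
    ContinuousLinearMap.eq_adjoint_iff]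
  intro k l
  rw [down_apply, down_apply, inner_cornerPi_right, inner_cornerPi_left,
    ContinuousLinearMap.adjoint_inner_left]

lemma isSelfAdjoint_down {x : H →L[ℂ] H} (hx : IsSelfAdjoint x) : IsSelfAdjoint (down he x) := by
  unfold IsSelfAdjoint
  rw [← down_star, hx.star_eq]

lemma down_nonneg {x : H →L[ℂ] H} (hx : 0 ≤ x) : 0 ≤ down he x := by
  rw [ContinuousLinearMap.nonneg_iff_isPositive] at hx ⊢
  rw [ContinuousLinearMap.isPositive_def'] at hx ⊢
  refine ⟨isSelfAdjoint_down he hx.1, ?_⟩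
  intro k
  have h := hx.2 (cornerIncl e k)
  unfold ContinuousLinearMap.reApplyInnerSelf at h ⊢
  rw [down_apply, inner_cornerPi_left]
  exact h

/-- `down` is multiplicative when one factor commutes with `e`. -/
lemma down_mul_of_commute {f : H →L[ℂ] H} (hf : f * e = e * f) (x : H →L[ℂ] H) :
    down he (f * x) = down he f * down he x ∧ down he (x * f) = down he x * down he f := by
  have hfe : ∀ ξ, f (e ξ) = e (f ξ) := fun ξ => congrArg (fun T : H →L[ℂ] H => T ξ) hf
  constructor
  · ext1 k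
    apply cornerIncl_injective
    rw [ContinuousLinearMap.mul_apply, down_apply, down_apply, down_apply,
      cornerIncl_cornerPi, cornerIncl_cornerPi, cornerIncl_cornerPi,
      ContinuousLinearMap.mul_apply, hfe, proj_apply_apply he]
  · ext1 k
    apply cornerIncl_injective
    rw [ContinuousLinearMap.mul_apply, down_apply, down_apply, down_apply,
      cornerIncl_cornerPi, cornerIncl_cornerPi, cornerIncl_cornerPi,
      ContinuousLinearMap.mul_apply, ← hfe, apply_cornerIncl]

end Vale.Agent.Lib.P078
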