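import Vale.Agent.Lib.P078.Thin.Corner

/-!
# P078 (subtask W1b): the corner `e M e` as a von Neumann algebra on the Hilbert space `e H`

Blueprint (all lemmas of `Corner.lean` may be used as black boxes).
* `cornerSub S he heS`: the star subalgebra `{t | up t ∈ S}` of `B(K)` (`up (algebraMap c) = c • e ∈ S`).
* `cornerVN`: the double commutant property.  Let `t` commute with the commutant of `{s | up s ∈ M}`.  To show `up t ∈ M = M''` (`M.commutant_commutant`, `VonNeumannAlgebra.mem_commutant_iff`) let `y ∈ M'`.  `y` commutes with `e ∈ M`.
  `down y` commutes with every `s` with `up s ∈ M`: `up (down y * s) = e y e * up s = y * up s = up s * y = up (s * down y)` and `up` is injective.  So `t` commutes with `down y`, and applying `up`: `up t * y = up t * (e y e) = (e y e) * up t = y * up t`.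
* `isMASA_corner`: commutativity by injectivity of `up`.  If `up t ∈ M` and `t` commutes with `{s | up s ∈ A}` then for `a ∈ A`: `down a` is in that set (`up (down a) = e a e ∈ A`), so `up t * a = up t * e a e = e a e * up t = a * up t`; hence `up t ∈ A`.
-/

set_option linter.unusedSectionVars false

namespace Vale.Agent.Lib.P078

open scoped InnerProductSpace

variable {H : Type*} [NormedAddCommGroup H] [InnerProductSpace ℂ H] [CompleteSpace H]
variable {e : H →L[ℂ] H} (he : IsStarProjection e)

/-- `e y e * up t = y * up t` when `y` commutes with `e`. -/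
lemma compress_mul_up {y : H →L[ℂ] H} (hye : e * y = y * e)
    (t : cornerSpace e →L[ℂ] cornerSpace e) : e * y * e * up he t = y * up he t := by
  rw [mul_assoc (e * y) e, mul_up, hye, mul_assoc, mul_up]

/-- `up t * e y e = up t * y` when `y` commutes with `e`. -/
lemma up_mul_compress {y : H →L[ℂ] H} (hye : e * y = y * e)
    (t : cornerSpace e →L[ℂ] cornerSpace e) : up he t * (e * y * e) = up he t * y := by
  rw [hye, mul_assoc y e e, he.isIdempotentElem.eq, ← hye, ← mul_assoc, up_mul_self]

/-- If `y` commutes with `e` then `down y` commutes with `t` iff `y` commutes with `up t`. -/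
lemma down_commute_iff {y : H →L[ℂ] H} (hye : e * y = y * e)
    (t : cornerSpace e →L[ℂ] cornerSpace e) :
    down he y * t = t * down he y ↔ y * up he t = up he t * y := by
  constructor
  · intro h
    have h1 := congrArg (up he) h
    rw [up_mul, up_mul, up_down, compress_mul_up he hye, up_mul_compress he hye] at h1
    exact h1
  · intro h
    apply up_injective he
    rw [up_mul, up_mul, up_down, compress_mul_up he hye, up_mul_compress he hye]
    exact h

/-- The star subalgebra `{t | up t ∈ S}` of `B(e H)`. -/
noncomputable def cornerSub (S : StarSubalgebra ℂ (H →L[ℂ] H)) (heS : e ∈ S) :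
    StarSubalgebra ℂ (cornerSpace e →L[ℂ] cornerSpace e) where
  carrier := {t | up he t ∈ S}
  mul_mem' := by
    intro a b ha hb
    show up he (a * b) ∈ S
    rw [up_mul]
    exact S.mul_mem ha hb
  add_mem' := by
    intro a b ha hb
    show up he (a + b) ∈ S
    rw [up_add]
    exact S.add_mem ha hb
  algebraMap_mem' := by
    intro r
    show up he (algebraMap ℂ (cornerSpace e →L[ℂ] cornerSpace e) r) ∈ S
    rw [Algebra.algebraMap_eq_smul_one, up_smul, up_one]
    exact S.smul_mem heS r
  star_mem' := by
    intro a ha
    show up he (star a) ∈ S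
    rw [up_star]
    exact star_mem ha

lemma mem_cornerSub {S : StarSubalgebra ℂ (H →L[ℂ] H)} {heS : e ∈ S}
    {t : cornerSpace e →L[ℂ] cornerSpace e} : t ∈ cornerSub he S heS ↔ up he t ∈ S := Iff.rfl

/-- The double commutant property of the corner. -/
lemma up_mem_of_mem_centralizer (M : VonNeumannAlgebra H) (heM : e ∈ M)
    {t : cornerSpace e →L[ℂ] cornerSpace e}
    (ht : t ∈ Set.centralizer (Set.centralizer {s | up he s ∈ M})) : up he t ∈ M := by
  rw [← M.commutant_commutant, VonNeumannAlgebra.mem_commutant_iff]
  intro y hy
  rw [VonNeumannAlgebra.mem_commutant_iff] at hy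
  have hye : e * y = y * e := hy e heM
  have hd : down he y ∈ Set.centralizer {s | up he s ∈ M} := by
    rw [Set.mem_centralizer_iff]
    intro s hs
    exact ((down_commute_iff he hye s).2 (hy (up he s) hs).symm).symm
  have h1 : down he y * t = t * down he y := (Set.mem_centralizer_iff.1 ht) (down he y) hd
  exact (down_commute_iff he hye t).1 h1

/-- The corner `e M e` as a von Neumann algebra on `e H`. -/
noncomputable def cornerVN (M : VonNeumannAlgebra H) (heM : e ∈ M) :
    VonNeumannAlgebra (cornerSpace e) where
  toStarSubalgebra := cornerSub he M.toStarSubalgebra heM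
  centralizer_centralizer' := by
    refine Set.Subset.antisymm ?_ Set.subset_centralizer_centralizer
    intro t ht
    exact up_mem_of_mem_centralizer he M heM ht

lemma mem_cornerVN {M : VonNeumannAlgebra H} {heM : e ∈ M}
    {t : cornerSpace e →L[ℂ] cornerSpace e} : t ∈ cornerVN he M heM ↔ up he t ∈ M := Iff.rfl

theorem isMASA_corner {M : VonNeumannAlgebra H} {A : StarSubalgebra ℂ (H →L[ℂ] H)}
    (hM : IsMASA M A) (heA : e ∈ A) :
    IsMASA (cornerVN he M (hM.1 e heA)) (cornerSub he A heA) := by
  refine ⟨?_, ?_, ?_⟩
  · intro a ha
    exact hM.1 _ ha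
  · intro a ha b hb
    apply up_injective he
    rw [up_mul, up_mul]
    exact hM.2.1 _ ha _ hb
  · intro x hx hcomm
    show up he x ∈ A
    refine hM.2.2 _ hx ?_
    intro a ha
    have hae : e * a = a * e := hM.2.1 e heA a ha
    have hda : down he a ∈ cornerSub he A heA := by
      show up he (down he a) ∈ A
      rw [up_down]
      exact A.mul_mem (A.mul_mem heA ha) heA
    exact (down_commute_iff he hae x).1 (hcomm _ hda)

end Vale.Agent.Lib.P078
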