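import Vale.Agent.Lib.P078.Thin.CornerPave

/-!
# P078 (subtask W4): so-pavability in `M` of an element of `z M z` gives so-pavability inside the corner, with an arbitrarily small loss

Blueprint.  Let `x = z x z` be `(ε, r)` so-pavable, `ε < ε'`.  If `x = 0` take `p 0 = z` (needs `1 ≤ r`), other `p i = 0`, `a = 0`, `q = z`.  Let `X = ‖x‖ > 0`.
Choose `η ∈ (0, 1)` with `2 (2 sqrt η + η) ≤ ε' - ε`.  Given `F`, `δ`: apply the hypothesis to `F.image z` and `δ₁` with `δ₁ (‖ξ‖ + 1) < η δ^2` for `ξ ∈ F` (any bound that makes the Chebyshev step below work); get `P`, `a₀`, `q₀`.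
* `p i = P i * z`, `a = a₀ * z` (`‖a‖ ≤ ‖a₀‖`), `y = pinching P x - a₀`, `‖y‖ ≤ 2 X`, and `z y z = pinching p x - a` (`z ∈ A` commutes with `P i`, `a₀`; `pinching p x = pinching P x` because `x = z x z`).
* `c = z (1 - q₀) z ∈ M`, `0 ≤ c`, `z c = c`.  `exists_cut_nonneg` (`q = z`, `γ = η`) gives a projection `q ∈ M`, `z q = q`, `‖q c q‖ ≤ η`, `η ‖(z - q) ξ‖^2 ≤ re ⟪ξ, c ξ⟫ = ‖(1 - q₀) (z ξ)‖^2 < δ₁^2`.
* For a unit vector `v = q v` (so `z v = v`): `‖(1 - q₀) v‖^2 = ⟪v, c v⟫ = ⟪v, q c q v⟫ ≤ η`.  With `v = q₀ v + (1 - q₀) v`: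
  `|⟪v, y v⟫| ≤ |⟪q₀ v, y q₀ v⟫| + 2 ‖y‖ sqrt η + ‖y‖ η ≤ ε X + 2 X (2 sqrt η + η) ≤ ε' X`.  As `q y q` is self-adjoint its norm is the supremum of `|⟪v, q y q v⟫|` over unit vectors
  (alternatively estimate the operator norm directly: `q y q = q q₀ y q₀ q + q (1 - q₀) y q₀ q + q y (1 - q₀) q`, and `‖(1 - q₀) q‖^2 = ‖q (1 - q₀) q‖ = ‖q c q‖ ≤ η`, so `‖q y q‖ ≤ ε X + 2 ‖y‖ sqrt η`; this avoids numerical ranges, and then `4 sqrt η ≤ ε' - ε` suffices).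
  Finally `q (pinching p x - a) q = q z y z q = q y q`.
-/

set_option linter.unusedSectionVars false

namespace Vale.Agent.Lib.P078

open scoped InnerProductSpace

variable {H : Type*} [NormedAddCommGroup H] [InnerProductSpace ℂ H] [CompleteSpace H]
variable {M : VonNeumannAlgebra H} {A : StarSubalgebra ℂ (H →L[ℂ] H)}

/-- the norm estimate: cutting by a projection `q` almost dominated by `q₀` -/
private lemma norm_cut_le {q q₀ y : H →L[ℂ] H} (hq : IsStarProjection q)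
    (hq₀ : IsStarProjection q₀) {s κ Y : ℝ} (hs : 0 ≤ s) (hY : ‖y‖ ≤ Y)
    (h1 : ‖q * (1 - q₀) * q‖ ≤ s ^ 2) (h2 : ‖q₀ * y * q₀‖ ≤ κ) :
    ‖q * y * q‖ ≤ κ + 2 * (s * Y) := by
  have hqs : star q = q := hq.isSelfAdjoint.star_eq
  have hq₀s : star q₀ = q₀ := hq₀.isSelfAdjoint.star_eq
  have hq1 : ‖q‖ ≤ 1 := IsStarProjection.norm_le _ hq
  have hq₀1 : ‖q₀‖ ≤ 1 := IsStarProjection.norm_le _ hq₀
  have hY0 : 0 ≤ Y := (norm_nonneg _).trans hY
  have hc : IsStarProjection (1 - q₀) := hq₀.one_sub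
  have hcs : star (1 - q₀) = 1 - q₀ := hc.isSelfAdjoint.star_eq
  have hcc : (1 - q₀) * (1 - q₀) = 1 - q₀ := hc.isIdempotentElem.eq
  have h3 : ‖(1 - q₀) * q‖ ≤ s := by
    have h5 : ‖star ((1 - q₀) * q) * ((1 - q₀) * q)‖ = ‖(1 - q₀) * q‖ * ‖(1 - q₀) * q‖ :=
      CStarRing.norm_star_mul_self
    have h6 : star ((1 - q₀) * q) * ((1 - q₀) * q) = q * (1 - q₀) * q := by
      rw [star_mul, hqs, hcs, mul_assoc, ← mul_assoc (1 - q₀), hcc, mul_assoc]
    rw [h6] at h5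
    have h7 : ‖(1 - q₀) * q‖ ^ 2 ≤ s ^ 2 := by
      rw [sq, ← h5]
      exact h1
    exact (pow_le_pow_iff_left₀ (norm_nonneg _) hs two_ne_zero).1 h7
  have h4 : ‖q * (1 - q₀)‖ ≤ s := by
    have : q * (1 - q₀) = star ((1 - q₀) * q) := by rw [star_mul, hqs, hcs]
    rw [this, norm_star]
    exact h3
  have hdec : q * y * q = q * (q₀ * y * q₀) * q + (q * (1 - q₀)) * (y * (q₀ * q))
      + (q * y) * ((1 - q₀) * q) := by
    noncomm_ring
  have e1 : ‖q * (q₀ * y * q₀) * q‖ ≤ κ := by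
    calc ‖q * (q₀ * y * q₀) * q‖ ≤ ‖q‖ * ‖q₀ * y * q₀‖ * ‖q‖ :=
          (norm_mul_le _ _).trans (mul_le_mul_of_nonneg_right (norm_mul_le _ _) (norm_nonneg _))
      _ ≤ 1 * ‖q₀ * y * q₀‖ * 1 := by gcongr
      _ ≤ κ := by simpa using h2
  have e2 : ‖(q * (1 - q₀)) * (y * (q₀ * q))‖ ≤ s * Y := by
    calc ‖(q * (1 - q₀)) * (y * (q₀ * q))‖ ≤ ‖q * (1 - q₀)‖ * (‖y‖ * (‖q₀‖ * ‖q‖)) := by
          refine (norm_mul_le _ _).trans (mul_le_mul_of_nonneg_left ?_ (norm_nonneg _))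
          exact (norm_mul_le _ _).trans (mul_le_mul_of_nonneg_left (norm_mul_le _ _) (norm_nonneg _))
      _ ≤ s * (Y * (1 * 1)) := by gcongr
      _ = s * Y := by ring
  have e3 : ‖(q * y) * ((1 - q₀) * q)‖ ≤ s * Y := by
    calc ‖(q * y) * ((1 - q₀) * q)‖ ≤ (‖q‖ * ‖y‖) * ‖(1 - q₀) * q‖ :=
          (norm_mul_le _ _).trans (mul_le_mul_of_nonneg_right (norm_mul_le _ _) (norm_nonneg _))
      _ ≤ (1 * Y) * s := by gcongr
      _ = s * Y := by ring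
  rw [hdec]
  calc _ ≤ ‖q * (q₀ * y * q₀) * q + (q * (1 - q₀)) * (y * (q₀ * q))‖
        + ‖(q * y) * ((1 - q₀) * q)‖ := norm_add_le _ _
    _ ≤ (‖q * (q₀ * y * q₀) * q‖ + ‖(q * (1 - q₀)) * (y * (q₀ * q))‖)
        + ‖(q * y) * ((1 - q₀) * q)‖ := by gcongr; exact norm_add_le _ _
    _ ≤ (κ + s * Y) + s * Y := by gcongr
    _ = κ + 2 * (s * Y) := by ring

/-- `⟪ξ, z (1 - q₀) z ξ⟫ = ‖(1 - q₀) (z ξ)‖ ^ 2` -/
private lemma re_inner_corner {z q₀ : H →L[ℂ] H} (hz : IsStarProjection z)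
    (hq₀ : IsStarProjection q₀) (ξ : H) :
    (⟪ξ, (z * (1 - q₀) * z) ξ⟫_ℂ).re = ‖(1 - q₀) (z ξ)‖ ^ 2 := by
  have hzs : star z = z := hz.isSelfAdjoint.star_eq
  have h1 : ⟪ξ, (z * (1 - q₀) * z) ξ⟫_ℂ = ⟪z ξ, (1 - q₀) (z ξ)⟫_ℂ := by
    have : (z * (1 - q₀) * z) ξ = (star z) ((1 - q₀) (z ξ)) := by
      rw [hzs]
      rfl
    rw [this, ContinuousLinearMap.star_eq_adjoint, ContinuousLinearMap.adjoint_inner_right]
  rw [h1, proj_norm_sq hq₀.one_sub]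

/-- the pinching by `P i * z` of an element of the corner -/
private lemma pinching_mul_corner {r : ℕ} {P : Fin r → H →L[ℂ] H} {z x : H →L[ℂ] H}
    (hz : IsStarProjection z) (hcomm : ∀ i, P i * z = z * P i) (hx : z * x * z = x) :
    pinching (fun i => P i * z) x = pinching P x := by
  have hzz : z * z = z := hz.isIdempotentElem.eq
  have hzx : z * x = x := by
    calc z * x = z * (z * x * z) := by rw [hx]
      _ = (z * z) * x * z := by noncomm_ring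
      _ = x := by rw [hzz, hx]
  have hxz : x * z = x := by
    calc x * z = (z * x * z) * z := by rw [hx]
      _ = z * x * (z * z) := by noncomm_ring
      _ = x := by rw [hzz, hx]
  unfold pinching
  apply Finset.sum_congr rfl
  intro i _
  calc P i * z * x * (P i * z) = P i * (z * x) * (P i * z) := by noncomm_ring
    _ = P i * x * (z * P i) := by rw [hzx, hcomm i]
    _ = P i * (x * z) * P i := by noncomm_ring
    _ = P i * x * P i := by rw [hxz]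

theorem cornerPavable_of_soPavable (hM : IsMASA M A) {z : H →L[ℂ] H} (hz : IsStarProjection z)
    (hzA : z ∈ A) {x : H →L[ℂ] H} (hxM : x ∈ M) (hxs : IsSelfAdjoint x) (hx : z * x * z = x)
    {ε ε' : ℝ} (h0 : 0 < ε) (hε : ε < ε') {r : ℕ} (hr : 1 ≤ r) (h : SoPavable M A x ε r) :
    CornerPavable M A z x (ε' * ‖x‖) r := by
  classical
  obtain ⟨hAM, hcomm, -⟩ := hM
  intro F δ hδ
  set s : ℝ := (ε' - ε) / 4 with hs
  have hs0 : 0 < s := by
    rw [hs]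
    linarith
  obtain ⟨P, a₀, q₀, hP, ha₀A, ha₀s, ha₀n, hq₀M, hq₀, hq₀F, hq₀n⟩ :=
    h (F.image z) (s * δ) (mul_pos hs0 hδ)
  have hzs : star z = z := hz.isSelfAdjoint.star_eq
  have hzz : z * z = z := hz.isIdempotentElem.eq
  have hzM : z ∈ M := hAM z hzA
  have hz1 : ‖z‖ ≤ 1 := IsStarProjection.norm_le _ hz
  have hcM : z * (1 - q₀) * z ∈ M :=
    mul_mem (mul_mem hzM (sub_mem (one_mem _) hq₀M)) hzM
  have hc0 : 0 ≤ z * (1 - q₀) * z := by
    have h1 := star_mul_self_nonneg ((1 - q₀) * z)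
    have h2 : star ((1 - q₀) * z) * ((1 - q₀) * z) = z * (1 - q₀) * z := by
      rw [star_mul, hzs, hq₀.one_sub.isSelfAdjoint.star_eq, mul_assoc, ← mul_assoc (1 - q₀),
        hq₀.one_sub.isIdempotentElem.eq, mul_assoc]
    rwa [h2] at h1
  have hzc : z * (z * (1 - q₀) * z) = z * (1 - q₀) * z := by
    rw [← mul_assoc, ← mul_assoc, hzz]
  obtain ⟨q, hqM, hq, hzq, hqc, hqF⟩ :=
    exists_cut_nonneg hzM hz hcM hc0 hzc (pow_pos hs0 2)
  have hqs : star q = q := hq.isSelfAdjoint.star_eq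
  have hqz : q * z = q := by
    have := congrArg star hzq
    simpa [star_mul, hzs, hqs] using this
  have hPz : ∀ i, P i * z = z * P i := fun i => hcomm _ (hP.mem i) _ hzA
  have ha₀z : a₀ * z = z * a₀ := hcomm _ ha₀A _ hzA
  refine ⟨fun i => P i * z, a₀ * z, q, fun i => mul_mem (hP.mem i) hzA,
    fun i => (hP.proj i).mul hz (hPz i), ?_, ?_, mul_mem ha₀A hzA, ?_, ?_, ?_, hqM, hq, hzq,
    ?_, ?_⟩
  · intro i j hij
    calc P i * z * (P j * z) = P i * (z * P j) * z := by noncomm_ring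
      _ = P i * (P j * z) * z := by rw [hPz j]
      _ = (P i * P j) * z * z := by noncomm_ring
      _ = 0 := by rw [hP.orth i j hij, zero_mul, zero_mul]
  · rw [← Finset.sum_mul, hP.sum_eq, one_mul]
  · rw [IsSelfAdjoint, star_mul, hzs, ha₀s.star_eq, ha₀z]
  · rw [ha₀z, ← mul_assoc, hzz]
  · calc ‖a₀ * z‖ ≤ ‖a₀‖ * ‖z‖ := norm_mul_le _ _
      _ ≤ ‖a₀‖ * 1 := by gcongr
      _ ≤ ‖x‖ := by simpa using ha₀n
  · intro ξ hξ
    have h1 := hqF ξ
    rw [re_inner_corner hz hq₀] at h1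
    have h2 : ‖(1 - q₀) (z ξ)‖ < s * δ := hq₀F (z ξ) (Finset.mem_image_of_mem _ hξ)
    have h3 : ‖(1 - q₀) (z ξ)‖ ^ 2 < (s * δ) ^ 2 :=
      pow_lt_pow_left₀ h2 (norm_nonneg _) two_ne_zero
    have h4 : s ^ 2 * ‖(z - q) ξ‖ ^ 2 < s ^ 2 * δ ^ 2 := by
      calc _ ≤ _ := h1
        _ < (s * δ) ^ 2 := h3
        _ = s ^ 2 * δ ^ 2 := by ring
    have h5 : ‖(z - q) ξ‖ ^ 2 < δ ^ 2 := lt_of_mul_lt_mul_left h4 (by positivity)
    exact lt_of_pow_lt_pow_left₀ 2 hδ.le h5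
  · rw [pinching_mul_corner hz hPz hx]
    have e1 : q * (pinching P x - a₀ * z) * q = q * (pinching P x - a₀) * q := by
      calc q * (pinching P x - a₀ * z) * q = q * pinching P x * q - q * a₀ * (z * q) := by
            noncomm_ring
        _ = q * pinching P x * q - q * a₀ * q := by rw [hzq]
        _ = _ := by noncomm_ring
    rw [e1]
    have e2 : q * (1 - q₀) * q = q * (z * (1 - q₀) * z) * q := by
      calc q * (1 - q₀) * q = (q * z) * (1 - q₀) * (z * q) := by rw [hqz, hzq]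
        _ = _ := by noncomm_ring
    have hY : ‖pinching P x - a₀‖ ≤ 2 * ‖x‖ := by
      calc ‖pinching P x - a₀‖ ≤ ‖pinching P x‖ + ‖a₀‖ := norm_sub_le _ _
        _ ≤ ‖x‖ + ‖x‖ := add_le_add (hP.norm_pinching_le x) ha₀n
        _ = 2 * ‖x‖ := by ring
    have := norm_cut_le hq hq₀ hs0.le hY (by rw [e2]; exact hqc) hq₀n
    calc _ ≤ _ := this
      _ = ε' * ‖x‖ := by rw [hs]; ring

end Vale.Agent.Lib.P078
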