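import Vale.Agent.Lib.P078.Thin.PosFunctional
import Vale.Agent.Lib.P078.Thin.Spectral2

/-!
# P078 (subtask V4): domination on projections of a corner implies domination on positive elements of the corner

Blueprint.  Write `ω w = C * ∑ ξ ∈ F, re ⟪ξ, w ξ⟫`; for a projection `p'`, `re ⟪ξ, p' ξ⟫ = ‖p' ξ‖^2` (`proj_norm_sq`).
* `exists_dyadic_corner` (compare `exists_dyadic'` in `Spectral2.lean`).  `exists_split_vN` for `b = w - (c/2) • 1` gives a projection `e ∈ M` that commutes with everything commuting with `b`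
  (in particular with `w` and with `e₀`, since `e₀ * w = w = w * e₀`), `0 ≤ b * e`, `0 ≤ -(b * (1 - e))`.  `e * (1 - e₀) = 0`: `(1 - e₀) * (b * e) * (1 - e₀) = -(c/2) • (e * (1 - e₀))` is `≥ 0`, and `e * (1 - e₀)` is a projection
  (product of commuting projections), so it is `0` as `c > 0`.  `w - (c/2) • e = b * e + w * (1 - e)` is `≥ 0` (`nonneg_mul_proj` in `Spectral.lean` for `w * (1 - e)`), and it is `≤ (c/2) • 1` since `b * e ≤ (c/2) • e` (from `w ≤ c`)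
  and `w * (1 - e) ≤ (c/2) • (1 - e)`.
* `corner_dominated_aux`, by induction on `n`: `re ρ w = (c/2) re ρ e + re ρ (w - (c/2) e) ≤ (c/2) ω e + ω (w - (c/2) e) + (c/2) / 2^n * re ρ 1`.  For `n = 0`: `re ρ w ≤ c re ρ 1` (`mono`) and `0 ≤ ω w`.  The case `c = 0` (`w = 0`) is trivial.
* `corner_dominated`: `c = ‖w‖`, let `n → ∞`.
-/

set_option linter.unusedSectionVars false

namespace Vale.Agent.Lib.P078

open scoped InnerProductSpace

variable {H : Type*} [NormedAddCommGroup H] [InnerProductSpace ℂ H] [CompleteSpace H]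
variable {M : VonNeumannAlgebra H} {ρ : (H →L[ℂ] H) →L[ℂ] ℂ}

lemma corner_left {e₀ w : H →L[ℂ] H} (he₀ : IsStarProjection e₀) (hcor : e₀ * w * e₀ = w) :
    e₀ * w = w := by
  conv_lhs => rw [← hcor]
  rw [← mul_assoc, ← mul_assoc, he₀.isIdempotentElem.eq, hcor]

lemma corner_right {e₀ w : H →L[ℂ] H} (he₀ : IsStarProjection e₀) (hcor : e₀ * w * e₀ = w) :
    w * e₀ = w := by
  conv_lhs => rw [← hcor]
  rw [mul_assoc, he₀.isIdempotentElem.eq, hcor]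

/-- A projection `f` with `0 ≤ -(γ • f)`, `γ > 0`, vanishes. -/
lemma proj_eq_zero_of_neg_smul_nonneg {f : H →L[ℂ] H} (hf : IsStarProjection f) {γ : ℝ}
    (hγ : 0 < γ) (h : 0 ≤ -((γ : ℂ) • f)) : f = 0 := by
  have h1 : (0 : H →L[ℂ] H) ≤ γ • f := smul_nonneg hγ.le hf.nonneg
  have h2 : (γ : ℂ) • f = γ • f := by
    ext v
    simp
  rw [h2] at h
  have h3 : γ • f = 0 := le_antisymm (neg_nonneg.mp h) h1
  rcases smul_eq_zero.mp h3 with h4 | h4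
  · exact absurd h4 hγ.ne'
  · exact h4

lemma exists_dyadic_corner {e₀ w : H →L[ℂ] H} (he₀ : IsStarProjection e₀) (hw : w ∈ M) (h0 : 0 ≤ w)
    (hcor : e₀ * w * e₀ = w) {c : ℝ} (hc : 0 < c) (h1 : w ≤ (c : ℂ) • (1 : H →L[ℂ] H)) :
    ∃ e ∈ M, IsStarProjection e ∧ e * (1 - e₀) = 0 ∧ 0 ≤ w - ((c / 2 : ℝ) : ℂ) • e ∧
      w - ((c / 2 : ℝ) : ℂ) • e ≤ ((c / 2 : ℝ) : ℂ) • (1 : H →L[ℂ] H) ∧
      e₀ * (w - ((c / 2 : ℝ) : ℂ) • e) * e₀ = w - ((c / 2 : ℝ) : ℂ) • e := by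
  have hl := corner_left he₀ hcor
  have hr := corner_right he₀ hcor
  have hws : star w = w := h0.isSelfAdjoint.star_eq
  have he₀s : star e₀ = e₀ := he₀.isSelfAdjoint.star_eq
  have hone : IsSelfAdjoint (((c / 2 : ℝ) : ℂ) • (1 : H →L[ℂ] H)) := by
    rw [IsSelfAdjoint, star_smul, star_one]
    simp
  have hbM : w - ((c / 2 : ℝ) : ℂ) • (1 : H →L[ℂ] H) ∈ M :=
    sub_mem hw (M.toStarSubalgebra.smul_mem (one_mem _) _)
  obtain ⟨e, heM, he, hcomm, hp, hn⟩ := exists_split_vN hbM (h0.isSelfAdjoint.sub hone)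
  have hwb : w * (w - ((c / 2 : ℝ) : ℂ) • (1 : H →L[ℂ] H))
      = (w - ((c / 2 : ℝ) : ℂ) • (1 : H →L[ℂ] H)) * w := by
    rw [mul_sub, sub_mul, mul_smul_comm, smul_mul_assoc, mul_one, one_mul]
  have heb : e₀ * (w - ((c / 2 : ℝ) : ℂ) • (1 : H →L[ℂ] H))
      = (w - ((c / 2 : ℝ) : ℂ) • (1 : H →L[ℂ] H)) * e₀ := by
    rw [mul_sub, sub_mul, mul_smul_comm, smul_mul_assoc, mul_one, one_mul, hl, hr]
  have hwe : w * e = e * w := hcomm w hwb (by rw [hws]; exact hwb)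
  have hee₀ : e₀ * e = e * e₀ := hcomm e₀ heb (by rw [he₀s]; exact heb)
  have hcomm1 : e * (1 - e₀) = (1 - e₀) * e := by
    rw [mul_sub, sub_mul, mul_one, one_mul, hee₀]
  have hf : IsStarProjection (e * (1 - e₀)) := he.mul he₀.one_sub hcomm1
  have hzero : e * (1 - e₀) = 0 := by
    apply proj_eq_zero_of_neg_smul_nonneg hf (half_pos hc)
    have h2 : 0 ≤ star (1 - e₀) * ((w - ((c / 2 : ℝ) : ℂ) • (1 : H →L[ℂ] H)) * e) * (1 - e₀) :=
      star_left_conjugate_nonneg hp _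
    have h3 : star (1 - e₀) * ((w - ((c / 2 : ℝ) : ℂ) • (1 : H →L[ℂ] H)) * e) * (1 - e₀)
        = -(((c / 2 : ℝ) : ℂ) • (e * (1 - e₀))) := by
      have e1 : star (1 - e₀) = 1 - e₀ := he₀.one_sub.isSelfAdjoint.star_eq
      have e2 : (1 - e₀) * (w - ((c / 2 : ℝ) : ℂ) • (1 : H →L[ℂ] H))
          = -(((c / 2 : ℝ) : ℂ) • (1 - e₀)) := by
        rw [mul_sub, sub_mul, one_mul, hl, mul_smul_comm, mul_one]
        abel
      rw [e1, ← mul_assoc, e2, neg_mul, neg_mul, smul_mul_assoc, smul_mul_assoc, ← hcomm1,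
        mul_assoc, he₀.one_sub.isIdempotentElem.eq]
    rw [h3] at h2
    exact h2
  have hee : e * e₀ = e := by
    have := hzero
    rw [mul_sub, mul_one, sub_eq_zero] at this
    exact this.symm
  refine ⟨e, heM, he, hzero, ?_, ?_, ?_⟩
  · have h2 : 0 ≤ w * (1 - e) :=
      nonneg_mul_proj h0 he.one_sub (by rw [mul_sub, sub_mul, mul_one, one_mul, hwe])
    have h3 : w - ((c / 2 : ℝ) : ℂ) • e
        = w * (1 - e) + (w - ((c / 2 : ℝ) : ℂ) • (1 : H →L[ℂ] H)) * e := by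
      rw [mul_sub, sub_mul, mul_one, smul_mul_assoc, one_mul]
      abel
    rw [h3]
    exact add_nonneg h2 hp
  · have h2 : 0 ≤ ((c : ℂ) • (1 : H →L[ℂ] H) - w) * e :=
      nonneg_mul_proj (sub_nonneg.mpr h1) he
        (by rw [sub_mul, mul_sub, smul_mul_assoc, mul_smul_comm, one_mul, mul_one, hwe])
    have h3 : ((c / 2 : ℝ) : ℂ) • (1 : H →L[ℂ] H) - (w - ((c / 2 : ℝ) : ℂ) • e)
        = -((w - ((c / 2 : ℝ) : ℂ) • (1 : H →L[ℂ] H)) * (1 - e))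
          + ((c : ℂ) • (1 : H →L[ℂ] H) - w) * e := by
      have hc' : (c : ℂ) = ((c / 2 : ℝ) : ℂ) + ((c / 2 : ℝ) : ℂ) := by
        push_cast
        ring
      rw [hc', add_smul]
      simp only [mul_sub, sub_mul, mul_one, smul_mul_assoc, one_mul, add_mul]
      abel
    rw [← sub_nonneg, h3]
    exact add_nonneg hn h2
  · rw [mul_sub, sub_mul, hcor, mul_smul_comm, smul_mul_assoc, hee₀, mul_assoc,
      he₀.isIdempotentElem.eq, hee]

lemma re_inner_nonneg_of_nonneg {w : H →L[ℂ] H} (h0 : 0 ≤ w) (ξ : H) : 0 ≤ (⟪ξ, w ξ⟫_ℂ).re := by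
  have := re_inner_le_of_le h0 ξ
  simpa using this

lemma omega_nonneg (F : Finset H) {C : ℝ} (hC : 0 ≤ C) {w : H →L[ℂ] H} (h0 : 0 ≤ w) :
    0 ≤ C * ∑ ξ ∈ F, (⟪ξ, w ξ⟫_ℂ).re :=
  mul_nonneg hC (Finset.sum_nonneg fun ξ _ => re_inner_nonneg_of_nonneg h0 ξ)

lemma re_apply_le_of_le_smul (hρ : IsPosFunctional ρ) {w : H →L[ℂ] H} {c : ℝ}
    (h1 : w ≤ (c : ℂ) • (1 : H →L[ℂ] H)) : (ρ w).re ≤ c * (ρ 1).re := by
  have := hρ.mono h1
  rw [map_smul, smul_eq_mul, Complex.re_ofReal_mul] at this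
  exact this

lemma corner_dominated_aux (hρ : IsPosFunctional ρ) {e₀ : H →L[ℂ] H} (he₀ : IsStarProjection e₀)
    (F : Finset H) {C : ℝ} (hC : 0 ≤ C)
    (h : ∀ p' ∈ M, IsStarProjection p' → p' * (1 - e₀) = 0 →
      (ρ p').re ≤ C * ∑ ξ ∈ F, ‖p' ξ‖ ^ 2) (n : ℕ) :
    ∀ (w : H →L[ℂ] H) (c : ℝ), 0 ≤ c → w ∈ M → 0 ≤ w → w ≤ (c : ℂ) • (1 : H →L[ℂ] H) →
      e₀ * w * e₀ = w →
      (ρ w).re ≤ C * ∑ ξ ∈ F, (⟪ξ, w ξ⟫_ℂ).re + c / 2 ^ n * (ρ 1).re := by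
  induction n with
  | zero =>
    intro w c _ _ h0 h1 _
    have h2 := re_apply_le_of_le_smul hρ h1
    have h3 := omega_nonneg F hC h0
    simp only [pow_zero, div_one]
    linarith
  | succ n ih =>
    intro w c hc hw h0 h1 hcor
    rcases hc.eq_or_lt with hc0 | hc0
    · have h2 := re_apply_le_of_le_smul hρ h1
      have h3 := omega_nonneg F hC h0
      rw [← hc0] at h2 ⊢
      simp only [zero_mul, zero_div, add_zero] at h2 ⊢
      linarith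
    · obtain ⟨e, heM, he, hz, h2, h3, h4⟩ := exists_dyadic_corner he₀ hw h0 hcor hc0 h1
      have h5 := ih (w - ((c / 2 : ℝ) : ℂ) • e) (c / 2) (half_pos hc0).le
        (sub_mem hw (M.toStarSubalgebra.smul_mem heM _)) h2 h3 h4
      have h6 := h e heM he hz
      have h7 : (ρ (w - ((c / 2 : ℝ) : ℂ) • e)).re = (ρ w).re - c / 2 * (ρ e).re := by
        rw [map_sub, map_smul, smul_eq_mul, Complex.sub_re, Complex.re_ofReal_mul]
      have h8 : ∑ ξ ∈ F, (⟪ξ, (w - ((c / 2 : ℝ) : ℂ) • e) ξ⟫_ℂ).re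
          = ∑ ξ ∈ F, (⟪ξ, w ξ⟫_ℂ).re - c / 2 * ∑ ξ ∈ F, ‖e ξ‖ ^ 2 := by
        rw [Finset.mul_sum, ← Finset.sum_sub_distrib]
        refine Finset.sum_congr rfl fun ξ _ => ?_
        rw [proj_norm_sq he, sub_apply, smul_apply, inner_sub_right,
          inner_smul_right, Complex.sub_re, Complex.re_ofReal_mul]
      rw [h7, h8] at h5
      have h9 : c / 2 * (ρ e).re ≤ c / 2 * (C * ∑ ξ ∈ F, ‖e ξ‖ ^ 2) :=
        mul_le_mul_of_nonneg_left h6 (half_pos hc0).le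
      have h10 : c / 2 / 2 ^ n = c / 2 ^ (n + 1) := by
        rw [pow_succ]
        field_simp
      rw [h10] at h5
      nlinarith [h5, h9]

theorem corner_dominated (hρ : IsPosFunctional ρ) {e₀ : H →L[ℂ] H} (he₀ : IsStarProjection e₀)
    (F : Finset H) {C : ℝ} (hC : 0 ≤ C)
    (h : ∀ p' ∈ M, IsStarProjection p' → p' * (1 - e₀) = 0 →
      (ρ p').re ≤ C * ∑ ξ ∈ F, ‖p' ξ‖ ^ 2) :
    ∀ w ∈ M, 0 ≤ w → e₀ * w * e₀ = w → (ρ w).re ≤ C * ∑ ξ ∈ F, (⟪ξ, w ξ⟫_ℂ).re := by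
  intro w hw h0 hcor
  have h1 : w ≤ ((‖w‖ : ℝ) : ℂ) • (1 : H →L[ℂ] H) := by
    have := IsSelfAdjoint.le_algebraMap_norm_self h0.isSelfAdjoint
    rw [Algebra.algebraMap_eq_smul_one] at this
    simpa using this
  have h2 : ∀ n : ℕ, (ρ w).re ≤ C * ∑ ξ ∈ F, (⟪ξ, w ξ⟫_ℂ).re + ‖w‖ / 2 ^ n * (ρ 1).re := fun n =>
    corner_dominated_aux hρ he₀ F hC h n w ‖w‖ (norm_nonneg w) hw h0 h1 hcor
  have h3 : Filter.Tendsto
      (fun n : ℕ => C * ∑ ξ ∈ F, (⟪ξ, w ξ⟫_ℂ).re + ‖w‖ / 2 ^ n * (ρ 1).re) Filter.atTop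
      (nhds (C * ∑ ξ ∈ F, (⟪ξ, w ξ⟫_ℂ).re)) := by
    have := tendsto_pow_atTop_nhds_zero_of_lt_one (r := (1 / 2 : ℝ)) (by norm_num) (by norm_num)
    have h' := (this.const_mul (‖w‖ * (ρ 1).re)).const_add (C * ∑ ξ ∈ F, (⟪ξ, w ξ⟫_ℂ).re)
    simp only [mul_zero, add_zero] at h'
    refine h'.congr fun n => ?_
    rw [one_div, inv_pow, div_eq_mul_inv]
    ring
  exact ge_of_tendsto' h3 h2

end Vale.Agent.Lib.P078
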