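import Vale.Agent.Lib.P078.Thin.CornerPave

/-!
# P078 (subtask W2): normal central functionals of the corner extend to `M`
-/

set_option linter.unusedSectionVars false

namespace Vale.Agent.Lib.P078

open scoped InnerProductSpace

variable {H : Type*} [NormedAddCommGroup H] [InnerProductSpace ℂ H] [CompleteSpace H]
variable {M : VonNeumannAlgebra H} {A : StarSubalgebra ℂ (H →L[ℂ] H)}
variable {e : H →L[ℂ] H} (he : IsStarProjection e)

/-- The compression as a continuous linear map. -/
noncomputable def downL : (H →L[ℂ] H) →L[ℂ] (cornerSpace e →L[ℂ] cornerSpace e) :=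
  (ContinuousLinearMap.compL ℂ (cornerSpace e) H (cornerSpace e) (cornerPi he)).comp
    ((ContinuousLinearMap.compL ℂ (cornerSpace e) H H).flip (cornerIncl e))

lemma downL_apply (x : H →L[ℂ] H) : downL he x = down he x := rfl

lemma down_self : down he e = 1 := by
  have h := down_up he (1 : cornerSpace e →L[ℂ] cornerSpace e)
  rwa [up_one] at h

lemma down_one : down he 1 = 1 := by
  ext k
  rw [down_apply]
  simp [cornerPi_cornerIncl]

lemma down_sub (x y : H →L[ℂ] H) : down he (x - y) = down he x - down he y := by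
  rw [← downL_apply, ← downL_apply, ← downL_apply, map_sub]

lemma isStarProjection_down {f : H →L[ℂ] H} (hf : IsStarProjection f) (hfe : f * e = e * f) :
    IsStarProjection (down he f) := by
  refine ⟨?_, isSelfAdjoint_down he hf.isSelfAdjoint⟩
  show down he f * down he f = down he f
  rw [← (down_mul_of_commute he hfe f).1, hf.isIdempotentElem.eq]

lemma re_inner_down (p : H →L[ℂ] H) (hp : IsStarProjection p) (k : cornerSpace e) :
    (⟪k, down he p k⟫_ℂ).re = ‖p (cornerIncl e k)‖ ^ 2 := by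
  rw [down_apply, proj_norm_sq hp]
  have h1 : ⟪k, cornerPi he (p (cornerIncl e k))⟫_ℂ =
      ⟪cornerIncl e k, e (p (cornerIncl e k))⟫_ℂ := rfl
  rw [h1]
  have h2 : e (cornerIncl e k) = cornerIncl e k := mem_cornerSpace.mp k.2
  have h3 : ⟪cornerIncl e k, e (p (cornerIncl e k))⟫_ℂ =
      ⟪e (cornerIncl e k), p (cornerIncl e k)⟫_ℂ := by
    rw [← ContinuousLinearMap.adjoint_inner_left, ← ContinuousLinearMap.star_eq_adjoint,
      he.isSelfAdjoint.star_eq]
  rw [h3, h2]

/-- The operator inequality behind the splitting along a projection. -/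
lemma le_two_corners {K : Type*} [NormedAddCommGroup K] [InnerProductSpace ℂ K] [CompleteSpace K]
    {c q : K →L[ℂ] K} (hc : 0 ≤ c) (hq : IsStarProjection q) :
    c ≤ (2 : ℂ) • (q * c * q) + (2 : ℂ) • ((1 - q) * c * (1 - q)) := by
  have hs : star (q - (1 - q)) = q - (1 - q) := by
    simp [hq.isSelfAdjoint.star_eq]
  have h := star_left_conjugate_nonneg hc (q - (1 - q))
  rw [hs] at h
  rw [← sub_nonneg]
  have e1 : (2 : ℂ) • (q * c * q) + (2 : ℂ) • ((1 - q) * c * (1 - q)) - c =
      (q - (1 - q)) * c * (q - (1 - q)) := by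
    simp only [two_smul]
    noncomm_ring
  rw [e1]
  exact h

/-- A positive functional on a contraction cut by a projection. -/
lemma re_le_of_cut {K : Type*} [NormedAddCommGroup K] [InnerProductSpace ℂ K] [CompleteSpace K]
    {φ : (K →L[ℂ] K) →L[ℂ] ℂ} (hφ : IsPosFunctional φ) {c q : K →L[ℂ] K} (hc : 0 ≤ c)
    (hc1 : c ≤ 1) (hq : IsStarProjection q) {η : ℝ} (hη : ‖q * c * q‖ ≤ η) :
    (φ c).re ≤ 2 * (η * (φ 1).re) + 2 * (φ (1 - q)).re := by
  have hqs : star q = q := hq.isSelfAdjoint.star_eq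
  have hr : IsStarProjection (1 - q) := hq.one_sub
  have hrs : star (1 - q) = 1 - q := hr.isSelfAdjoint.star_eq
  have h1 := hφ.mono (le_two_corners hc hq)
  have hsa : IsSelfAdjoint (q * c * q) := by
    have := (star_left_conjugate_nonneg hc q).isSelfAdjoint
    rwa [hqs] at this
  have h2 : q * c * q ≤ (η : ℂ) • (1 : K →L[ℂ] K) := by
    have h3 := hsa.le_algebraMap_norm_self
    have h4 : algebraMap ℝ (K →L[ℂ] K) ‖q * c * q‖ ≤ algebraMap ℝ (K →L[ℂ] K) η :=
      algebraMap_mono _ hη
    have h5 : algebraMap ℝ (K →L[ℂ] K) η = (η : ℂ) • (1 : K →L[ℂ] K) := by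
      rw [Algebra.algebraMap_eq_smul_one]
      ext k
      simp
    rw [← h5]
    exact h3.trans h4
  have h6 : (1 - q) * c * (1 - q) ≤ 1 - q := by
    have h7 := star_left_conjugate_le_conjugate hc1 (1 - q)
    rw [hrs, mul_one, hr.isIdempotentElem.eq] at h7
    exact h7
  have h8 := hφ.mono h2
  have h9 := hφ.mono h6
  simp only [map_add, map_smul, smul_eq_mul, Complex.add_re, Complex.mul_re, Complex.ofReal_re,
    Complex.ofReal_im, zero_mul, sub_zero, Complex.re_ofNat, Complex.im_ofNat] at h1 h8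
  linarith

/-- The extension of a functional on the corner to `B(H)`. -/
noncomputable def extFun (ρK : (cornerSpace e →L[ℂ] cornerSpace e) →L[ℂ] ℂ) :
    (H →L[ℂ] H) →L[ℂ] ℂ := ρK.comp (downL he)

lemma extFun_apply (ρK : (cornerSpace e →L[ℂ] cornerSpace e) →L[ℂ] ℂ) (x : H →L[ℂ] H) :
    extFun he ρK x = ρK (down he x) := rfl

lemma isCentral_extFun (hM : IsMASA M A) (heA : e ∈ A)
    {ρK : (cornerSpace e →L[ℂ] cornerSpace e) →L[ℂ] ℂ}
    (hc : IsCentralFunctional (cornerVN he M (hM.1 e heA)) (cornerSub he A heA) ρK) :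
    IsCentralFunctional M A (extFun he ρK) := by
  have hpos : IsPosFunctional ρK := hc.pos
  refine ⟨fun x => ?_, fun f hf hfp x hx => ?_⟩
  · rw [extFun_apply]
    exact hpos.of_nonneg (down_nonneg he (star_mul_self_nonneg x))
  · have hfe : f * e = e * f := hM.2.1 f hf e heA
    rw [extFun_apply, extFun_apply, (down_mul_of_commute he hfe x).1,
      (down_mul_of_commute he hfe x).2]
    refine hc.central (down he f) ?_ (isStarProjection_down he hfp hfe) (down he x) ?_
    · rw [mem_cornerSub, up_down]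
      exact mul_mem (mul_mem heA hf) heA
    · rw [mem_cornerVN, up_down]
      exact mul_mem (mul_mem (hM.1 e heA) hx) (hM.1 e heA)

lemma isNormal_extFun (heM : e ∈ M) {ρK : (cornerSpace e →L[ℂ] cornerSpace e) →L[ℂ] ℂ}
    (hpos : IsPosFunctional ρK) (hn : IsNormalOn (cornerVN he M heM) ρK) :
    IsNormalOn M (extFun he ρK) := by
  classical
  intro τ hτ
  set R := (ρK 1).re with hR
  have hR0 : 0 ≤ R := (hpos.of_nonneg zero_le_one).1
  set η := τ / (4 * (R + 1)) with hη
  have hη0 : 0 < η := by positivity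
  obtain ⟨FK, δK, hδK, hK⟩ := hn (τ / 4) (by positivity)
  refine ⟨FK.image (cornerIncl e), Real.sqrt η * δK, by positivity, ?_⟩
  intro p hpM hp hsmall
  rw [extFun_apply]
  have hc0 : 0 ≤ down he p := down_nonneg he hp.nonneg
  have hc1 : down he p ≤ 1 := by
    have h := down_nonneg he (sub_nonneg.mpr hp.le_one)
    rw [down_sub, down_one] at h
    exact sub_nonneg.mp h
  have hcM : down he p ∈ cornerVN he M heM := by
    rw [mem_cornerVN, up_down]
    exact mul_mem (mul_mem heM hpM) heM
  obtain ⟨q', hq'M, hq', -, hnorm, hcut⟩ := exists_cut_nonneg (M := cornerVN he M heM)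
    (q := 1) (one_mem _) (IsStarProjection.one _) hcM hc0 (one_mul _) hη0
  have hsm : (ρK (1 - q')).re ≤ τ / 4 := by
    refine hK (1 - q') (sub_mem (one_mem _) hq'M) hq'.one_sub ?_
    intro k hk
    have h1 := hcut k
    rw [re_inner_down he p hp] at h1
    have h2 : ‖p (cornerIncl e k)‖ < Real.sqrt η * δK :=
      hsmall _ (Finset.mem_image_of_mem _ hk)
    have h3 : ‖p (cornerIncl e k)‖ ^ 2 < η * δK ^ 2 := by
      have h := pow_lt_pow_left₀ h2 (norm_nonneg _) two_ne_zero
      rwa [mul_pow, Real.sq_sqrt hη0.le] at h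
    have h4 : ‖(1 - q') k‖ ^ 2 < δK ^ 2 := by
      by_contra hcon
      have hcon' : δK ^ 2 ≤ ‖(1 - q') k‖ ^ 2 := not_lt.mp hcon
      nlinarith
    exact lt_of_pow_lt_pow_left₀ 2 hδK.le h4
  have hfin := re_le_of_cut hpos hc0 hc1 hq' hnorm
  have h5 : η * R ≤ τ / 4 := by
    rw [hη, div_mul_eq_mul_div, div_le_div_iff₀ (by positivity) (by norm_num)]
    nlinarith
  linarith

theorem noNormalCentral_corner' (hM : IsMASA M A) {e : H →L[ℂ] H} (he : IsStarProjection e)
    (heA : e ∈ A)
    (hnull : ∀ ρ : (H →L[ℂ] H) →L[ℂ] ℂ, IsCentralFunctional M A ρ → IsNormalOn M ρ → ρ e = 0) :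
    NoNormalCentral (cornerVN he M (hM.1 e heA)) (cornerSub he A heA) := by
  intro ρK hc hn
  have h := hnull (extFun he ρK) (isCentral_extFun he hM heA hc)
    (isNormal_extFun he (hM.1 e heA) hc.pos hn)
  rwa [extFun_apply, down_self] at h

end Vale.Agent.Lib.P078
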