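import Vale.Agent.Lib.P078.Thin.StateDefs

/-!
# P078 (subtask V1): toolkit for positive functionals on `B(H)`

`ρ : B(H) →L[ℂ] ℂ` with `IsPosFunctional ρ` (`ρ (star x * x)` is a nonnegative real for every `x`).
`sqN ρ x = re ρ (star x * x)` and `nrm ρ x = sqrt (sqN ρ x)` (the GNS seminorm).

Blueprint.  Everything is the standard theory of the positive semidefinite sesquilinear form `(x, y) ↦ ρ (star x * y)`.
One may either argue by hand or use Mathlib: `PreInnerProductSpace.Core` (see `Mathlib/Analysis/CStarAlgebra/GelfandNaimarkSegal.lean`,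
`PositiveLinearMap.preGNSpreInnerProdSpace`, for exactly this form), which gives Cauchy-Schwarz and the triangle inequality.
* `map_star`: `ρ ((x + 1)^* (x + 1))` and `ρ ((x + i)^* (x + i))` are real, as are `ρ (x^* x)` and `ρ 1 = ρ (1^* 1)`; so `ρ (x^*) + ρ x` and `i (ρ (x^*) - ρ x)` are real.
* `of_nonneg`: `0 ≤ w` gives `w = star s * s` (`CStarAlgebra.nonneg_iff_eq_star_mul_self`).
* `sqN_mul_le`: `star j * (star x * x) * j ≤ ‖x‖^2 • (star j * j)` (`CStarAlgebra.star_left_conjugate_le_norm_smul` or `conjugate_le_conjugate`), then `mono`.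
-/

set_option linter.unusedSectionVars false

namespace Vale.Agent.Lib.P078

open scoped InnerProductSpace ComplexConjugate

variable {H : Type*} [NormedAddCommGroup H] [InnerProductSpace ℂ H] [CompleteSpace H]
variable {ρ : (H →L[ℂ] H) →L[ℂ] ℂ}

/-- `ρ` is a positive functional on `B(H)`. -/
def IsPosFunctional (ρ : (H →L[ℂ] H) →L[ℂ] ℂ) : Prop :=
  ∀ x : H →L[ℂ] H, 0 ≤ (ρ (star x * x)).re ∧ (ρ (star x * x)).im = 0

/-- The square of the GNS seminorm. -/
noncomputable def sqN (ρ : (H →L[ℂ] H) →L[ℂ] ℂ) (x : H →L[ℂ] H) : ℝ := (ρ (star x * x)).re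

/-- The GNS seminorm. -/
noncomputable def nrm (ρ : (H →L[ℂ] H) →L[ℂ] ℂ) (x : H →L[ℂ] H) : ℝ := Real.sqrt (sqN ρ x)

lemma IsPosFunctional.sqN_nonneg (h : IsPosFunctional ρ) (x : H →L[ℂ] H) : 0 ≤ sqN ρ x := (h x).1

lemma nrm_nonneg (x : H →L[ℂ] H) : 0 ≤ nrm ρ x := Real.sqrt_nonneg _

lemma IsPosFunctional.nrm_sq (h : IsPosFunctional ρ) (x : H →L[ℂ] H) : nrm ρ x ^ 2 = sqN ρ x :=
  Real.sq_sqrt (h.sqN_nonneg x)

lemma IsPosFunctional.apply_star_mul_self (h : IsPosFunctional ρ) (x : H →L[ℂ] H) :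
    ρ (star x * x) = ((sqN ρ x : ℝ) : ℂ) := by
  apply Complex.ext
  · simp [sqN]
  · simp [(h x).2]

lemma IsPosFunctional.im_one (h : IsPosFunctional ρ) : (ρ 1).im = 0 := by
  have := (h 1).2
  simpa using this

lemma star_add_smul_one_mul_self (x : H →L[ℂ] H) (c : ℂ) :
    star (x + c • (1 : H →L[ℂ] H)) * (x + c • (1 : H →L[ℂ] H))
      = star x * x + c • star x + conj c • x + (conj c * c) • (1 : H →L[ℂ] H) := by
  have hc : (star c : ℂ) = conj c := rfl
  rw [star_add, star_smul, star_one, hc]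
  simp only [add_mul, mul_add, smul_mul_assoc, mul_smul_comm, one_mul, mul_one, smul_add,
    smul_smul]
  rw [mul_comm c (conj c)]
  abel

lemma IsPosFunctional.map_star (h : IsPosFunctional ρ) (x : H →L[ℂ] H) :
    ρ (star x) = conj (ρ x) := by
  have h0 := (h x).2
  have h1 := (h (x + (1 : ℂ) • (1 : H →L[ℂ] H))).2
  have h2 := (h (x + Complex.I • (1 : H →L[ℂ] H))).2
  have h3 := h.im_one
  rw [star_add_smul_one_mul_self] at h1 h2
  simp only [map_add, map_smul, Complex.add_im, smul_eq_mul, map_one, one_mul, Complex.conj_I,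
    neg_mul, Complex.I_mul_I, neg_neg, Complex.neg_im,
    Complex.mul_im, Complex.I_re, Complex.I_im, zero_mul, zero_add] at h1 h2
  apply Complex.ext
  · simp only [Complex.conj_re]
    linarith
  · simp only [Complex.conj_im]
    linarith

lemma IsPosFunctional.of_nonneg (h : IsPosFunctional ρ) {w : H →L[ℂ] H} (hw : 0 ≤ w) :
    0 ≤ (ρ w).re ∧ (ρ w).im = 0 := by
  obtain ⟨s, rfl⟩ := CStarAlgebra.nonneg_iff_eq_star_mul_self.1 hw
  exact h s

lemma IsPosFunctional.mono (h : IsPosFunctional ρ) {a b : H →L[ℂ] H} (hab : a ≤ b) :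
    (ρ a).re ≤ (ρ b).re := by
  have h1 := (h.of_nonneg (sub_nonneg.2 hab)).1
  rw [map_sub, Complex.sub_re] at h1
  linarith

/-- Expansion of the square (auxiliary copy placed before Cauchy-Schwarz). -/
lemma IsPosFunctional.sqN_sub_smul_aux (h : IsPosFunctional ρ) (v k : H →L[ℂ] H) (t : ℂ) :
    sqN ρ (v - t • k) = sqN ρ v - 2 * (conj t * ρ (star k * v)).re + ‖t‖ ^ 2 * sqN ρ k := by
  have e1 : star (v - t • k) * (v - t • k)
      = star v * v - t • (star v * k) - conj t • (star k * v) + (conj t * t) • (star k * k) := by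
    have ht : (star t : ℂ) = conj t := rfl
    rw [star_sub, star_smul, ht]
    simp only [sub_mul, mul_sub, smul_mul_assoc, mul_smul_comm, smul_sub, smul_smul]
    rw [mul_comm t (conj t)]
    abel
  have e2 : ρ (star v * k) = conj (ρ (star k * v)) := by
    rw [← h.map_star]
    simp
  have e3 : conj t * t = ((‖t‖ ^ 2 : ℝ) : ℂ) := by
    rw [Complex.conj_mul']
    push_cast
    rfl
  unfold sqN
  rw [e1]
  simp only [map_add, map_sub, map_smul, smul_eq_mul, e2, e3]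
  rw [h.apply_star_mul_self k, h.apply_star_mul_self v]
  have e4 : (t * conj (ρ (star k * v))).re = (conj t * ρ (star k * v)).re := by
    simp only [Complex.mul_re, Complex.conj_re, Complex.conj_im]
    ring
  simp only [Complex.add_re, Complex.sub_re, e4, Complex.ofReal_re, Complex.mul_re,
    Complex.ofReal_im, zero_mul, sub_zero]
  simp only [sqN, Complex.conj_re, Complex.conj_im]
  ring

/-- The abstract discriminant inequality. -/
lemma norm_sq_le_of_forall_quadratic {a c : ℝ} {b : ℂ} (hc : 0 ≤ c)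
    (hq : ∀ t : ℂ, 0 ≤ a - 2 * (conj t * b).re + ‖t‖ ^ 2 * c) : ‖b‖ ^ 2 ≤ a * c := by
  have key : ∀ s : ℝ, 0 ≤ a - 2 * s * ‖b‖ ^ 2 + s ^ 2 * ‖b‖ ^ 2 * c := by
    intro s
    have h1 := hq ((s : ℂ) * b)
    have h2 : (conj ((s : ℂ) * b) * b).re = s * ‖b‖ ^ 2 := by
      rw [map_mul, Complex.conj_ofReal, mul_assoc, Complex.conj_mul']
      have : ((s : ℂ) * (‖b‖ : ℂ) ^ 2) = ((s * ‖b‖ ^ 2 : ℝ) : ℂ) := by push_cast; ring
      rw [this, Complex.ofReal_re]
    have h3 : ‖(s : ℂ) * b‖ ^ 2 = s ^ 2 * ‖b‖ ^ 2 := by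
      rw [norm_mul, mul_pow, Complex.norm_real, Real.norm_eq_abs, sq_abs]
    rw [h2, h3] at h1
    linarith
  rcases hc.eq_or_lt with hc0 | hc0
  · subst hc0
    by_contra hcon
    push Not at hcon
    have hb : 0 < ‖b‖ ^ 2 := by simpa using hcon
    have h1 := key ((a + 1) / ‖b‖ ^ 2)
    have h2 : (a + 1) / ‖b‖ ^ 2 * ‖b‖ ^ 2 = a + 1 := div_mul_cancel₀ _ hb.ne'
    have h0 := key 0
    nlinarith
  · have h1 := key (1 / c)
    have h2 : (1 / c) ^ 2 * ‖b‖ ^ 2 * c = (1 / c) * ‖b‖ ^ 2 := by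
      field_simp
    rw [h2] at h1
    have h3 : (1 / c) * ‖b‖ ^ 2 ≤ a := by linarith
    have h4 : ‖b‖ ^ 2 = c * ((1 / c) * ‖b‖ ^ 2) := by field_simp
    rw [h4, mul_comm a c]
    exact mul_le_mul_of_nonneg_left h3 hc

/-- Cauchy-Schwarz. -/
lemma IsPosFunctional.norm_apply_star_mul_le (h : IsPosFunctional ρ) (x y : H →L[ℂ] H) :
    ‖ρ (star x * y)‖ ≤ nrm ρ x * nrm ρ y := by
  have h1 : ‖ρ (star x * y)‖ ^ 2 ≤ sqN ρ y * sqN ρ x := by
    apply norm_sq_le_of_forall_quadratic (h.sqN_nonneg x)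
    intro t
    rw [← h.sqN_sub_smul_aux]
    exact h.sqN_nonneg _
  rw [← h.nrm_sq, ← h.nrm_sq, ← mul_pow] at h1
  have h2 := abs_le_of_sq_le_sq' h1 (mul_nonneg (nrm_nonneg y) (nrm_nonneg x))
  rw [mul_comm]
  exact h2.2

lemma IsPosFunctional.nrm_add_le (h : IsPosFunctional ρ) (x y : H →L[ℂ] H) :
    nrm ρ (x + y) ≤ nrm ρ x + nrm ρ y := by
  have h1 := h.sqN_sub_smul_aux x y (-1)
  have h2 : x - (-1 : ℂ) • y = x + y := by simp
  rw [h2] at h1
  have h3 : (conj (-1 : ℂ) * ρ (star y * x)).re = - (ρ (star y * x)).re := by simp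
  rw [h3] at h1
  have h4 : (ρ (star y * x)).re ≤ nrm ρ y * nrm ρ x :=
    (Complex.re_le_norm _).trans (h.norm_apply_star_mul_le y x)
  have h5 : sqN ρ (x + y) ≤ (nrm ρ x + nrm ρ y) ^ 2 := by
    rw [h1, ← h.nrm_sq x, ← h.nrm_sq y]
    simp only [norm_neg, norm_one, one_pow, one_mul]
    nlinarith
  unfold nrm at *
  exact Real.sqrt_le_iff.2 ⟨add_nonneg (Real.sqrt_nonneg _) (Real.sqrt_nonneg _), h5⟩

lemma IsPosFunctional.nrm_smul (h : IsPosFunctional ρ) (c : ℂ) (x : H →L[ℂ] H) :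
    nrm ρ (c • x) = ‖c‖ * nrm ρ x := by
  have _ := h
  have h1 : sqN ρ (c • x) = ‖c‖ ^ 2 * sqN ρ x := by
    have e1 : star (c • x) * (c • x) = (conj c * c) • (star x * x) := by
      have hc : (star c : ℂ) = conj c := rfl
      rw [star_smul, hc]
      simp only [smul_mul_assoc, mul_smul_comm, smul_smul]
      rw [mul_comm c (conj c)]
    have e3 : conj c * c = ((‖c‖ ^ 2 : ℝ) : ℂ) := by
      rw [Complex.conj_mul']
      push_cast
      rfl
    unfold sqN
    rw [e1, e3, map_smul, smul_eq_mul, Complex.re_ofReal_mul]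
  unfold nrm
  rw [h1, Real.sqrt_mul (sq_nonneg _), Real.sqrt_sq (norm_nonneg _)]

lemma IsPosFunctional.nrm_neg (h : IsPosFunctional ρ) (x : H →L[ℂ] H) :
    nrm ρ (-x) = nrm ρ x := by
  have _ := h
  unfold nrm sqN
  simp

lemma IsPosFunctional.nrm_sub_le (h : IsPosFunctional ρ) (x y : H →L[ℂ] H) :
    nrm ρ (x - y) ≤ nrm ρ x + nrm ρ y := by
  rw [sub_eq_add_neg, ← h.nrm_neg y]
  exact h.nrm_add_le x (-y)

lemma IsPosFunctional.nrm_mul_le (h : IsPosFunctional ρ) (x j : H →L[ℂ] H) :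
    nrm ρ (x * j) ≤ ‖x‖ * nrm ρ j := by
  have h1 : star j * (star x * x) * j ≤ ‖star x * x‖ • (star j * j) :=
    CStarAlgebra.star_left_conjugate_le_norm_smul (IsSelfAdjoint.star_mul_self x)
  have h2 := h.mono h1
  have h3 : star (x * j) * (x * j) = star j * (star x * x) * j := by
    rw [star_mul]
    noncomm_ring
  have h4 : ‖star x * x‖ = ‖x‖ ^ 2 := by
    rw [CStarRing.norm_star_mul_self, sq]
  have h5 : sqN ρ (x * j) ≤ ‖x‖ ^ 2 * sqN ρ j := by
    unfold sqN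
    rw [h3]
    refine h2.trans (le_of_eq ?_)
    rw [h4]
    have : (‖x‖ ^ 2 : ℝ) • (star j * j) = ((‖x‖ ^ 2 : ℝ) : ℂ) • (star j * j) := by
      rw [Complex.coe_smul]
    rw [this, map_smul, smul_eq_mul, Complex.re_ofReal_mul]
  unfold nrm
  rw [← Real.sqrt_sq (norm_nonneg x), ← Real.sqrt_mul (sq_nonneg _)]
  exact Real.sqrt_le_sqrt h5

lemma IsPosFunctional.norm_apply_conj_le (h : IsPosFunctional ρ) (k x j : H →L[ℂ] H) :
    ‖ρ (star k * x * j)‖ ≤ nrm ρ k * ‖x‖ * nrm ρ j := by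
  rw [mul_assoc, mul_assoc]
  exact (h.norm_apply_star_mul_le k (x * j)).trans
    (mul_le_mul_of_nonneg_left (h.nrm_mul_le x j) (nrm_nonneg k))

/-- Expansion of the square. -/
lemma IsPosFunctional.sqN_sub_smul (h : IsPosFunctional ρ) (v k : H →L[ℂ] H) (t : ℂ) :
    sqN ρ (v - t • k) = sqN ρ v - 2 * (conj t * ρ (star k * v)).re + ‖t‖ ^ 2 * sqN ρ k :=
  h.sqN_sub_smul_aux v k t

/-- The functional `x ↦ ρ (star j * x * j)`. -/
noncomputable def conjFun (ρ : (H →L[ℂ] H) →L[ℂ] ℂ) (j : H →L[ℂ] H) : (H →L[ℂ] H) →L[ℂ] ℂ :=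
  ρ.comp ((ContinuousLinearMap.mul ℂ (H →L[ℂ] H) (star j)).comp
    ((ContinuousLinearMap.mul ℂ (H →L[ℂ] H)).flip j))

lemma conjFun_apply (j x : H →L[ℂ] H) : conjFun ρ j x = ρ (star j * x * j) := by
  simp [conjFun, mul_assoc]

lemma IsPosFunctional.isPos_conjFun (h : IsPosFunctional ρ) (j : H →L[ℂ] H) :
    IsPosFunctional (conjFun ρ j) := by
  intro x
  have h3 : star j * (star x * x) * j = star (x * j) * (x * j) := by
    rw [star_mul]
    noncomm_ring
  rw [conjFun_apply, h3]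
  exact h (x * j)

lemma IsPosFunctional.norm_conjFun_sub_le (h : IsPosFunctional ρ) (j k : H →L[ℂ] H) :
    ‖conjFun ρ j - conjFun ρ k‖ ≤ (nrm ρ j + nrm ρ k) * nrm ρ (j - k) := by
  apply ContinuousLinearMap.opNorm_le_bound _
    (mul_nonneg (add_nonneg (nrm_nonneg j) (nrm_nonneg k)) (nrm_nonneg _))
  intro x
  have e1 : (conjFun ρ j - conjFun ρ k) x
      = ρ (star j * x * (j - k)) + ρ (star (j - k) * x * k) := by
    rw [sub_apply, conjFun_apply, conjFun_apply, ← map_sub, ← map_add]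
    congr 1
    rw [star_sub]
    noncomm_ring
  rw [e1]
  have h1 := h.norm_apply_conj_le j x (j - k)
  have h2 := h.norm_apply_conj_le (j - k) x k
  calc ‖ρ (star j * x * (j - k)) + ρ (star (j - k) * x * k)‖
      ≤ ‖ρ (star j * x * (j - k))‖ + ‖ρ (star (j - k) * x * k)‖ := norm_add_le _ _
    _ ≤ nrm ρ j * ‖x‖ * nrm ρ (j - k) + nrm ρ (j - k) * ‖x‖ * nrm ρ k := add_le_add h1 h2
    _ = (nrm ρ j + nrm ρ k) * nrm ρ (j - k) * ‖x‖ := by ring

/-- Positivity passes to limits. -/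
lemma IsPosFunctional.of_tendsto {φ : ℕ → (H →L[ℂ] H) →L[ℂ] ℂ} {ψ : (H →L[ℂ] H) →L[ℂ] ℂ}
    (h : ∀ n, IsPosFunctional (φ n)) (hlim : Filter.Tendsto φ Filter.atTop (nhds ψ)) :
    IsPosFunctional ψ := by
  intro x
  have h1 : Filter.Tendsto (fun n => φ n (star x * x)) Filter.atTop (nhds (ψ (star x * x))) :=
    ((ContinuousLinearMap.apply ℂ ℂ (star x * x)).continuous.tendsto ψ).comp hlim
  have h2 : Filter.Tendsto (fun n => (φ n (star x * x)).re) Filter.atTop
      (nhds (ψ (star x * x)).re) := (Complex.continuous_re.tendsto _).comp h1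
  have h3 : Filter.Tendsto (fun n => (φ n (star x * x)).im) Filter.atTop
      (nhds (ψ (star x * x)).im) := (Complex.continuous_im.tendsto _).comp h1
  constructor
  · exact ge_of_tendsto' h2 fun n => (h n x).1
  · have h4 : (fun n => (φ n (star x * x)).im) = fun _ => (0 : ℝ) := funext fun n => (h n x).2
    rw [h4] at h3
    exact tendsto_nhds_unique h3 tendsto_const_nhds

end Vale.Agent.Lib.P078
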