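import Vale.Agent.Lib.P078.Thin.Defs

/-!
# P078: `A`-central positive functionals, singular and normal functionals (definitions)

Functionals on `M` are represented by bounded positive functionals on `B(H)` (every positive functional on `M` extends to one).
-/

set_option linter.unusedSectionVars false

namespace Vale.Agent.Lib.P078

variable {H : Type*} [NormedAddCommGroup H] [InnerProductSpace ℂ H] [CompleteSpace H]

/-- `ρ` is a positive bounded linear functional on `B(H)` that commutes with the projections of `A` on `M`. -/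
structure IsCentralFunctional (M : VonNeumannAlgebra H) (A : StarSubalgebra ℂ (H →L[ℂ] H))
    (ρ : (H →L[ℂ] H) →L[ℂ] ℂ) : Prop where
  pos : ∀ x : H →L[ℂ] H, 0 ≤ (ρ (star x * x)).re ∧ (ρ (star x * x)).im = 0
  central : ∀ e ∈ A, IsStarProjection e → ∀ x ∈ M, ρ (e * x) = ρ (x * e)

/-- `ρ` is singular on `M`: it is arbitrarily small on projections of `M` arbitrarily close to `1` in the strong topology. -/
def IsSingularOn (M : VonNeumannAlgebra H) (ρ : (H →L[ℂ] H) →L[ℂ] ℂ) : Prop :=
  ∀ (F : Finset H) (δ τ : ℝ), 0 < δ → 0 < τ →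
    ∃ q ∈ M, IsStarProjection q ∧ (∀ ξ ∈ F, ‖(1 - q) ξ‖ < δ) ∧ (ρ q).re ≤ τ

/-- `ρ` is normal on `M`: it is small on the projections of `M` that are small in the strong topology. -/
def IsNormalOn (M : VonNeumannAlgebra H) (ρ : (H →L[ℂ] H) →L[ℂ] ℂ) : Prop :=
  ∀ τ : ℝ, 0 < τ → ∃ (F : Finset H) (δ : ℝ), 0 < δ ∧
    ∀ p ∈ M, IsStarProjection p → (∀ ξ ∈ F, ‖p ξ‖ < δ) → (ρ p).re ≤ τ

/-- Every `A`-central positive functional is singular on `M`. -/
def AllCentralSingular (M : VonNeumannAlgebra H) (A : StarSubalgebra ℂ (H →L[ℂ] H)) : Prop :=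
  ∀ ρ : (H →L[ℂ] H) →L[ℂ] ℂ, IsCentralFunctional M A ρ → IsSingularOn M ρ

/-- There is no nonzero `A`-central positive functional that is normal on `M`. -/
def NoNormalCentral (M : VonNeumannAlgebra H) (A : StarSubalgebra ℂ (H →L[ℂ] H)) : Prop :=
  ∀ ρ : (H →L[ℂ] H) →L[ℂ] ℂ, IsCentralFunctional M A ρ → IsNormalOn M ρ → ρ 1 = 0

end Vale.Agent.Lib.P078
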