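import Vale.Agent.Lib.P078.Thin.CornerAlg
import Vale.Agent.Lib.P078.Thin.StateDefs
import Vale.Agent.Lib.P078.Thin.PosFunctional
import Vale.Agent.Lib.P078.Thin.Spectral2

/-!
# P078 (subtasks W2, W3): transfer between `(M, A)` on `H` and the corner `(e M e, A e)` on `e H`

`CornerPavable M A z x κ r`: so-pavability of `x` inside the corner `z M z` over `A z`, with error bound `κ`.

Blueprint.
* W2 `noNormalCentral_corner`.  Let `ρK` be central and normal for the corner.  `ρ = ρK ∘ downL` where `downL he : B(H) →L[ℂ] B(e H)` is `down he` as a continuous linear map (`LinearMap.mkContinuous` with bound `1`, `norm_down_le`).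
  - positivity: `down (star x * x) ≥ 0` (`down_nonneg`), then `IsPosFunctional.of_nonneg` for `ρK`.
  - centrality: a projection `f ∈ A` commutes with `e ∈ A`; `down (f * x) = down f * down x`, `down (x * f) = down x * down f` (`down_mul_of_commute`); `down f` is a projection of the corner of `A` (`up (down f) = e f e = f e ∈ A`), `up (down x) = e x e ∈ M`.
  - normality: given `τ`, let `η = τ / (4 (re ρK 1 + 1))`, take `FK`, `δK` from the normality of `ρK` for `τ / 4`.  Let `F = FK.image (cornerIncl e)` and `δ` with `δ^2 < η δK^2`.  For a projection `p ∈ M` with `‖p ξ‖ < δ` on `F` put `c = down p` (`0 ≤ c`, in the corner of `M`, `re ⟪k, c k⟫ = ‖p (ι k)‖^2`).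
    `exists_cut_nonneg` (in the corner algebra, `q = 1`, `γ = η`) gives a projection `q'` with `‖q' c q'‖ ≤ η` and `η ‖(1 - q') k‖^2 ≤ re ⟪k, c k⟫ < η δK^2`.  From `c ≤ 2 q' c q' + 2 (1 - q') c (1 - q') ≤ 2 η + 2 (1 - q')` (`c ≤ 1`) one gets `re ρK c ≤ 2 η re ρK 1 + 2 τ / 4 ≤ τ`.
    (`c ≤ 2 q' c q' + 2 (1-q') c (1-q')` because the difference is `(q' - (1 - q')) c (q' - (1 - q')) ≥ 0`.)
  - so `ρ e = 0` by hypothesis, and `ρ e = ρK (down e) = ρK 1`.
* W3 `cornerPavable_of_corner`.  Unfold; apply the hypothesis to `F.image (cornerPi he)` and `δ`; push everything up with `up he`: `p i = up (pK i)`, `a = up aK`, `q = up qK`; `x = up (down x)`, `‖down x‖ = ‖x‖` by `norm_up`;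
  `up (qK * (pinching pK (down x) - aK) * qK) = q * (pinching p x - a) * q` (`up_mul`, `up_sub`, `up_sum`), `(e - q) ξ = ι ((1 - qK) (π ξ))`.
-/

set_option linter.unusedSectionVars false

namespace Vale.Agent.Lib.P078

open scoped InnerProductSpace

variable {H : Type*} [NormedAddCommGroup H] [InnerProductSpace ℂ H] [CompleteSpace H]
variable {M : VonNeumannAlgebra H} {A : StarSubalgebra ℂ (H →L[ℂ] H)}

/-- So-pavability inside the corner `z M z`, with error bound `κ`. -/
def CornerPavable (M : VonNeumannAlgebra H) (A : StarSubalgebra ℂ (H →L[ℂ] H))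
    (z x : H →L[ℂ] H) (κ : ℝ) (r : ℕ) : Prop :=
  ∀ (F : Finset H) (δ : ℝ), 0 < δ →
    ∃ (p : Fin r → H →L[ℂ] H) (a q : H →L[ℂ] H),
      (∀ i, p i ∈ A) ∧ (∀ i, IsStarProjection (p i)) ∧ (∀ i j, i ≠ j → p i * p j = 0) ∧
      ∑ i, p i = z ∧ a ∈ A ∧ IsSelfAdjoint a ∧ z * a = a ∧ ‖a‖ ≤ ‖x‖ ∧
      q ∈ M ∧ IsStarProjection q ∧ z * q = q ∧ (∀ ξ ∈ F, ‖(z - q) ξ‖ < δ) ∧
      ‖q * (pinching p x - a) * q‖ ≤ κ

theorem cornerPavable_of_corner (hM : IsMASA M A) {e : H →L[ℂ] H} (he : IsStarProjection e)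
    (heA : e ∈ A) {x : H →L[ℂ] H} (hx : e * x * e = x) {ε : ℝ} {r : ℕ}
    (h : SoPavable (cornerVN he M (hM.1 e heA)) (cornerSub he A heA) (down he x) ε r) :
    CornerPavable M A e x (ε * ‖x‖) r := by
  classical
  intro F δ hδ
  obtain ⟨pK, aK, qK, hpart, haK, haKsa, haKn, hqK, hqKp, hqKF, hnorm⟩ :=
    h (F.image (cornerPi he)) δ hδ
  have hxup : up he (down he x) = x := by rw [up_down, hx]
  have hxnorm : ‖down he x‖ = ‖x‖ := by rw [← norm_up he (down he x), hxup]
  refine ⟨fun i => up he (pK i), up he aK, up he qK, fun i => mem_cornerSub he |>.mp (hpart.mem i),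
    fun i => isStarProjection_up he (hpart.proj i), ?_, ?_, mem_cornerSub he |>.mp haK,
    isSelfAdjoint_up he haKsa, mul_up he aK, ?_, mem_cornerVN he |>.mp hqK,
    isStarProjection_up he hqKp, mul_up he qK, ?_, ?_⟩
  · intro i j hij
    rw [← up_mul, hpart.orth i j hij, up_zero]
  · rw [← up_sum, hpart.sum_eq, up_one]
  · rw [norm_up, ← hxnorm]
    exact haKn
  · intro ξ hξ
    have h1 := hqKF (cornerPi he ξ) (Finset.mem_image_of_mem _ hξ)
    have h2 : (e - up he qK) ξ = cornerIncl e ((1 - qK) (cornerPi he ξ)) := by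
      rw [ContinuousLinearMap.sub_apply, ContinuousLinearMap.sub_apply, up_apply, map_sub,
        ContinuousLinearMap.one_apply, cornerIncl_cornerPi]
    rw [h2, norm_cornerIncl_apply]
    exact h1
  · have h3 : pinching (fun i => up he (pK i)) x = up he (pinching pK (down he x)) := by
      unfold pinching
      rw [up_sum]
      refine Finset.sum_congr rfl fun i _ => ?_
      rw [up_mul, up_mul, hxup]
    rw [h3, ← up_sub, ← up_mul, ← up_mul, norm_up, ← hxnorm]
    exact hnorm

end Vale.Agent.Lib.P078
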