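import Vale.Agent.Lib.P078.Thin.CornerPave

/-!
# P078 (subtask W5): pavings of the two corners `z M z` and `(1 - z) M (1 - z)` combine to a paving of `x`

Blueprint.  Let `e = 1 - z`, `x₁ = z x z`, `x₂ = e x e`.  Given `F`, `δ`, apply the two hypotheses with `F` and `δ / 2`: `(p', a₁, q₁)` and `(p'', a₂, q₂)`.
* Partition: `p = Fin.addCases p' p''` on `Fin (r₁ + r₂)` (or `Sum.elim p' p''` and `IsPartition.reindex` with `finSumFinEquiv`; `pinching_reindex` in `Block.lean`).  `p' i * p'' j = p' i * z * e * p'' j = 0` (`p' i = p' i * z` since `∑ p' = z` and orthogonality).  Sum `= z + e = 1`.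
* `pinching p x = pinching p' x + pinching p'' x = pinching p' x₁ + pinching p'' x₂`.
* `a = a₁ + a₂`; `‖a‖ ≤ max ‖a₁‖ ‖a₂‖ ≤ ‖x‖` since `a₁ = z a₁ z`, `a₂ = e a₂ e` (block diagonal; use `norm_pinching_le_of_forall` of `Block.lean` for the two-piece partition `IsPartition.bool`, or a direct estimate
  `‖(a₁ + a₂) ξ‖^2 = ‖a₁ z ξ‖^2 + ‖a₂ e ξ‖^2`); `‖x₁‖, ‖x₂‖ ≤ ‖x‖`.
* `q = q₁ + q₂` is a projection of `M` (`q₁ q₂ = q₁ z e q₂ = 0`), `(1 - q) ξ = (z - q₁) ξ + (e - q₂) ξ`.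
* `q (pinching p x - a) q = q₁ (pinching p' x₁ - a₁) q₁ + q₂ (pinching p'' x₂ - a₂) q₂` (cross terms vanish because `pinching p' x₁ - a₁ = z (..) z` etc.), block diagonal, so its norm is at most `max κ κ = κ`.
-/

set_option linter.unusedSectionVars false

namespace Vale.Agent.Lib.P078

open scoped InnerProductSpace

variable {H : Type*} [NormedAddCommGroup H] [InnerProductSpace ℂ H] [CompleteSpace H]
variable {M : VonNeumannAlgebra H} {A : StarSubalgebra ℂ (H →L[ℂ] H)}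

lemma mul_eq_zero_of_blocks {z u v : H →L[ℂ] H} (hz : IsStarProjection z) (hu : u * z = u)
    (hv : (1 - z) * v = v) : u * v = 0 := by
  calc u * v = (u * z) * ((1 - z) * v) := by rw [hu, hv]
    _ = u * (z * (1 - z)) * v := by simp only [mul_assoc]
    _ = 0 := by rw [hz.mul_one_sub_self, mul_zero, zero_mul]

lemma mul_eq_zero_of_blocks' {z u v : H →L[ℂ] H} (hz : IsStarProjection z)
    (hu : u * (1 - z) = u) (hv : z * v = v) : u * v = 0 := by
  calc u * v = (u * (1 - z)) * (z * v) := by rw [hu, hv]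
    _ = u * ((1 - z) * z) * v := by simp only [mul_assoc]
    _ = 0 := by rw [hz.one_sub_mul_self, mul_zero, zero_mul]

lemma mul_right_of_left {z a : H →L[ℂ] H} (hz : IsSelfAdjoint z) (ha : IsSelfAdjoint a)
    (h : z * a = a) : a * z = a := by
  have h1 := congrArg star h
  rw [star_mul, ha.star_eq, hz.star_eq] at h1
  exact h1

lemma inner_blocks_eq_zero {z : H →L[ℂ] H} (hz : IsStarProjection z) (a b : H) :
    ⟪z a, (1 - z) b⟫_ℂ = 0 := by
  rw [sa_inner hz.isSelfAdjoint]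
  have h : z ((1 - z) b) = (z * (1 - z)) b := rfl
  rw [h, hz.mul_one_sub_self]
  simp

lemma norm_sq_blocks {z : H →L[ℂ] H} (hz : IsStarProjection z) (a b : H) :
    ‖z a + (1 - z) b‖ ^ 2 = ‖z a‖ ^ 2 + ‖(1 - z) b‖ ^ 2 := by
  rw [@norm_add_sq ℂ, inner_blocks_eq_zero hz]
  simp

/-- The norm of a block diagonal operator. -/
lemma norm_add_le_of_blocks {z u v : H →L[ℂ] H} (hz : IsStarProjection z) (hu : z * u * z = u)
    (hv : (1 - z) * v * (1 - z) = v) {κ : ℝ} (hu' : ‖u‖ ≤ κ) (hv' : ‖v‖ ≤ κ) : ‖u + v‖ ≤ κ := by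
  have hκ : 0 ≤ κ := (norm_nonneg u).trans hu'
  refine ContinuousLinearMap.opNorm_le_bound _ hκ fun ξ => ?_
  have h1 : (u + v) ξ = z (u (z ξ)) + (1 - z) (v ((1 - z) ξ)) := by
    conv_lhs => rw [← hu, ← hv]
    rfl
  have h2 : ‖z (u (z ξ))‖ ≤ κ * ‖z ξ‖ :=
    (proj_norm_le hz _).trans ((u.le_opNorm _).trans (by gcongr))
  have h3 : ‖(1 - z) (v ((1 - z) ξ))‖ ≤ κ * ‖(1 - z) ξ‖ :=
    (proj_norm_le hz.one_sub _).trans ((v.le_opNorm _).trans (by gcongr))
  have h4 : ‖ξ‖ ^ 2 = ‖z ξ‖ ^ 2 + ‖(1 - z) ξ‖ ^ 2 := by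
    rw [← norm_sq_blocks hz]
    congr 2
    simp
  have h5 : ‖(u + v) ξ‖ ^ 2 ≤ (κ * ‖ξ‖) ^ 2 := by
    rw [h1, norm_sq_blocks hz, mul_pow, h4, mul_add, ← mul_pow, ← mul_pow]
    gcongr
  exact (abs_le_of_sq_le_sq' h5 (by positivity)).2

section Family

variable {r : ℕ} {p : Fin r → H →L[ℂ] H} {z : H →L[ℂ] H}

lemma family_left (hproj : ∀ i, IsStarProjection (p i)) (horth : ∀ i j, i ≠ j → p i * p j = 0)
    (hsum : ∑ i, p i = z) (i : Fin r) : z * p i = p i := by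
  rw [← hsum, Finset.sum_mul, Finset.sum_eq_single i]
  · exact (hproj i).isIdempotentElem.eq
  · intro j _ hj
    exact horth j i hj
  · intro h
    exact absurd (Finset.mem_univ i) h

lemma family_right (hproj : ∀ i, IsStarProjection (p i)) (horth : ∀ i j, i ≠ j → p i * p j = 0)
    (hsum : ∑ i, p i = z) (i : Fin r) : p i * z = p i := by
  rw [← hsum, Finset.mul_sum, Finset.sum_eq_single i]
  · exact (hproj i).isIdempotentElem.eq
  · intro j _ hj
    exact horth i j (Ne.symm hj)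
  · intro h
    exact absurd (Finset.mem_univ i) h

lemma pinching_corner (hl : ∀ i, z * p i = p i) (hr : ∀ i, p i * z = p i) (x : H →L[ℂ] H) :
    pinching p (z * x * z) = pinching p x := by
  unfold pinching
  refine Finset.sum_congr rfl fun i _ => ?_
  calc p i * (z * x * z) * p i = (p i * z) * x * (z * p i) := by simp only [mul_assoc]
    _ = p i * x * p i := by rw [hl, hr]

lemma mul_pinching_left (hl : ∀ i, z * p i = p i) (x : H →L[ℂ] H) :
    z * pinching p x = pinching p x := by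
  unfold pinching
  rw [Finset.mul_sum]
  refine Finset.sum_congr rfl fun i _ => ?_
  calc z * (p i * x * p i) = (z * p i) * x * p i := by simp only [mul_assoc]
    _ = p i * x * p i := by rw [hl]

lemma mul_pinching_right (hr : ∀ i, p i * z = p i) (x : H →L[ℂ] H) :
    pinching p x * z = pinching p x := by
  unfold pinching
  rw [Finset.sum_mul]
  refine Finset.sum_congr rfl fun i _ => ?_
  calc p i * x * p i * z = p i * x * (p i * z) := by simp only [mul_assoc]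
    _ = p i * x * p i := by rw [hr]

end Family

lemma norm_corner_le {z : H →L[ℂ] H} (hz : IsStarProjection z) (x : H →L[ℂ] H) :
    ‖z * x * z‖ ≤ ‖x‖ := by
  have h1 := norm_proj_le_one hz
  calc ‖z * x * z‖ ≤ ‖z * x‖ * ‖z‖ := norm_mul_le _ _
    _ ≤ (‖z‖ * ‖x‖) * ‖z‖ := by gcongr; exact norm_mul_le _ _
    _ ≤ (1 * ‖x‖) * 1 := by gcongr
    _ = ‖x‖ := by ring

lemma pinching_addCases {r₁ r₂ : ℕ} (p' : Fin r₁ → H →L[ℂ] H) (p'' : Fin r₂ → H →L[ℂ] H)
    (x : H →L[ℂ] H) :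
    pinching (fun i : Fin (r₁ + r₂) => Fin.addCases (motive := fun _ => H →L[ℂ] H) p' p'' i) x
      = pinching p' x + pinching p'' x := by
  unfold pinching
  rw [Fin.sum_univ_add]
  simp only [Fin.addCases_left, Fin.addCases_right]

lemma isPartition_addCases {z : H →L[ℂ] H} (hz : IsStarProjection z) {r₁ r₂ : ℕ}
    {p' : Fin r₁ → H →L[ℂ] H} {p'' : Fin r₂ → H →L[ℂ] H}
    (hA' : ∀ i, p' i ∈ A) (hp' : ∀ i, IsStarProjection (p' i))
    (ho' : ∀ i j, i ≠ j → p' i * p' j = 0) (hs' : ∑ i, p' i = z)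
    (hA'' : ∀ i, p'' i ∈ A) (hp'' : ∀ i, IsStarProjection (p'' i))
    (ho'' : ∀ i j, i ≠ j → p'' i * p'' j = 0) (hs'' : ∑ i, p'' i = 1 - z) :
    IsPartition A
      (fun i : Fin (r₁ + r₂) => Fin.addCases (motive := fun _ => H →L[ℂ] H) p' p'' i) where
  mem i := by
    refine Fin.addCases (fun i => ?_) (fun i => ?_) i
    · simp only [Fin.addCases_left]; exact hA' i
    · simp only [Fin.addCases_right]; exact hA'' i
  proj i := by
    refine Fin.addCases (fun i => ?_) (fun i => ?_) i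
    · simp only [Fin.addCases_left]; exact hp' i
    · simp only [Fin.addCases_right]; exact hp'' i
  orth i j := by
    refine Fin.addCases (fun i => ?_) (fun i => ?_) i <;>
      refine Fin.addCases (fun j => ?_) (fun j => ?_) j <;> intro hij <;>
      simp only [Fin.addCases_left, Fin.addCases_right]
    · exact ho' i j fun h => hij (by rw [h])
    · exact mul_eq_zero_of_blocks hz (family_right hp' ho' hs' i) (family_left hp'' ho'' hs'' j)
    · exact mul_eq_zero_of_blocks' hz (family_right hp'' ho'' hs'' i) (family_left hp' ho' hs' j)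
    · exact ho'' i j fun h => hij (by rw [h])
  sum_eq := by
    rw [Fin.sum_univ_add]
    simp only [Fin.addCases_left, Fin.addCases_right]
    rw [hs', hs'']
    abel

lemma block_expand {q₁ q₂ T₁ T₂ : H →L[ℂ] H} (h1 : T₁ * q₂ = 0) (h2 : q₁ * T₂ = 0)
    (h3 : q₂ * T₁ = 0) (h4 : T₂ * q₁ = 0) :
    (q₁ + q₂) * (T₁ + T₂) * (q₁ + q₂) = q₁ * T₁ * q₁ + q₂ * T₂ * q₂ := by
  calc (q₁ + q₂) * (T₁ + T₂) * (q₁ + q₂)
      = q₁ * T₁ * q₁ + q₁ * (T₁ * q₂) + (q₁ * T₂) * q₁ + (q₁ * T₂) * q₂ + (q₂ * T₁) * q₁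
        + (q₂ * T₁) * q₂ + q₂ * (T₂ * q₁) + q₂ * T₂ * q₂ := by noncomm_ring
    _ = q₁ * T₁ * q₁ + q₂ * T₂ * q₂ := by
      rw [h1, h2, h3, h4]
      simp

theorem soPavable_of_corners (hM : IsMASA M A) {z : H →L[ℂ] H} (hz : IsStarProjection z)
    (hzA : z ∈ A) {x : H →L[ℂ] H} (hxM : x ∈ M) (hxs : IsSelfAdjoint x) {ε : ℝ} {r₁ r₂ : ℕ}
    (h₁ : CornerPavable M A z (z * x * z) (ε * ‖x‖) r₁)
    (h₂ : CornerPavable M A (1 - z) ((1 - z) * x * (1 - z)) (ε * ‖x‖) r₂) :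
    SoPavable M A x ε (r₁ + r₂) := by
  intro F δ hδ
  obtain ⟨p', a₁, q₁, hA', hp', ho', hs', ha₁A, ha₁s, hza₁, hna₁, hq₁M, hq₁, hzq₁, hF₁, hb₁⟩ :=
    h₁ F (δ / 2) (half_pos hδ)
  obtain ⟨p'', a₂, q₂, hA'', hp'', ho'', hs'', ha₂A, ha₂s, hza₂, hna₂, hq₂M, hq₂, hzq₂, hF₂,
    hb₂⟩ := h₂ F (δ / 2) (half_pos hδ)
  have he : IsStarProjection (1 - z) := hz.one_sub
  have hl' := family_left hp' ho' hs'
  have hr' := family_right hp' ho' hs'
  have hl'' := family_left hp'' ho'' hs''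
  have hr'' := family_right hp'' ho'' hs''
  have ha₁z : a₁ * z = a₁ := mul_right_of_left hz.isSelfAdjoint ha₁s hza₁
  have ha₂z : a₂ * (1 - z) = a₂ := mul_right_of_left he.isSelfAdjoint ha₂s hza₂
  have hq₁z : q₁ * z = q₁ := mul_right_of_left hz.isSelfAdjoint hq₁.isSelfAdjoint hzq₁
  have hq₂z : q₂ * (1 - z) = q₂ := mul_right_of_left he.isSelfAdjoint hq₂.isSelfAdjoint hzq₂
  set T₁ := pinching p' (z * x * z) - a₁ with hT₁
  set T₂ := pinching p'' ((1 - z) * x * (1 - z)) - a₂ with hT₂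
  have hzT₁ : z * T₁ = T₁ := by rw [hT₁, mul_sub, mul_pinching_left hl', hza₁]
  have hT₁z : T₁ * z = T₁ := by rw [hT₁, sub_mul, mul_pinching_right hr', ha₁z]
  have hzT₂ : (1 - z) * T₂ = T₂ := by rw [hT₂, mul_sub, mul_pinching_left hl'', hza₂]
  have hT₂z : T₂ * (1 - z) = T₂ := by rw [hT₂, sub_mul, mul_pinching_right hr'', ha₂z]
  refine ⟨fun i : Fin (r₁ + r₂) => Fin.addCases (motive := fun _ => H →L[ℂ] H) p' p'' i,
    a₁ + a₂, q₁ + q₂, isPartition_addCases hz hA' hp' ho' hs' hA'' hp'' ho'' hs'',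
    A.add_mem ha₁A ha₂A, ha₁s.add ha₂s, ?_, M.add_mem hq₁M hq₂M,
    hq₁.add hq₂ (mul_eq_zero_of_blocks hz hq₁z hzq₂), ?_, ?_⟩
  · refine norm_add_le_of_blocks hz ?_ ?_ (hna₁.trans (norm_corner_le hz x))
      (hna₂.trans (norm_corner_le he x))
    · rw [hza₁, ha₁z]
    · rw [hza₂, ha₂z]
  · intro ξ hξ
    have h1 : (1 - (q₁ + q₂)) ξ = (z - q₁) ξ + ((1 - z) - q₂) ξ := by
      rw [← ContinuousLinearMap.add_apply]
      congr 1
      abel
    rw [h1]
    calc ‖(z - q₁) ξ + ((1 - z) - q₂) ξ‖ ≤ ‖(z - q₁) ξ‖ + ‖((1 - z) - q₂) ξ‖ := norm_add_le _ _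
      _ < δ / 2 + δ / 2 := add_lt_add (hF₁ ξ hξ) (hF₂ ξ hξ)
      _ = δ := add_halves δ
  · have h1 : pinching (fun i : Fin (r₁ + r₂) =>
        Fin.addCases (motive := fun _ => H →L[ℂ] H) p' p'' i) x - (a₁ + a₂) = T₁ + T₂ := by
      rw [pinching_addCases, hT₁, hT₂, pinching_corner hl' hr', pinching_corner hl'' hr'']
      abel
    rw [h1, block_expand (mul_eq_zero_of_blocks hz hT₁z hzq₂) (mul_eq_zero_of_blocks hz hq₁z hzT₂)
      (mul_eq_zero_of_blocks' hz hq₂z hzT₁) (mul_eq_zero_of_blocks' hz hT₂z hzq₁)]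
    refine norm_add_le_of_blocks hz ?_ ?_ hb₁ hb₂
    · calc z * (q₁ * T₁ * q₁) * z = (z * q₁) * T₁ * (q₁ * z) := by simp only [mul_assoc]
        _ = q₁ * T₁ * q₁ := by rw [hzq₁, hq₁z]
    · calc (1 - z) * (q₂ * T₂ * q₂) * (1 - z) = ((1 - z) * q₂) * T₂ * (q₂ * (1 - z)) := by
            simp only [mul_assoc]
        _ = q₂ * T₂ * q₂ := by rw [hzq₂, hq₂z]

end Vale.Agent.Lib.P078
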