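import Vale.Agent.Lib.P078.General
import Vale.Agent.Lib.P078.Thin.Block

/-!
# P078 (subtask U8a): a diffuse MASA of `B(H)` is thin
-/

set_option linter.unusedSectionVars false

namespace Vale.Agent.Lib.P078

open scoped InnerProductSpace
open InnerProductSpace (rankOne)

variable {H : Type*} [NormedAddCommGroup H] [InnerProductSpace ℂ H] [CompleteSpace H]

/-- If a self-adjoint operator is small on all normalised step vectors, then its product with the
step projection is small. -/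
lemma norm_stepProj_mul_le {I : Type*} [Fintype I] (e : I → H →L[ℂ] H) (ξ₀ : H)
    {T : H →L[ℂ] H} (hT : IsSelfAdjoint T) {σ : ℝ} (hσ : 0 ≤ σ)
    (h : ∀ i, ‖T (hvec e ξ₀ i)‖ ≤ σ) :
    ‖stepProj e ξ₀ * T‖ ≤ (Fintype.card I : ℝ) * σ := by
  refine ContinuousLinearMap.opNorm_le_bound _ (by positivity) fun v => ?_
  have h1 : (stepProj e ξ₀ * T) v = ∑ i, ⟪T (hvec e ξ₀ i), v⟫_ℂ • hvec e ξ₀ i := by
    rw [mul_apply_eq_comp, stepProj_apply]
    refine Finset.sum_congr rfl fun i _ => ?_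
    rw [sa_inner hT]
  rw [h1]
  calc ‖∑ i, ⟪T (hvec e ξ₀ i), v⟫_ℂ • hvec e ξ₀ i‖
      ≤ ∑ i, ‖⟪T (hvec e ξ₀ i), v⟫_ℂ • hvec e ξ₀ i‖ := norm_sum_le _ _
    _ ≤ ∑ _i : I, σ * ‖v‖ := by
        refine Finset.sum_le_sum fun i _ => ?_
        rw [norm_smul]
        calc ‖⟪T (hvec e ξ₀ i), v⟫_ℂ‖ * ‖hvec e ξ₀ i‖
            ≤ (‖T (hvec e ξ₀ i)‖ * ‖v‖) * 1 := by
              gcongr
              · exact norm_inner_le_norm _ _
              · exact norm_hvec_le e ξ₀ i
          _ ≤ (σ * ‖v‖) * 1 := by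
              gcongr
              exact h i
          _ = σ * ‖v‖ := mul_one _
    _ = (Fintype.card I : ℝ) * σ * ‖v‖ := by
        simp only [Finset.sum_const, Finset.card_univ, nsmul_eq_mul]
        ring

/-- A diffuse MASA of `B(H)` is thin. -/
theorem isThin_of_diffuse' {A : StarSubalgebra ℂ (H →L[ℂ] H)} (hM : IsMASA (allOps H) A)
    (hd : IsDiffuse A) : IsThin (allOps H) A := by
  classical
  refine isThin_of_fintype fun F δ τ hδ hτ => ?_
  obtain ⟨ξ₀, hcyc⟩ := exists_local_cyclic hM.comm hM.maximal F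
  obtain ⟨I, _, e, he, hF⟩ :=
    exists_coarse' hM.comm ξ₀ (δ := δ) F (fun ξ hξ => hcyc ξ hξ δ hδ)
  set N : ℝ := (Fintype.card I : ℝ) with hN
  have hN0 : 0 ≤ N := by positivity
  set σ : ℝ := Real.sqrt τ / (N + 1) with hσ
  have hsq : 0 < Real.sqrt τ := Real.sqrt_pos.mpr hτ
  have hσ0 : 0 < σ := by positivity
  have hΛ0 : 0 ≤ ∑ i, ‖e i ξ₀‖⁻¹ := Finset.sum_nonneg fun _ _ => by positivity
  obtain ⟨J, _, g, hg, hgτ⟩ := exists_fine_partition hM.comm hM.maximal hd ξ₀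
    (τ := σ / ((∑ i, ‖e i ξ₀‖⁻¹) + 1)) (by positivity)
  have hf : IsPartition A (fun t : I × J => e t.1 * g t.2) := he.prod hM.comm hg
  refine ⟨stepProj e ξ₀, I × J, inferInstance, fun t => e t.1 * g t.2, mem_allOps _,
    isStarProjection_stepProj he ξ₀, ?_, hf, ?_⟩
  · intro ξ hξ
    obtain ⟨v, hv, hvδ⟩ := hF ξ hξ
    exact (norm_one_sub_stepProj_le he ξ₀ hv ξ).trans_lt hvδ
  · intro t
    have h1 : ‖stepProj e ξ₀ * (e t.1 * g t.2)‖ ≤ N * σ :=
      norm_stepProj_mul_le e ξ₀ (hf.proj t).isSelfAdjoint hσ0.le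
        (fun i => norm_prod_apply_hvec_le hM.comm he hg ξ₀ hσ0.le hgτ i t)
    have h2 : N * σ ≤ Real.sqrt τ := by
      rw [hσ]
      calc N * (Real.sqrt τ / (N + 1)) = Real.sqrt τ * (N / (N + 1)) := by ring
        _ ≤ Real.sqrt τ * 1 := by
            gcongr
            rw [div_le_one (by positivity)]
            linarith
        _ = Real.sqrt τ := mul_one _
    calc ‖stepProj e ξ₀ * (e t.1 * g t.2)‖ ^ 2 ≤ (Real.sqrt τ) ^ 2 := by
          gcongr
          exact h1.trans h2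
      _ = τ := Real.sq_sqrt hτ.le

end Vale.Agent.Lib.P078
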