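import Vale.Agent.Lib.P078.General
import Vale.Agent.Lib.P078.Thin.Block

/-!
# P078 (subtask U8b): thinness passes through a normal unital representation of `B(L)`
-/

set_option linter.unusedSectionVars false

namespace Vale.Agent.Lib.P078

open scoped InnerProductSpace
open InnerProductSpace (rankOne)

variable {H : Type*} [NormedAddCommGroup H] [InnerProductSpace ℂ H] [CompleteSpace H]
variable {L : Type*} [NormedAddCommGroup L] [InnerProductSpace ℂ L] [CompleteSpace L]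

/-- A unital star homomorphism is contractive. -/
lemma rep_norm_le (π : (L →L[ℂ] L) →⋆ₐ[ℂ] (H →L[ℂ] H)) (T : L →L[ℂ] L) : ‖π T‖ ≤ ‖T‖ :=
  NonUnitalStarAlgHom.norm_apply_le π T

/-- A unital star homomorphism maps partitions to partitions. -/
lemma IsPartition.rep {AL : StarSubalgebra ℂ (L →L[ℂ] L)} {A : StarSubalgebra ℂ (H →L[ℂ] H)}
    (π : (L →L[ℂ] L) →⋆ₐ[ℂ] (H →L[ℂ] H)) (hπA : ∀ T ∈ AL, π T ∈ A)
    {ι : Type*} [Fintype ι] {f : ι → L →L[ℂ] L} (hf : IsPartition AL f) :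
    IsPartition A (fun i => π (f i)) where
  mem i := hπA _ (hf.mem i)
  proj i := (hf.proj i).map π
  orth i j hij := by
    rw [← map_mul, hf.orth i j hij, map_zero]
  sum_eq := by
    rw [← map_sum, hf.sum_eq, map_one]

/-- A unital star homomorphism commutes with pinchings. -/
lemma pinching_rep (π : (L →L[ℂ] L) →⋆ₐ[ℂ] (H →L[ℂ] H))
    {ι : Type*} [Fintype ι] (f : ι → L →L[ℂ] L) (x : L →L[ℂ] L) :
    pinching (fun i => π (f i)) (π x) = π (pinching f x) := by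
  unfold pinching
  rw [map_sum]
  refine Finset.sum_congr rfl fun i _ => ?_
  rw [map_mul, map_mul]

/-- Norm bound for an operator times a finite-rank projection. -/
lemma norm_mul_sum_rankOne_le (T : L →L[ℂ] L) {n : ℕ} {h : Fin n → L} (ho : Orthonormal ℂ h)
    {c : ℝ} (hc : ∀ i, ‖T (h i)‖ ≤ c) :
    ‖T * ∑ i, rankOne ℂ (h i) (h i)‖ ≤ n * c := by
  rw [Finset.mul_sum]
  calc ‖∑ i, T * rankOne ℂ (h i) (h i)‖ ≤ ∑ i, ‖T * rankOne ℂ (h i) (h i)‖ := norm_sum_le _ _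
    _ ≤ ∑ _i : Fin n, c := by
        refine Finset.sum_le_sum fun i _ => ?_
        have h1 : T * rankOne ℂ (h i) (h i) = rankOne ℂ (T (h i)) (h i) :=
          InnerProductSpace.comp_rankOne (h i) (h i) T
        rw [h1, InnerProductSpace.norm_rankOne, ho.1 i, mul_one]
        exact hc i
    _ = n * c := by simp

/-- The key estimate for one vector. -/
lemma norm_one_sub_rep_apply_le (π : (L →L[ℂ] L) →⋆ₐ[ℂ] (H →L[ℂ] H)) {q₀ : L →L[ℂ] L}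
    (hq₀ : IsStarProjection q₀) (P : L →L[ℂ] L) (ξ : H) :
    ‖(1 - π q₀) ξ‖ ≤ ‖(1 - q₀) * P‖ * ‖ξ‖ + ‖ξ - π P ξ‖ := by
  have hq : IsStarProjection (1 - π q₀) := (hq₀.map π).one_sub
  have h1 : (1 - π q₀) ξ = π ((1 - q₀) * P) ξ + (1 - π q₀) (ξ - π P ξ) := by
    have h2 : π ((1 - q₀) * P) ξ = (1 - π q₀) (π P ξ) := by
      rw [map_mul, map_sub, map_one]
      rfl
    rw [h2, ← map_add, add_sub_cancel]
  rw [h1]
  calc ‖π ((1 - q₀) * P) ξ + (1 - π q₀) (ξ - π P ξ)‖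
      ≤ ‖π ((1 - q₀) * P) ξ‖ + ‖(1 - π q₀) (ξ - π P ξ)‖ := norm_add_le _ _
    _ ≤ ‖(1 - q₀) * P‖ * ‖ξ‖ + ‖ξ - π P ξ‖ := by
        refine add_le_add ?_ (proj_norm_le hq _)
        calc ‖π ((1 - q₀) * P) ξ‖ ≤ ‖π ((1 - q₀) * P)‖ * ‖ξ‖ := (π ((1 - q₀) * P)).le_opNorm ξ
          _ ≤ ‖(1 - q₀) * P‖ * ‖ξ‖ := by
            gcongr
            exact rep_norm_le π _

/-- Thinness passes through a normal unital representation of `B(L)`. -/
theorem isThin_of_rep'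
    {AL : StarSubalgebra ℂ (L →L[ℂ] L)} (hthin : IsThin (allOps L) AL)
    {M : VonNeumannAlgebra H} {A : StarSubalgebra ℂ (H →L[ℂ] H)}
    (π : (L →L[ℂ] L) →⋆ₐ[ℂ] (H →L[ℂ] H)) (hπM : ∀ T, π T ∈ M) (hπA : ∀ T ∈ AL, π T ∈ A)
    (hnormal : ∀ (ξ : H) (δ : ℝ), 0 < δ → ∃ (n : ℕ) (h : Fin n → L), Orthonormal ℂ h ∧
      ‖ξ - π (∑ i, rankOne ℂ (h i) (h i)) ξ‖ < δ) : IsThin M A := by
  classical
  intro F δ τ hδ hτ
  have hδ2 : 0 < δ / 2 := by positivity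
  choose n h ho hh using fun ξ : H => hnormal ξ (δ / 2) hδ2
  set G : Finset L := F.biUnion (fun ξ => Finset.univ.image (h ξ)) with hG
  set C : ℝ := ∑ ξ ∈ F, (n ξ : ℝ) * ‖ξ‖ + 1 with hC
  have hterm : ∀ ξ ∈ F, (0 : ℝ) ≤ (n ξ : ℝ) * ‖ξ‖ := fun ξ _ => by positivity
  have hCpos : 0 < C := by
    have : 0 ≤ ∑ ξ ∈ F, (n ξ : ℝ) * ‖ξ‖ := Finset.sum_nonneg hterm
    linarith
  have hCle : ∀ ξ ∈ F, (n ξ : ℝ) * ‖ξ‖ ≤ C := by
    intro ξ hξ
    have := Finset.single_le_sum hterm hξ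
    linarith
  set δL : ℝ := δ / (2 * C) with hδL
  have hδLpos : 0 < δL := by positivity
  obtain ⟨q₀, m, f, -, hq₀, hsmall, hf, hpin⟩ := hthin G δL τ hδLpos hτ
  refine ⟨π q₀, m, fun i => π (f i), hπM _, hq₀.map π, ?_, hf.rep π hπA, ?_⟩
  · intro ξ hξ
    have h1 := norm_one_sub_rep_apply_le π hq₀ (∑ i, rankOne ℂ (h ξ i) (h ξ i)) ξ
    have h2 : ‖(1 - q₀) * ∑ i, rankOne ℂ (h ξ i) (h ξ i)‖ ≤ n ξ * δL := by
      refine norm_mul_sum_rankOne_le (1 - q₀) (ho ξ) fun i => (hsmall _ ?_).le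
      rw [hG, Finset.mem_biUnion]
      exact ⟨ξ, hξ, Finset.mem_image_of_mem _ (Finset.mem_univ i)⟩
    have h3 : (n ξ * δL) * ‖ξ‖ ≤ δ / 2 := by
      have h4 : (n ξ * δL) * ‖ξ‖ = ((n ξ : ℝ) * ‖ξ‖) * δL := by ring
      rw [h4]
      calc ((n ξ : ℝ) * ‖ξ‖) * δL ≤ C * δL := by
            gcongr
            exact hCle ξ hξ
        _ = δ / 2 := by
            rw [hδL]
            field_simp
    have h5 : ‖(1 - q₀) * ∑ i, rankOne ℂ (h ξ i) (h ξ i)‖ * ‖ξ‖ ≤ (n ξ * δL) * ‖ξ‖ := by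
      gcongr
    have h6 := hh ξ
    linarith
  · rw [pinching_rep]
    exact (rep_norm_le π _).trans hpin

end Vale.Agent.Lib.P078
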