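import Vale.Agent.Lib.P078.General
import Vale.Agent.Lib.P078.Thin.Block
import Vale.Agent.Lib.P078.Thin.ExampleDiffuse
import Vale.Agent.Lib.P078.Thin.ExampleRep

/-!
# P078 (subtask U8): examples of thin MASAs

Blueprint.
* `isThin_of_diffuse`.  Use `isThin_of_fintype`.  Given `F`, `δ`, `τ`: `exists_local_cyclic` (file `Cyclic.lean`) gives `ξ₀`, `exists_coarse'` (file `Step.lean`) a partition `e` (index `I`,
  `N = card I`) such that every `ξ ∈ F` is within `δ` of `stepSpace e ξ₀`; `q = stepProj e ξ₀` (`isStarProjection_stepProj`, `norm_one_sub_stepProj_le`, `mem_allOps`).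
  `exists_fine_partition` (file `Fine.lean`) gives `g` with `‖g j ξ₀‖` as small as we like; with `f t = e t.1 * g t.2` one has `‖f t (hvec e ξ₀ i)‖ ≤ τ'` for all `i, t`
  (`norm_prod_apply_hvec_le` in `Upper.lean`; see how `exists_coloring_compress` chooses the fineness).  Finally
  `(q * f t) v = ∑ i, ⟪hvec e ξ₀ i, f t v⟫ • hvec e ξ₀ i = ∑ i, ⟪f t (hvec e ξ₀ i), v⟫ • hvec e ξ₀ i`, so `‖q * f t‖ ≤ N τ'`; choose `τ'` with `(N τ')^2 ≤ τ`.
* `isThin_of_rep`.  Given `F ⊆ H`, `δ`, `τ`: for `ξ ∈ F` choose (`hnormal`) an orthonormal family `h ξ : Fin (n ξ) → L` with `‖ξ - π (P ξ) ξ‖ < δ / 2`, `P ξ = ∑ i, rankOne (h ξ i) (h ξ i)`.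
  Thinness of `A_L` for the finite set of all `h ξ i` and a small `δ_L` gives `q₀`, `f` with `‖(1 - q₀) (h ξ i)‖ < δ_L`, `‖pinching f q₀‖ ≤ τ`.
  Then `‖(1 - q₀) * P ξ‖ ≤ ∑ i ‖(1 - q₀) (h ξ i)‖ ≤ n ξ * δ_L`.  Put `q = π q₀` (a projection of `M`), partition `π ∘ f` in `A`,
  `pinching (π ∘ f) (π q₀) = π (pinching f q₀)`, and star homomorphisms are contractive (`NonUnitalStarAlgHom.norm_apply_le` or `StarAlgHom` version).
  `(1 - q) ξ = π ((1 - q₀) * P ξ) ξ + (1 - q) (ξ - π (P ξ) ξ)`, so `‖(1 - q) ξ‖ ≤ n ξ δ_L ‖ξ‖ + δ / 2 < δ`.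
-/

set_option linter.unusedSectionVars false

namespace Vale.Agent.Lib.P078

open scoped InnerProductSpace
open InnerProductSpace (rankOne)

variable {H : Type*} [NormedAddCommGroup H] [InnerProductSpace ℂ H] [CompleteSpace H]

/-- A diffuse MASA of `B(H)` is thin. -/
theorem isThin_of_diffuse {A : StarSubalgebra ℂ (H →L[ℂ] H)} (hM : IsMASA (allOps H) A)
    (hd : IsDiffuse A) : IsThin (allOps H) A :=
  isThin_of_diffuse' hM hd

/-- Thinness passes through a normal unital representation of `B(L)`. -/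
theorem isThin_of_rep {L : Type*} [NormedAddCommGroup L] [InnerProductSpace ℂ L] [CompleteSpace L]
    {AL : StarSubalgebra ℂ (L →L[ℂ] L)} (hthin : IsThin (allOps L) AL)
    {M : VonNeumannAlgebra H} {A : StarSubalgebra ℂ (H →L[ℂ] H)}
    (π : (L →L[ℂ] L) →⋆ₐ[ℂ] (H →L[ℂ] H)) (hπM : ∀ T, π T ∈ M) (hπA : ∀ T ∈ AL, π T ∈ A)
    (hnormal : ∀ (ξ : H) (δ : ℝ), 0 < δ → ∃ (n : ℕ) (h : Fin n → L), Orthonormal ℂ h ∧
      ‖ξ - π (∑ i, rankOne ℂ (h i) (h i)) ξ‖ < δ) : IsThin M A :=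
  isThin_of_rep' hthin π hπM hπA hnormal

end Vale.Agent.Lib.P078
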