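import Vale.Agent.Lib.P078.Thin.PosFunctional

/-!
# P078 (subtask V5): the left ideal `J` generated by a dominated corner, and normality of `x ↦ ρ (star k * x * k)` for `k ∈ J`

`idealJ M A e₀` is the linear span of the operators `y * e₀ * e`, `y ∈ M`, `e` a projection of `A`.

Blueprint.
* `nrm_mul_proj_le` (S2).  Let `w = star x * x ∈ M`.  Centrality with the element `w * e ∈ M`: `ρ (e * (w * e)) = ρ (w * e * e) = ρ (w * e)`.  The same for the projection `1 - e ∈ A`.  So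
  `ρ w = ρ (w * e) + ρ (w * (1 - e)) = ρ (e * w * e) + ρ ((1 - e) * w * (1 - e))`, i.e. `sqN ρ x = sqN ρ (x * e) + sqN ρ (x * (1 - e)) ≥ sqN ρ (x * e)`.
* `mul_mem_idealJ`, `mem_idealJ_mul`, `idealJ_le`: `Submodule.span_induction`.  For `mem_idealJ_mul`: `e * e'` is a projection of `A` since `A` is commutative.
* `normal_of_mem_idealJ`: `Submodule.span_induction` on the statement.  Generator `k = y * e₀ * e`: `nrm ρ (p * y * e₀ * e) ≤ nrm ρ (p * y * e₀)` by S2 and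
  `sqN ρ (p * y * e₀) = re ρ (e₀ * star y * p * y * e₀) ≤ C * ∑ ξ ∈ F, re ⟪ξ, (e₀ * star y * p * y * e₀) ξ⟫ = C * ∑ ξ ∈ F, ‖p (y (e₀ ξ))‖^2` by `hdom`; take `F' = F.image (fun ξ => y (e₀ ξ))` and `δ'` with `C * card F * δ'^2 ≤ τ^2`.
  Zero: trivial.  Sum: union of the two finite sets, minimum of the two `δ'`, `τ / 2` each, `nrm_add_le`.  Scalar multiple `c • k`: use `τ / (‖c‖ + 1)`.
-/

set_option linter.unusedSectionVars false

namespace Vale.Agent.Lib.P078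

open scoped InnerProductSpace

variable {H : Type*} [NormedAddCommGroup H] [InnerProductSpace ℂ H] [CompleteSpace H]
variable {M : VonNeumannAlgebra H} {A : StarSubalgebra ℂ (H →L[ℂ] H)}
variable {ρ : (H →L[ℂ] H) →L[ℂ] ℂ}

lemma IsCentralFunctional.isPos (hρ : IsCentralFunctional M A ρ) : IsPosFunctional ρ := hρ.pos

lemma sqN_mul_proj_eq (hρ : IsCentralFunctional M A ρ)
    {e : H →L[ℂ] H} (he : e ∈ A) (hep : IsStarProjection e) {x : H →L[ℂ] H} (hx : x ∈ M)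
    (heM : e ∈ M) :
    sqN ρ (x * e) = (ρ (star x * x * e)).re := by
  have hw : star x * x * e ∈ M := mul_mem (mul_mem (star_mem hx) hx) heM
  have h1 := hρ.central e he hep _ hw
  have h2 : star (x * e) * (x * e) = e * (star x * x * e) := by
    rw [star_mul, hep.isSelfAdjoint.star_eq]
    simp only [mul_assoc]
  have h3 : star x * x * e * e = star x * x * e := by
    rw [mul_assoc, hep.isIdempotentElem.eq]
  unfold sqN
  rw [h2, h1, h3]

/-- (S2) right multiplication by a projection of `A` is a contraction for the GNS seminorm on `M`. -/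
lemma nrm_mul_proj_le (hρ : IsCentralFunctional M A ρ) (hAM : ∀ a ∈ A, a ∈ M)
    {e : H →L[ℂ] H} (he : e ∈ A) (hep : IsStarProjection e) {x : H →L[ℂ] H} (hx : x ∈ M) :
    nrm ρ (x * e) ≤ nrm ρ x := by
  have h1 := sqN_mul_proj_eq hρ he hep hx (hAM e he)
  have he' : (1 - e) ∈ A := sub_mem (one_mem A) he
  have h2 := sqN_mul_proj_eq hρ he' hep.one_sub hx (hAM _ he')
  have h3 : sqN ρ x = sqN ρ (x * e) + sqN ρ (x * (1 - e)) := by
    rw [h1, h2, ← Complex.add_re, ← map_add, ← mul_add]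
    simp [sqN]
  have h4 := hρ.isPos.sqN_nonneg (x * (1 - e))
  unfold nrm
  exact Real.sqrt_le_sqrt (by linarith)

/-- The span of `M e₀ Proj(A)`. -/
def idealJ (M : VonNeumannAlgebra H) (A : StarSubalgebra ℂ (H →L[ℂ] H)) (e₀ : H →L[ℂ] H) :
    Submodule ℂ (H →L[ℂ] H) :=
  Submodule.span ℂ {k | ∃ y ∈ M, ∃ e ∈ A, IsStarProjection e ∧ k = y * e₀ * e}

lemma self_mem_idealJ (e₀ : H →L[ℂ] H) : e₀ ∈ idealJ M A e₀ := by
  apply Submodule.subset_span
  exact ⟨1, one_mem M, 1, one_mem A, IsStarProjection.one _, by simp⟩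

lemma mul_mem_idealJ {e₀ x k : H →L[ℂ] H} (hx : x ∈ M) (hk : k ∈ idealJ M A e₀) :
    x * k ∈ idealJ M A e₀ := by
  unfold idealJ at hk ⊢
  induction hk using Submodule.span_induction with
  | mem k hk =>
    obtain ⟨y, hy, e, he, hep, rfl⟩ := hk
    apply Submodule.subset_span
    exact ⟨x * y, mul_mem hx hy, e, he, hep, by simp only [mul_assoc]⟩
  | zero => simp
  | add a b _ _ ha hb => rw [mul_add]; exact add_mem ha hb
  | smul c a _ ha => rw [mul_smul_comm]; exact Submodule.smul_mem _ c ha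

lemma mem_idealJ_mul (hA : ∀ a ∈ A, ∀ b ∈ A, a * b = b * a) {e₀ e k : H →L[ℂ] H} (he : e ∈ A)
    (hep : IsStarProjection e) (hk : k ∈ idealJ M A e₀) : k * e ∈ idealJ M A e₀ := by
  unfold idealJ at hk ⊢
  induction hk using Submodule.span_induction with
  | mem k hk =>
    obtain ⟨y, hy, e', he', hep', rfl⟩ := hk
    apply Submodule.subset_span
    exact ⟨y, hy, e' * e, mul_mem he' he, hep'.mul hep (hA e' he' e he), by simp only [mul_assoc]⟩
  | zero => simp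
  | add a b _ _ ha hb => rw [add_mul]; exact add_mem ha hb
  | smul c a _ ha => rw [smul_mul_assoc]; exact Submodule.smul_mem _ c ha

lemma idealJ_le (hAM : ∀ a ∈ A, a ∈ M) {e₀ k : H →L[ℂ] H} (he₀ : e₀ ∈ M)
    (hk : k ∈ idealJ M A e₀) : k ∈ M := by
  unfold idealJ at hk
  induction hk using Submodule.span_induction with
  | mem k hk =>
    obtain ⟨y, hy, e, he, hep, rfl⟩ := hk
    exact mul_mem (mul_mem hy he₀) (hAM e he)
  | zero => exact zero_mem M
  | add a b _ _ ha hb => exact add_mem ha hb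
  | smul c a _ ha => exact M.toStarSubalgebra.smul_mem ha c

lemma re_inner_star_mul_self (z : H →L[ℂ] H) (ξ : H) :
    (⟪ξ, (star z * z) ξ⟫_ℂ).re = ‖z ξ‖ ^ 2 := by
  rw [mul_apply_eq_comp, ContinuousLinearMap.star_eq_adjoint,
    ContinuousLinearMap.adjoint_inner_right, inner_self_ofReal, Complex.ofReal_re]

/-- The generator case of `normal_of_mem_idealJ`. -/
lemma normal_of_generator (hρ : IsCentralFunctional M A ρ) (hAM : ∀ a ∈ A, a ∈ M)
    {e₀ : H →L[ℂ] H} (he₀ : e₀ ∈ M) (he₀p : IsStarProjection e₀) (F : Finset H) {C : ℝ} (hC : 0 ≤ C)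
    (hdom : ∀ w ∈ M, 0 ≤ w → e₀ * w * e₀ = w → (ρ w).re ≤ C * ∑ ξ ∈ F, (⟪ξ, w ξ⟫_ℂ).re)
    {y e : H →L[ℂ] H} (hy : y ∈ M) (he : e ∈ A) (hep : IsStarProjection e) (τ : ℝ) (hτ : 0 < τ) :
    ∃ (F' : Finset H) (δ' : ℝ), 0 < δ' ∧
      ∀ p ∈ M, IsStarProjection p → (∀ ξ ∈ F', ‖p ξ‖ < δ') → nrm ρ (p * (y * e₀ * e)) ≤ τ := by
  classical
  have hK : 0 < C * (F.card : ℝ) + 1 := by positivity
  refine ⟨F.image (fun ξ => y (e₀ ξ)), τ / Real.sqrt (C * (F.card : ℝ) + 1),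
    div_pos hτ (Real.sqrt_pos.mpr hK), ?_⟩
  intro p hp hpp hsmall
  set δ' := τ / Real.sqrt (C * (F.card : ℝ) + 1) with hδ'
  have hδsq : (C * (F.card : ℝ) + 1) * δ' ^ 2 = τ ^ 2 := by
    rw [hδ', div_pow, Real.sq_sqrt hK.le]
    field_simp
  have hδnn : 0 ≤ δ' ^ 2 := sq_nonneg _
  set z := p * y * e₀ with hz
  have hzM : z ∈ M := mul_mem (mul_mem hp hy) he₀
  have h1 : nrm ρ (p * (y * e₀ * e)) ≤ nrm ρ z := by
    have : p * (y * e₀ * e) = z * e := by rw [hz]; simp only [mul_assoc]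
    rw [this]
    exact nrm_mul_proj_le hρ hAM he hep hzM
  refine h1.trans ?_
  have hwM : star z * z ∈ M := mul_mem (star_mem hzM) hzM
  have hze : z * e₀ = z := by
    rw [hz, mul_assoc, he₀p.isIdempotentElem.eq]
  have hez : e₀ * star z = star z := by
    have := congrArg star hze
    rwa [star_mul, he₀p.isSelfAdjoint.star_eq] at this
  have hcorner : e₀ * (star z * z) * e₀ = star z * z := by
    rw [← mul_assoc, hez, mul_assoc, hze]
  have h2 := hdom _ hwM (star_mul_self_nonneg z) hcorner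
  have h3 : ∑ ξ ∈ F, (⟪ξ, (star z * z) ξ⟫_ℂ).re ≤ (F.card : ℝ) * δ' ^ 2 := by
    rw [← nsmul_eq_mul]
    apply Finset.sum_le_card_nsmul
    intro ξ hξ
    rw [re_inner_star_mul_self]
    have h4 : ‖p (y (e₀ ξ))‖ < δ' := hsmall _ (Finset.mem_image_of_mem _ hξ)
    have h5 : z ξ = p (y (e₀ ξ)) := by rw [hz]; rfl
    rw [h5]
    exact pow_le_pow_left₀ (norm_nonneg _) h4.le 2
  have h6 : sqN ρ z ≤ τ ^ 2 := by
    have h7 : sqN ρ z ≤ C * ((F.card : ℝ) * δ' ^ 2) :=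
      h2.trans (mul_le_mul_of_nonneg_left h3 hC)
    nlinarith
  unfold nrm
  exact Real.sqrt_le_iff.mpr ⟨hτ.le, h6⟩

/-- For `k ∈ J` the seminorm of `p * k` is small for projections `p ∈ M` that are strongly small. -/
theorem normal_of_mem_idealJ (hρ : IsCentralFunctional M A ρ) (hAM : ∀ a ∈ A, a ∈ M)
    {e₀ : H →L[ℂ] H} (he₀ : e₀ ∈ M) (he₀p : IsStarProjection e₀) (F : Finset H) {C : ℝ} (hC : 0 ≤ C)
    (hdom : ∀ w ∈ M, 0 ≤ w → e₀ * w * e₀ = w → (ρ w).re ≤ C * ∑ ξ ∈ F, (⟪ξ, w ξ⟫_ℂ).re)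
    {k : H →L[ℂ] H} (hk : k ∈ idealJ M A e₀) (τ : ℝ) (hτ : 0 < τ) :
    ∃ (F' : Finset H) (δ' : ℝ), 0 < δ' ∧
      ∀ p ∈ M, IsStarProjection p → (∀ ξ ∈ F', ‖p ξ‖ < δ') → nrm ρ (p * k) ≤ τ := by
  classical
  unfold idealJ at hk
  induction hk using Submodule.span_induction generalizing τ with
  | mem k hk =>
    obtain ⟨y, hy, e, he, hep, rfl⟩ := hk
    exact normal_of_generator hρ hAM he₀ he₀p F hC hdom hy he hep τ hτ
  | zero =>
    refine ⟨∅, 1, one_pos, ?_⟩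
    intro p _ _ _
    have : nrm ρ (p * 0) = 0 := by simp [nrm, sqN]
    rw [this]; exact hτ.le
  | add a b _ _ ha hb =>
    obtain ⟨Fa, δa, hδa, hFa⟩ := ha (τ / 2) (half_pos hτ)
    obtain ⟨Fb, δb, hδb, hFb⟩ := hb (τ / 2) (half_pos hτ)
    refine ⟨Fa ∪ Fb, min δa δb, lt_min hδa hδb, ?_⟩
    intro p hp hpp hsmall
    have h1 := hFa p hp hpp (fun ξ hξ =>
      (hsmall ξ (Finset.mem_union_left _ hξ)).trans_le (min_le_left _ _))
    have h2 := hFb p hp hpp (fun ξ hξ =>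
      (hsmall ξ (Finset.mem_union_right _ hξ)).trans_le (min_le_right _ _))
    rw [mul_add]
    have h3 := hρ.isPos.nrm_add_le (p * a) (p * b)
    linarith
  | smul c a _ ha =>
    have hc : 0 < ‖c‖ + 1 := by positivity
    obtain ⟨Fa, δa, hδa, hFa⟩ := ha (τ / (‖c‖ + 1)) (div_pos hτ hc)
    refine ⟨Fa, δa, hδa, ?_⟩
    intro p hp hpp hsmall
    have h1 := hFa p hp hpp hsmall
    rw [mul_smul_comm, hρ.isPos.nrm_smul]
    have h2 : ‖c‖ * nrm ρ (p * a) ≤ (‖c‖ + 1) * (τ / (‖c‖ + 1)) :=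
      mul_le_mul (by linarith) h1 (nrm_nonneg _) hc.le
    have h3 : (‖c‖ + 1) * (τ / (‖c‖ + 1)) = τ := by field_simp
    linarith

end Vale.Agent.Lib.P078
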