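import Vale.Agent.Lib.P078.Lower
import Vale.Agent.Lib.P078.Thin.Block

/-!
# P078 (subtask U6): the lower bound for thin MASAs

Blueprint (generalises `not_soPavable_refl` of `Lower.lean`, where `q` was the rank one projection onto `ξ`; reuse `norm_inner_le_of_compression`).
Let `x = 2 • q - 1` (self-adjoint, `x * x = 1`, `‖x‖ ≤ 1`), `ζ` a unit vector with `q ζ = ζ`, `f` a partition with `‖q * f b‖^2 ≤ τ`.
Suppose `x` is `(ε, r)` so-pavable; apply this to `F = {ζ} ∪ {f b ζ}` and a small `δ`; get `p`, `a`, `q₁`.  Put `y = pinching p x - a`, `‖y‖ ≤ 2`, `‖q₁ y q₁‖ ≤ ε`.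
For every `v`: `re ⟪v, pinching p x v⟫ = 2 ∑ c ‖q (p c v)‖^2 - ‖v‖^2`.
(i) `v = f b ζ`: `‖q (p c (f b ζ))‖ = ‖(q * f b) (p c (f b ζ))‖ ≤ sqrt τ ‖p c (f b ζ)‖` (`p c`, `f b` commute), so `∑ c ... ≤ τ ‖f b ζ‖^2` and
    `re ⟪v, a v⟫ ≤ (2 τ - 1 + ε) ‖v‖^2 + 4 ‖v‖ δ`.  Summing over `b` (`a` commutes with `f b`, so `⟪ζ, a ζ⟫ = ∑ b ⟪f b ζ, a (f b ζ)⟫`):
    `re ⟪ζ, a ζ⟫ ≤ 2 τ - 1 + ε + 4 J δ`, `J = card`.
(ii) `v = ζ`: `‖q (p c ζ)‖ ≥ |⟪ζ, q (p c ζ)⟫| = ‖p c ζ‖^2`, and `∑ c ‖p c ζ‖^4 ≥ (∑ c ‖p c ζ‖^2)^2 / r = 1 / r`; so `2 / r - 1 - re ⟪ζ, a ζ⟫ ≤ ε + 4 δ`.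
Together `2 / r ≤ 2 ε + 2 τ + 4 (J + 1) δ`, a contradiction for small `δ`.
-/

set_option linter.unusedSectionVars false

namespace Vale.Agent.Lib.P078

open scoped InnerProductSpace

variable {H : Type*} [NormedAddCommGroup H] [InnerProductSpace ℂ H] [CompleteSpace H]
variable {M : VonNeumannAlgebra H} {A : StarSubalgebra ℂ (H →L[ℂ] H)}

lemma isSelfAdjoint_two_smul_sub_one {q : H →L[ℂ] H} (hq : IsStarProjection q) :
    IsSelfAdjoint ((2 : ℂ) • q - 1) := by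
  refine IsSelfAdjoint.sub ?_ (IsSelfAdjoint.one _)
  rw [IsSelfAdjoint, star_smul, hq.isSelfAdjoint.star_eq]
  simp

lemma two_smul_sub_one_apply (q : H →L[ℂ] H) (v : H) :
    ((2 : ℂ) • q - 1) v = (2 : ℂ) • q v - v := by
  simp

lemma two_smul_sub_one_mul_self {q : H →L[ℂ] H} (hq : IsStarProjection q) :
    ((2 : ℂ) • q - 1) * ((2 : ℂ) • q - 1) = 1 := by
  ext v
  simp only [mul_apply_eq_comp, two_smul_sub_one_apply, one_apply_eq_self, map_sub, map_smul,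
    proj_apply_apply hq]
  module

lemma norm_two_smul_sub_one_le {q : H →L[ℂ] H} (hq : IsStarProjection q) :
    ‖(2 : ℂ) • q - 1‖ ≤ 1 := by
  have h1 : ‖star ((2 : ℂ) • q - 1) * ((2 : ℂ) • q - 1)‖
      = ‖(2 : ℂ) • q - 1‖ * ‖(2 : ℂ) • q - 1‖ := CStarRing.norm_star_mul_self
  rw [(isSelfAdjoint_two_smul_sub_one hq).star_eq, two_smul_sub_one_mul_self hq] at h1
  have h2 : ‖(1 : H →L[ℂ] H)‖ ≤ 1 := ContinuousLinearMap.norm_id_le
  nlinarith [norm_nonneg ((2 : ℂ) • q - 1)]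

/-- The quadratic form of a pinching of `2 q - 1`. -/
lemma re_inner_pinching_two_smul_sub_one {ι : Type*} [Fintype ι]
    {p : ι → H →L[ℂ] H} (hp : IsPartition A p) {q : H →L[ℂ] H} (hq : IsStarProjection q) (v : H) :
    (⟪v, pinching p ((2 : ℂ) • q - 1) v⟫_ℂ).re = 2 * ∑ c, ‖q (p c v)‖ ^ 2 - ‖v‖ ^ 2 := by
  have h1 : pinching p ((2 : ℂ) • q - 1) v = ∑ c, ((2 : ℂ) • p c (q (p c v)) - p c v) := by
    simp only [pinching, _root_.sum_apply, mul_apply_eq_comp, two_smul_sub_one_apply, map_sub,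
      map_smul]
    refine Finset.sum_congr rfl fun c _ => ?_
    rw [proj_apply_apply (hp.proj c)]
  rw [h1, Finset.sum_sub_distrib, hp.sum_apply, inner_sub_right, inner_sum, Complex.sub_re,
    inner_self_ofReal, Complex.ofReal_re, Complex.re_sum, Finset.mul_sum]
  congr 1
  refine Finset.sum_congr rfl fun c _ => ?_
  rw [inner_smul_right, ← sa_inner (hp.proj c).isSelfAdjoint, proj_inner_right hq,
    inner_self_ofReal, ← Complex.ofReal_ofNat, ← Complex.ofReal_mul, Complex.ofReal_re]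

/-- Step (ii): the lower bound for the diagonal sum at the fixed vector. -/
lemma one_div_le_sum_norm_sq {r : ℕ} (hr : 0 < r) {p : Fin r → H →L[ℂ] H} (hp : IsPartition A p)
    {q : H →L[ℂ] H} (hq : IsStarProjection q) {ζ : H} (hζ : ‖ζ‖ = 1) (hqζ : q ζ = ζ) :
    1 / (r : ℝ) ≤ ∑ c, ‖q (p c ζ)‖ ^ 2 := by
  have hr0 : (0 : ℝ) < r := by exact_mod_cast hr
  have hs : ∀ c, (‖p c ζ‖ ^ 2) ^ 2 ≤ ‖q (p c ζ)‖ ^ 2 := by
    intro c
    have h1 : ⟪ζ, q (p c ζ)⟫_ℂ = ((‖p c ζ‖ ^ 2 : ℝ) : ℂ) := by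
      rw [← sa_inner hq.isSelfAdjoint, hqζ, proj_inner_right (hp.proj c), inner_self_ofReal]
    have h2 : ‖⟪ζ, q (p c ζ)⟫_ℂ‖ ≤ ‖ζ‖ * ‖q (p c ζ)‖ := norm_inner_le_norm _ _
    rw [h1, hζ, one_mul, Complex.norm_real, Real.norm_eq_abs, abs_of_nonneg (by positivity)] at h2
    gcongr
  have hcs : (∑ c, ‖p c ζ‖ ^ 2) ^ 2 ≤ (r : ℝ) * ∑ c, (‖p c ζ‖ ^ 2) ^ 2 := by
    have := sq_sum_le_card_mul_sum_sq (s := (Finset.univ : Finset (Fin r)))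
      (f := fun c => ‖p c ζ‖ ^ 2)
    simpa using this
  rw [hp.parseval, hζ] at hcs
  have hcs' : 1 / (r : ℝ) ≤ ∑ c, (‖p c ζ‖ ^ 2) ^ 2 := by
    rw [div_le_iff₀ hr0]
    nlinarith
  exact hcs'.trans (Finset.sum_le_sum fun c _ => hs c)

/-- Step (i): the upper bound for the diagonal sum at a vector in the range of `f b`. -/
lemma sum_norm_sq_le_of_thin (hA : ∀ a ∈ A, ∀ b ∈ A, a * b = b * a) {κ : Type*} [Fintype κ]
    {p : κ → H →L[ℂ] H} (hp : IsPartition A p) {q e : H →L[ℂ] H} (heA : e ∈ A)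
    (he : IsStarProjection e) {τ : ℝ} (hτ : ‖q * e‖ ^ 2 ≤ τ) (ζ : H) :
    ∑ c, ‖q (p c (e ζ))‖ ^ 2 ≤ τ * ‖e ζ‖ ^ 2 := by
  have hs : ∀ c, ‖q (p c (e ζ))‖ ^ 2 ≤ τ * ‖p c (e ζ)‖ ^ 2 := by
    intro c
    have hcomm : e (p c (e ζ)) = p c (e ζ) := by
      have := congrArg (fun T : H →L[ℂ] H => T (e ζ)) (hA _ heA _ (hp.mem c))
      simp only [mul_apply_eq_comp] at this
      rw [this, proj_apply_apply he]
    have h1 : q (p c (e ζ)) = (q * e) (p c (e ζ)) := by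
      rw [mul_apply_eq_comp, hcomm]
    have h2 : ‖q (p c (e ζ))‖ ≤ ‖q * e‖ * ‖p c (e ζ)‖ := by
      rw [h1]
      exact (q * e).le_opNorm _
    calc ‖q (p c (e ζ))‖ ^ 2 ≤ (‖q * e‖ * ‖p c (e ζ)‖) ^ 2 := by gcongr
      _ = ‖q * e‖ ^ 2 * ‖p c (e ζ)‖ ^ 2 := mul_pow _ _ _
      _ ≤ τ * ‖p c (e ζ)‖ ^ 2 := by gcongr
  calc ∑ c, ‖q (p c (e ζ))‖ ^ 2 ≤ ∑ c, τ * ‖p c (e ζ)‖ ^ 2 :=
        Finset.sum_le_sum fun c _ => hs c
    _ = τ * ‖e ζ‖ ^ 2 := by rw [← Finset.mul_sum, hp.parseval]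

theorem not_soPavable_of_thin_proj (hA : ∀ a ∈ A, ∀ b ∈ A, a * b = b * a) {q : H →L[ℂ] H}
    (hq : IsStarProjection q) {ζ : H} (hζ : ‖ζ‖ = 1) (hqζ : q ζ = ζ) {ι : Type*} [Fintype ι]
    {f : ι → H →L[ℂ] H} (hf : IsPartition A f) {τ : ℝ} (hτ : ∀ b, ‖q * f b‖ ^ 2 ≤ τ) {r : ℕ}
    (hr : 0 < r) {ε : ℝ} (hε0 : 0 ≤ ε) (hε : ε + τ < 1 / (r : ℝ)) :
    ¬ SoPavable M A ((2 : ℂ) • q - 1) ε r := by
  classical
  intro hpav
  have hr0 : (0 : ℝ) < r := by exact_mod_cast hr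
  set x : H →L[ℂ] H := (2 : ℂ) • q - 1 with hx
  set gap : ℝ := 1 / r - ε - τ with hgap
  have hgap0 : 0 < gap := by rw [hgap]; linarith
  set J : ℝ := (Fintype.card ι : ℝ) with hJ
  have hJ0 : 0 ≤ J := by positivity
  set δ : ℝ := gap / (4 * (J + 1)) with hδ
  have hδ0 : 0 < δ := by positivity
  obtain ⟨p, a, q₁, hp, haA, hasa, hanorm, -, hq₁, hqF, hnorm⟩ :=
    hpav (insert ζ (Finset.univ.image fun j => f j ζ)) δ hδ0
  have hx1 : ‖x‖ ≤ 1 := norm_two_smul_sub_one_le hq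
  set y : H →L[ℂ] H := pinching p x - a with hy
  have hy2 : ‖y‖ ≤ 2 := by
    calc ‖y‖ ≤ ‖pinching p x‖ + ‖a‖ := norm_sub_le _ _
      _ ≤ ‖x‖ + ‖x‖ := add_le_add (hp.norm_pinching_le _) hanorm
      _ ≤ 2 := by linarith
  have hκ : ‖q₁ * y * q₁‖ ≤ ε := by
    calc ‖q₁ * y * q₁‖ ≤ ε * ‖x‖ := hnorm
      _ ≤ ε * 1 := by gcongr
      _ = ε := mul_one _
  have hK : ∀ v ∈ insert ζ (Finset.univ.image fun j => f j ζ),
      |(⟪v, y v⟫_ℂ).re| ≤ ε * ‖v‖ ^ 2 + 2 * 2 * ‖v‖ * δ := by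
    intro v hv
    exact (Complex.abs_re_le_norm _).trans
      (norm_inner_le_of_compression hq₁ hy2 hκ v (hqF v hv).le)
  have hform : ∀ v : H, (⟪v, y v⟫_ℂ).re
      = 2 * ∑ c, ‖q (p c v)‖ ^ 2 - ‖v‖ ^ 2 - (⟪v, a v⟫_ℂ).re := by
    intro v
    rw [hy, sub_apply, inner_sub_right, Complex.sub_re, hx,
      re_inner_pinching_two_smul_sub_one hp hq]
  set α : ℝ := (⟪ζ, a ζ⟫_ℂ).re with hα
  -- the vector `ζ`
  have h1 : 2 / (r : ℝ) - 1 - α ≤ ε + 4 * δ := by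
    have hk := (abs_le.mp (hK ζ (Finset.mem_insert_self _ _))).2
    rw [hform ζ, hζ] at hk
    have hcs' := one_div_le_sum_norm_sq hr hp hq hζ hqζ
    have : 2 / (r : ℝ) = 2 * (1 / r) := by ring
    rw [this]
    nlinarith
  -- the vectors `f j ζ`
  have h2 : 1 + α ≤ 2 * τ + ε + 4 * δ * J := by
    have hk : ∀ j, -(ε * ‖f j ζ‖ ^ 2 + 4 * δ) ≤
        2 * (τ * ‖f j ζ‖ ^ 2) - ‖f j ζ‖ ^ 2 - (⟪ζ, a (f j ζ)⟫_ℂ).re := by
      intro j
      have hmem : f j ζ ∈ insert ζ (Finset.univ.image fun j => f j ζ) :=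
        Finset.mem_insert_of_mem (Finset.mem_image_of_mem _ (Finset.mem_univ j))
      have hk := (abs_le.mp (hK _ hmem)).1
      rw [hform (f j ζ)] at hk
      have hn1 : ‖f j ζ‖ ≤ 1 := by
        have := proj_norm_le (hf.proj j) ζ
        rwa [hζ] at this
      have hn0 : 0 ≤ ‖f j ζ‖ := norm_nonneg _
      have hs := sum_norm_sq_le_of_thin hA hp (hf.mem j) (hf.proj j) (hτ j) ζ
      have ha : ⟪f j ζ, a (f j ζ)⟫_ℂ = ⟪ζ, a (f j ζ)⟫_ℂ := by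
        have hcomm : f j (a (f j ζ)) = a (f j ζ) := by
          have := congrArg (fun T : H →L[ℂ] H => T (f j ζ)) (hA _ (hf.mem j) _ haA)
          simp only [mul_apply_eq_comp] at this
          rw [this, proj_apply_apply (hf.proj j)]
        rw [sa_inner (hf.proj j).isSelfAdjoint, hcomm]
      rw [ha] at hk
      have hδn : 2 * 2 * ‖f j ζ‖ * δ ≤ 4 * δ := by nlinarith
      linarith
    have hsum := Finset.sum_le_sum fun j (_ : j ∈ (Finset.univ : Finset ι)) => hk j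
    have hpar := hf.parseval ζ
    rw [hζ] at hpar
    have hasum : ∑ j, (⟪ζ, a (f j ζ)⟫_ℂ).re = α := by
      rw [hα, ← Complex.re_sum, ← inner_sum, ← map_sum, hf.sum_apply]
    simp only [Finset.sum_sub_distrib, Finset.sum_neg_distrib, Finset.sum_add_distrib,
      ← Finset.mul_sum, hpar, hasum, Finset.sum_const, Finset.card_univ, nsmul_eq_mul] at hsum
    rw [← hJ] at hsum
    nlinarith
  have h3 : 4 * δ * (J + 1) = gap := by
    rw [hδ]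
    field_simp
  have h4 : 2 / (r : ℝ) = 2 * ε + 2 * τ + 2 * gap := by
    rw [hgap]
    ring
  nlinarith

/-- Over a thin commutative algebra, for `ε < 1 / r` some self-adjoint element of `M` is not `(ε, r)` so-pavable. -/
theorem exists_not_soPavable_of_thin [Nontrivial H] (hA : ∀ a ∈ A, ∀ b ∈ A, a * b = b * a)
    (hthin : IsThin M A) {r : ℕ} (hr : 0 < r) {ε : ℝ} (hε0 : 0 ≤ ε) (hε : ε < 1 / (r : ℝ)) :
    ∃ x ∈ M, IsSelfAdjoint x ∧ ¬ SoPavable M A x ε r := by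
  obtain ⟨ξ, hξ⟩ := exists_norm_eq H (zero_le_one' ℝ)
  set τ : ℝ := (1 / (r : ℝ) - ε) / 2 with hτdef
  have hτ0 : 0 < τ := by rw [hτdef]; linarith
  obtain ⟨q, n, f, hqM, hq, hF, hf, hτ⟩ :=
    hthin.exists_proj {ξ} (δ := 1 / 2) (by norm_num) hτ0
  have hqξ : ‖(1 - q) ξ‖ < 1 / 2 := hF ξ (Finset.mem_singleton_self ξ)
  have hne : q ξ ≠ 0 := by
    intro h0
    have : (1 - q) ξ = ξ := by simp [h0]
    rw [this, hξ] at hqξ
    norm_num at hqξ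
  have hn0 : ‖q ξ‖ ≠ 0 := norm_ne_zero_iff.mpr hne
  set ζ : H := ((‖q ξ‖ : ℂ)⁻¹) • q ξ with hζdef
  have hζ : ‖ζ‖ = 1 := by
    rw [hζdef, norm_smul, norm_inv, Complex.norm_real, norm_norm, inv_mul_cancel₀ hn0]
  have hqζ : q ζ = ζ := by
    rw [hζdef, map_smul, proj_apply_apply hq]
  refine ⟨(2 : ℂ) • q - 1, ?_, isSelfAdjoint_two_smul_sub_one hq, ?_⟩
  · exact sub_mem (M.toStarSubalgebra.smul_mem hqM 2) (one_mem M)
  · refine not_soPavable_of_thin_proj hA hq hζ hqζ hf hτ hr hε0 ?_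
    rw [hτdef]
    linarith

end Vale.Agent.Lib.P078
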