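import Vale.Agent.Lib.P078.Thin.Upper
import Vale.Agent.Lib.P078.Thin.Lower
import Vale.Agent.Lib.P078.Thin.Boundary
import Vale.Agent.Lib.P078.Thin.Examples

/-!
# P078: the paving number of a thin MASA of an arbitrary von Neumann algebra
-/

set_option linter.unusedSectionVars false

namespace Vale.Agent.Lib.P078

variable {H : Type*} [NormedAddCommGroup H] [InnerProductSpace ℂ H] [CompleteSpace H]
variable {M : VonNeumannAlgebra H} {A : StarSubalgebra ℂ (H →L[ℂ] H)}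

theorem le_pavingNumber_of_thin [Nontrivial H] (hM : IsMASA M A) (hthin : IsThin M A) {ε : ℝ}
    (h0 : 0 < ε) : ((⌈1 / ε⌉₊ : ℕ) : ℕ∞) ≤ pavingNumber M A ε := by
  refine le_sInf ?_
  rintro _ ⟨r, hr1, rfl, hr⟩
  rw [Nat.cast_le]
  by_contra hlt
  push Not at hlt
  have h1 : (r : ℝ) < 1 / ε := Nat.lt_ceil.mp hlt
  have hr0 : (0 : ℝ) < r := by exact_mod_cast hr1
  have h2 : ε < 1 / r := by
    rw [lt_div_iff₀ hr0]
    rw [lt_div_iff₀ h0] at h1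
    linarith
  obtain ⟨x, hxM, hx, hnot⟩ := exists_not_soPavable_of_thin (M := M) hM.2.1 hthin hr1 h0.le h2
  exact hnot (hr x hxM hx)

theorem pavingNumber_le_of_thin (hM : IsMASA M A) (hthin : IsThin M A) {ε : ℝ} (h0 : 0 < ε) :
    pavingNumber M A ε ≤ ((⌊1 / ε⌋₊ + 1 : ℕ) : ℕ∞) := by
  refine sInf_le ⟨⌊1 / ε⌋₊ + 1, by omega, rfl, ?_⟩
  intro x hxM hx
  refine soPavable_of_thin hM hthin hxM hx (by omega) ?_
  have h1 : 1 / ε < ((⌊1 / ε⌋₊ + 1 : ℕ) : ℝ) := by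
    push_cast
    exact Nat.lt_floor_add_one _
  have hr0 : (0 : ℝ) < ((⌊1 / ε⌋₊ + 1 : ℕ) : ℝ) := by positivity
  rw [div_lt_iff₀ hr0]
  rw [div_lt_iff₀ h0] at h1
  linarith

/-- The paving number of a thin MASA. -/
theorem pavingNumber_of_thin [Nontrivial H] (hM : IsMASA M A) (hthin : IsThin M A) {ε : ℝ}
    (h0 : 0 < ε) : pavingNumber M A ε = ((⌈1 / ε⌉₊ : ℕ) : ℕ∞) := by
  have hpos : 0 < 1 / ε := by positivity
  have hc1 : 1 ≤ ⌈1 / ε⌉₊ := Nat.one_le_iff_ne_zero.mpr (Nat.ceil_pos.mpr hpos).ne'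
  refine le_antisymm ?_ (le_pavingNumber_of_thin hM hthin h0)
  refine sInf_le ⟨⌈1 / ε⌉₊, hc1, rfl, ?_⟩
  intro x hxM hx
  refine (soPavable_of_thin_boundary hM hthin hxM hx hc1).mono ?_
  have h1 : 1 / ε ≤ (⌈1 / ε⌉₊ : ℝ) := Nat.le_ceil _
  have hr0 : (0 : ℝ) < (⌈1 / ε⌉₊ : ℝ) := by exact_mod_cast hc1
  rw [div_le_iff₀ hr0]
  rw [div_le_iff₀ h0] at h1
  linarith

end Vale.Agent.Lib.P078
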