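import Vale.Agent.Lib.P078.Thin.PosFunctional

/-!
# P078 (subtask V2): the projection of `1` onto a subspace `J` in the GNS seminorm, by a minimising sequence

Blueprint.
* `exists_min_seq`.  Let `d = ⨅ k ∈ J, sqN ρ (1 - k)` (infimum of a nonempty set of nonnegative reals).  Choose `j n ∈ J` with `sqN ρ (1 - j n) ≤ d + 1 / (n + 1)`.
  For `k ∈ J`, `t : ℂ`: `d ≤ sqN ρ (1 - j n - t • k) = sqN ρ (1 - j n) - 2 re (conj t * c) + ‖t‖^2 sqN ρ k` with `c = ρ (star k * (1 - j n))` (`sqN_sub_smul`), so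
  `2 re (conj t * c) - ‖t‖^2 sqN ρ k ≤ 1 / (n + 1)`.  If `sqN ρ k = 0` then `c = 0` by Cauchy-Schwarz.  Otherwise `t = c / sqN ρ k` gives `‖c‖^2 / sqN ρ k ≤ 1 / (n + 1)`.
* `nrm_sub_le_of_min_seq`: `u = j n - j m ∈ J`, `sqN ρ u = ρ (star u * (1 - j m)) - ρ (star u * (1 - j n))`, so `nrm u ^ 2 ≤ nrm u (1/sqrt (n+1) + 1/sqrt (m+1))`.
* `nrm_le_of_min_seq`: `sqN ρ (j n) = ρ (star (j n) * 1) - ρ (star (j n) * (1 - j n))`, so `nrm (j n)^2 ≤ nrm (j n) (nrm 1 + 1)`.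
* `exists_limit_functional`: by `norm_conjFun_sub_le` the sequence `conjFun ρ (j n)` is Cauchy in the Banach space `B(H) →L[ℂ] ℂ` (`cauchySeq_tendsto_of_complete`; note `1 / sqrt (n + 1) → 0`).
-/

set_option linter.unusedSectionVars false

namespace Vale.Agent.Lib.P078

open scoped InnerProductSpace ComplexConjugate

variable {H : Type*} [NormedAddCommGroup H] [InnerProductSpace ℂ H] [CompleteSpace H]
variable {ρ : (H →L[ℂ] H) →L[ℂ] ℂ}

/-- `j` is a minimising sequence for the distance from `1` to `J`, in the form of almost orthogonality. -/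
def IsMinSeq (ρ : (H →L[ℂ] H) →L[ℂ] ℂ) (J : Submodule ℂ (H →L[ℂ] H)) (j : ℕ → H →L[ℂ] H) : Prop :=
  (∀ n, j n ∈ J) ∧ ∀ n, ∀ k ∈ J, ‖ρ (star k * (1 - j n))‖ ≤ nrm ρ k / Real.sqrt (n + 1)

lemma sqrt_succ_pos (n : ℕ) : 0 < Real.sqrt ((n : ℝ) + 1) :=
  Real.sqrt_pos.mpr (by positivity)

lemma one_le_sqrt_succ (n : ℕ) : 1 ≤ Real.sqrt ((n : ℝ) + 1) := by
  rw [Real.one_le_sqrt]
  have : (0 : ℝ) ≤ n := Nat.cast_nonneg n
  linarith

/-- The key estimate: a near minimiser is almost orthogonal to `J`. -/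
lemma norm_le_of_near_min (h : IsPosFunctional ρ) {d ε : ℝ} (v k : H →L[ℂ] H)
    (hv : sqN ρ v ≤ d + ε) (hd : ∀ t : ℂ, d ≤ sqN ρ (v - t • k)) :
    ‖ρ (star k * v)‖ ^ 2 ≤ sqN ρ k * ε := by
  set c : ℂ := ρ (star k * v) with hc
  set s : ℝ := sqN ρ k with hs
  have hs0 : 0 ≤ s := h.sqN_nonneg k
  rcases hs0.eq_or_lt with hs1 | hs1
  · have h1 : ‖c‖ ≤ nrm ρ k * nrm ρ v := h.norm_apply_star_mul_le k v
    have h2 : nrm ρ k = 0 := by
      unfold nrm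
      rw [← hs, ← hs1, Real.sqrt_zero]
    rw [h2, zero_mul] at h1
    have h3 : ‖c‖ = 0 := le_antisymm h1 (norm_nonneg c)
    rw [h3, ← hs1]
    simp
  · have h1 := hd (c / (s : ℂ))
    rw [h.sqN_sub_smul, ← hc, ← hs] at h1
    have hsne : (s : ℂ) ≠ 0 := by exact_mod_cast hs1.ne'
    have h2 : (conj (c / (s : ℂ)) * c).re = ‖c‖ ^ 2 / s := by
      have : conj (c / (s : ℂ)) * c = ((‖c‖ ^ 2 / s : ℝ) : ℂ) := by
        rw [map_div₀, Complex.conj_ofReal, div_mul_eq_mul_div, Complex.conj_mul']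
        push_cast
        rfl
      rw [this, Complex.ofReal_re]
    have h3 : ‖c / (s : ℂ)‖ ^ 2 * s = ‖c‖ ^ 2 / s := by
      rw [norm_div, Complex.norm_real, Real.norm_eq_abs, abs_of_pos hs1]
      field_simp
    rw [h2, h3] at h1
    have h4 : ‖c‖ ^ 2 / s ≤ ε := by linarith
    rw [div_le_iff₀ hs1] at h4
    linarith

theorem exists_min_seq (h : IsPosFunctional ρ) (J : Submodule ℂ (H →L[ℂ] H)) :
    ∃ j : ℕ → H →L[ℂ] H, IsMinSeq ρ J j := by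
  set S : Set ℝ := {r | ∃ k ∈ J, r = sqN ρ (1 - k)} with hS
  have hne : S.Nonempty := ⟨_, 0, J.zero_mem, rfl⟩
  have hbd : BddBelow S := ⟨0, by rintro r ⟨k, -, rfl⟩; exact h.sqN_nonneg _⟩
  have hex : ∀ n : ℕ, ∃ k ∈ J, sqN ρ (1 - k) ≤ sInf S + 1 / ((n : ℝ) + 1) := by
    intro n
    obtain ⟨r, ⟨k, hk, rfl⟩, hr⟩ := Real.lt_sInf_add_pos hne (ε := 1 / ((n : ℝ) + 1)) (by positivity)
    exact ⟨k, hk, hr.le⟩
  choose j hjJ hj using hex
  refine ⟨j, hjJ, fun n k hk => ?_⟩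
  have hkey := norm_le_of_near_min h (d := sInf S) (ε := 1 / ((n : ℝ) + 1))
    (1 - j n) k (hj n) (fun t => by
      apply csInf_le hbd
      refine ⟨j n + t • k, J.add_mem (hjJ n) (J.smul_mem t hk), ?_⟩
      rw [sub_sub])
  have h1 : ‖ρ (star k * (1 - j n))‖ ≤ Real.sqrt (sqN ρ k * (1 / ((n : ℝ) + 1))) :=
    Real.le_sqrt_of_sq_le hkey
  rw [mul_one_div, Real.sqrt_div (h.sqN_nonneg k)] at h1
  exact h1

lemma le_of_sq_le_mul {a b : ℝ} (ha : 0 ≤ a) (hb : 0 ≤ b) (h : a ^ 2 ≤ a * b) : a ≤ b := by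
  rcases ha.eq_or_lt with h0 | h0
  · rw [← h0]; exact hb
  · have : a * a ≤ a * b := by rw [← sq]; exact h
    exact le_of_mul_le_mul_left this h0

lemma nrm_sub_le_of_min_seq (h : IsPosFunctional ρ) {J : Submodule ℂ (H →L[ℂ] H)}
    {j : ℕ → H →L[ℂ] H} (hj : IsMinSeq ρ J j) (n m : ℕ) :
    nrm ρ (j n - j m) ≤ 1 / Real.sqrt (n + 1) + 1 / Real.sqrt (m + 1) := by
  set u := j n - j m with hu
  have huJ : u ∈ J := J.sub_mem (hj.1 n) (hj.1 m)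
  have h1 := hj.2 n u huJ
  have h2 := hj.2 m u huJ
  have h3 : ρ (star u * u) = ρ (star u * (1 - j m)) - ρ (star u * (1 - j n)) := by
    rw [← map_sub, ← mul_sub]
    congr 2
    rw [hu]
    abel
  have h4 : sqN ρ u ≤ ‖ρ (star u * u)‖ := Complex.re_le_norm _
  have h5 : ‖ρ (star u * u)‖ ≤ nrm ρ u / Real.sqrt (m + 1) + nrm ρ u / Real.sqrt (n + 1) := by
    rw [h3]
    exact (norm_sub_le _ _).trans (add_le_add h2 h1)
  apply le_of_sq_le_mul (nrm_nonneg u) (by positivity)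
  rw [h.nrm_sq]
  calc sqN ρ u ≤ nrm ρ u / Real.sqrt (m + 1) + nrm ρ u / Real.sqrt (n + 1) := h4.trans h5
    _ = nrm ρ u * (1 / Real.sqrt (n + 1) + 1 / Real.sqrt (m + 1)) := by ring

lemma nrm_le_of_min_seq (h : IsPosFunctional ρ) {J : Submodule ℂ (H →L[ℂ] H)}
    {j : ℕ → H →L[ℂ] H} (hj : IsMinSeq ρ J j) (n : ℕ) :
    nrm ρ (j n) ≤ nrm ρ 1 + 1 := by
  have h1 := hj.2 n (j n) (hj.1 n)
  have h2 : ‖ρ (star (j n) * 1)‖ ≤ nrm ρ (j n) * nrm ρ 1 := h.norm_apply_star_mul_le _ _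
  have h3 : ρ (star (j n) * j n) = ρ (star (j n) * 1) - ρ (star (j n) * (1 - j n)) := by
    rw [← map_sub, ← mul_sub]
    congr 2
    abel
  have h4 : sqN ρ (j n) ≤ ‖ρ (star (j n) * j n)‖ := Complex.re_le_norm _
  have h5 : nrm ρ (j n) / Real.sqrt (n + 1) ≤ nrm ρ (j n) :=
    div_le_self (nrm_nonneg _) (one_le_sqrt_succ n)
  apply le_of_sq_le_mul (nrm_nonneg _) (add_nonneg (nrm_nonneg _) zero_le_one)
  rw [h.nrm_sq]
  calc sqN ρ (j n) ≤ ‖ρ (star (j n) * j n)‖ := h4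
    _ ≤ ‖ρ (star (j n) * 1)‖ + ‖ρ (star (j n) * (1 - j n))‖ := by rw [h3]; exact norm_sub_le _ _
    _ ≤ nrm ρ (j n) * nrm ρ 1 + nrm ρ (j n) := add_le_add h2 (h1.trans h5)
    _ = nrm ρ (j n) * (nrm ρ 1 + 1) := by ring

lemma tendsto_const_mul_inv_sqrt (C : ℝ) :
    Filter.Tendsto (fun N : ℕ => C * (2 / Real.sqrt ((N : ℝ) + 1))) Filter.atTop (nhds 0) := by
  have h1 : Filter.Tendsto (fun N : ℕ => Real.sqrt ((N : ℝ) + 1)) Filter.atTop Filter.atTop :=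
    Real.tendsto_sqrt_atTop.comp
      (Filter.tendsto_atTop_add_const_right _ 1 tendsto_natCast_atTop_atTop)
  have h2 := (h1.const_div_atTop 2).const_mul C
  rwa [mul_zero] at h2

theorem exists_limit_functional (h : IsPosFunctional ρ) {J : Submodule ℂ (H →L[ℂ] H)}
    {j : ℕ → H →L[ℂ] H} (hj : IsMinSeq ρ J j) :
    ∃ ψ : (H →L[ℂ] H) →L[ℂ] ℂ, IsPosFunctional ψ ∧
      Filter.Tendsto (fun n => conjFun ρ (j n)) Filter.atTop (nhds ψ) := by
  have hC : CauchySeq (fun n => conjFun ρ (j n)) := by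
    refine cauchySeq_of_le_tendsto_0
      (fun N : ℕ => (2 * (nrm ρ 1 + 1)) * (2 / Real.sqrt ((N : ℝ) + 1))) ?_
      (tendsto_const_mul_inv_sqrt _)
    intro n m N hn hm
    rw [dist_eq_norm]
    have hmono : ∀ i : ℕ, N ≤ i → 1 / Real.sqrt ((i : ℝ) + 1) ≤ 1 / Real.sqrt ((N : ℝ) + 1) := by
      intro i hi
      apply one_div_le_one_div_of_le (sqrt_succ_pos N)
      apply Real.sqrt_le_sqrt
      have : (N : ℝ) ≤ i := by exact_mod_cast hi
      linarith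
    have h1 := h.norm_conjFun_sub_le (j n) (j m)
    have h2 := nrm_sub_le_of_min_seq h hj n m
    have h3 : nrm ρ (j n - j m) ≤ 2 / Real.sqrt ((N : ℝ) + 1) := by
      have := add_le_add (hmono n hn) (hmono m hm)
      calc nrm ρ (j n - j m) ≤ _ := h2
        _ ≤ 1 / Real.sqrt ((N : ℝ) + 1) + 1 / Real.sqrt ((N : ℝ) + 1) := this
        _ = 2 / Real.sqrt ((N : ℝ) + 1) := by ring
    have h4 : nrm ρ (j n) + nrm ρ (j m) ≤ 2 * (nrm ρ 1 + 1) := by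
      have := add_le_add (nrm_le_of_min_seq h hj n) (nrm_le_of_min_seq h hj m)
      linarith
    exact h1.trans (mul_le_mul h4 h3 (nrm_nonneg _)
      (by have := nrm_nonneg (ρ := ρ) (1 : H →L[ℂ] H); linarith))
  obtain ⟨ψ, hψ⟩ := cauchySeq_tendsto_of_complete hC
  exact ⟨ψ, IsPosFunctional.of_tendsto (fun n => h.isPos_conjFun (j n)) hψ, hψ⟩

end Vale.Agent.Lib.P078
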