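import Vale.Agent.Lib.P078.Thin.MinSeq
import Vale.Agent.Lib.P078.Thin.IdealJ
import Vale.Agent.Lib.P078.Thin.ChainSup
import Vale.Agent.Lib.P078.Thin.CornerDom

/-!
# P078 (subtasks V6, V7): a non-singular `A`-central positive functional dominates-in-spirit a nonzero normal `A`-central one

Throughout `J = idealJ M A e₀`, `j` a minimising sequence (`IsMinSeq ρ J j`), `ψ = lim conjFun ρ (j n)`.

Blueprint.
* `tendsto_apply_star_mul` (Claim 1).  For `w ∈ M`: `ρ (star (j n) * w * j n) - ρ (star (j n) * w) = -ρ (star k * (1 - j n))` with `k = star w * j n ∈ J` (`mul_mem_idealJ`), of modulus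
  `≤ nrm k / sqrt (n + 1) ≤ ‖w‖ (nrm 1 + 1) / sqrt (n + 1) → 0`.  And `conjFun ρ (j n) w → ψ w`.
* `nrm_comm_le` (Claim 2).  `u = e * j n - j n * e ∈ J` (and `∈ M`).  `sqN ρ u = ρ (star u * e * j n) - ρ (star u * j n * e)`.
  `ρ (star u * e * j n) = ρ (star k₁ * j n) = ρ (star k₁) - ρ (star k₁ * (1 - j n))`, `k₁ = e * u ∈ J`.
  `ρ (star u * j n * e) = ρ (e * (star u * j n))` (centrality, element `star u * j n ∈ M`) `= ρ (star k₂ * j n) = ρ (star k₂) - ρ (star k₂ * (1 - j n))`, `k₂ = u * e ∈ J`.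
  `ρ (star k₁) = ρ (star u * e) = ρ (e * star u) = ρ (star k₂)` (centrality, element `star u ∈ M`).  `nrm k₁ ≤ nrm u` (`nrm_mul_le`, `‖e‖ ≤ 1`), `nrm k₂ ≤ nrm u` (`nrm_mul_proj_le`).
  Hence `nrm u ^ 2 ≤ 2 nrm u / sqrt (n + 1)`.
* `central_limit` (Claim 3).  `ψ (e * x) - ψ (x * e) = lim (ρ (star (j n) * (e * x)) - ρ (star (j n) * (x * e)))` by Claim 1; `ρ (star (j n) * x * e) = ρ (e * (star (j n) * x))` by centrality, so the difference is
  `ρ (star u * x)` with `u = e * j n - j n * e`, of modulus `≤ nrm u * nrm x ≤ 2 nrm x / sqrt (n + 1) → 0`.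
* `normal_limit`.  Given `τ`, choose `n` with `‖ψ - conjFun ρ (j n)‖ ≤ τ / 2`, and `F'`, `δ'` from `normal_of_mem_idealJ` for `k = j n` and `sqrt (τ / 2)`.  For a projection `p`: `conjFun ρ (j n) p = ρ (star (p * j n) * (p * j n))`, real part `sqN ρ (p * j n) ≤ τ / 2`;
  `re ψ p ≤ re (conjFun ρ (j n) p) + ‖ψ - conjFun ρ (j n)‖ ‖p‖`, `‖p‖ ≤ 1`.
* `limit_one_ne_zero`.  `‖ρ (star e₀ * j n)‖^2 ≤ sqN ρ e₀ * sqN ρ (j n)`, `sqN ρ (j n) = re (conjFun ρ (j n) 1) → re (ψ 1)`, `ρ (star e₀ * j n) → ρ (star e₀ * 1) = ρ e₀` (`IsMinSeq` with `k = e₀`).  If `ψ 1 = 0` then `ρ e₀ = 0`.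
* `exists_normal_central`.  Assemble.
* `allCentralSingular_of_noNormalCentral`.  Let `ρ` be central and not singular: there are `F`, `δ`, `τ` with `τ < re (ρ q)` for all projections `q ∈ M` with `‖(1 - q) ξ‖ < δ` on `F`.  Let `C = (re (ρ 1) + 1) / δ^2`.
  `exists_dominated_corner` gives `p`; `C ‖p ξ‖^2 ≤ re (ρ p) ≤ re (ρ 1)` so `‖p ξ‖ < δ`.  `e₀ = 1 - p`, `re (ρ e₀) > τ > 0`; `corner_dominated` gives `hdom`; `exists_normal_central` contradicts the hypothesis.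
* `noNormalCentral_of_allCentralSingular`.  If `ρ` is central, singular and normal: for `τ > 0` take `F`, `δ` from normality, `q` from singularity; `re ρ 1 = re ρ q + re ρ (1 - q) ≤ 2 τ`.  So `re ρ 1 ≤ 0`; with positivity (`x = 1`) `ρ 1 = 0`.
-/

set_option linter.unusedSectionVars false

namespace Vale.Agent.Lib.P078

open scoped InnerProductSpace
open Filter

variable {H : Type*} [NormedAddCommGroup H] [InnerProductSpace ℂ H] [CompleteSpace H]
variable {M : VonNeumannAlgebra H} {A : StarSubalgebra ℂ (H →L[ℂ] H)}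
variable {ρ ψ : (H →L[ℂ] H) →L[ℂ] ℂ} {e₀ : H →L[ℂ] H} {j : ℕ → H →L[ℂ] H}

lemma tendsto_const_div_sqrt (c : ℝ) :
    Tendsto (fun n : ℕ => c / Real.sqrt (n + 1)) atTop (nhds 0) := by
  apply Tendsto.div_atTop tendsto_const_nhds
  apply Real.tendsto_sqrt_atTop.comp
  exact tendsto_atTop_add_const_right _ _ tendsto_natCast_atTop_atTop

lemma tendsto_apply_star_mul (hρ : IsPosFunctional ρ) (hj : IsMinSeq ρ (idealJ M A e₀) j)
    (hψ : Tendsto (fun n => conjFun ρ (j n)) atTop (nhds ψ)) {w : H →L[ℂ] H} (hw : w ∈ M) :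
    Tendsto (fun n => ρ (star (j n) * w)) atTop (nhds (ψ w)) := by
  have h1 : Tendsto (fun n => conjFun ρ (j n) w) atTop (nhds (ψ w)) :=
    ((ContinuousLinearMap.apply ℂ ℂ w).continuous.tendsto ψ).comp hψ
  have h2 : ∀ n, ρ (star (j n) * w) =
      conjFun ρ (j n) w + ρ (star (star w * j n) * (1 - j n)) := by
    intro n
    rw [conjFun_apply, ← map_add]
    congr 1
    rw [star_mul, star_star, mul_sub, mul_one]
    abel
  have h3 : Tendsto (fun n => ρ (star (star w * j n) * (1 - j n))) atTop (nhds 0) := by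
    apply squeeze_zero_norm _ (tendsto_const_div_sqrt (‖star w‖ * (nrm ρ 1 + 1)))
    intro n
    have h4 := hj.2 n (star w * j n) (mul_mem_idealJ (star_mem hw) (hj.1 n))
    refine h4.trans ?_
    gcongr
    calc nrm ρ (star w * j n) ≤ ‖star w‖ * nrm ρ (j n) := hρ.nrm_mul_le _ _
      _ ≤ ‖star w‖ * (nrm ρ 1 + 1) := by
          gcongr
          exact nrm_le_of_min_seq hρ hj n
  simp only [h2]
  simpa using h1.add h3

lemma nrm_comm_le (hρ : IsCentralFunctional M A ρ) (hAM : ∀ a ∈ A, a ∈ M)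
    (hA : ∀ a ∈ A, ∀ b ∈ A, a * b = b * a) (he₀ : e₀ ∈ M)
    (hj : IsMinSeq ρ (idealJ M A e₀) j) {e : H →L[ℂ] H} (he : e ∈ A) (hep : IsStarProjection e)
    (n : ℕ) : nrm ρ (e * j n - j n * e) ≤ 2 / Real.sqrt (n + 1) := by
  have hpos := hρ.isPos
  set u : H →L[ℂ] H := e * j n - j n * e with hu
  have hes : star e = e := hep.isSelfAdjoint.star_eq
  have huJ : u ∈ idealJ M A e₀ :=
    Submodule.sub_mem _ (mul_mem_idealJ (hAM e he) (hj.1 n)) (mem_idealJ_mul hA he hep (hj.1 n))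
  have huM : u ∈ M := idealJ_le hAM he₀ huJ
  have hjM : j n ∈ M := idealJ_le hAM he₀ (hj.1 n)
  have hk1 : e * u ∈ idealJ M A e₀ := mul_mem_idealJ (hAM e he) huJ
  have hk2 : u * e ∈ idealJ M A e₀ := mem_idealJ_mul hA he hep huJ
  have hs : 0 < Real.sqrt ((n : ℝ) + 1) := by positivity
  -- the two terms
  have hT1 : ρ (star u * (e * j n)) = ρ (star u * e) - ρ (star (e * u) * (1 - j n)) := by
    rw [← map_sub]
    congr 1
    rw [star_mul, hes, mul_sub, mul_one, mul_assoc]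
    abel
  have hT2 : ρ (star u * (j n * e)) = ρ (star u * e) - ρ (star (u * e) * (1 - j n)) := by
    have h1 : ρ (star u * (j n * e)) = ρ (e * (star u * j n)) := by
      rw [hρ.central e he hep (star u * j n) (M.toStarSubalgebra.mul_mem (star_mem (S := VonNeumannAlgebra H) huM) hjM),
        mul_assoc]
    have h2 : ρ (star u * e) = ρ (e * star u) := (hρ.central e he hep (star u) (star_mem huM)).symm
    rw [h1, h2, ← map_sub]
    congr 1
    rw [star_mul, hes, mul_sub, mul_one, mul_assoc]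
    abel
  have hsq : ρ (star u * u) = ρ (star (u * e) * (1 - j n)) - ρ (star (e * u) * (1 - j n)) := by
    have : star u * u = star u * (e * j n) - star u * (j n * e) := by
      rw [← mul_sub]
    rw [this, map_sub, hT1, hT2]
    ring
  have hb1 : ‖ρ (star (e * u) * (1 - j n))‖ ≤ nrm ρ u / Real.sqrt (n + 1) := by
    refine (hj.2 n _ hk1).trans ?_
    gcongr
    calc nrm ρ (e * u) ≤ ‖e‖ * nrm ρ u := hpos.nrm_mul_le _ _
      _ ≤ 1 * nrm ρ u := by
          gcongr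
          · exact nrm_nonneg _
          · exact hep.norm_le
      _ = nrm ρ u := one_mul _
  have hb2 : ‖ρ (star (u * e) * (1 - j n))‖ ≤ nrm ρ u / Real.sqrt (n + 1) := by
    refine (hj.2 n _ hk2).trans ?_
    gcongr
    exact nrm_mul_proj_le hρ hAM he hep huM
  have hmain : nrm ρ u ^ 2 ≤ nrm ρ u * (2 / Real.sqrt (n + 1)) := by
    rw [hpos.nrm_sq, sqN]
    calc (ρ (star u * u)).re ≤ ‖ρ (star u * u)‖ := Complex.re_le_norm _
      _ ≤ ‖ρ (star (u * e) * (1 - j n))‖ + ‖ρ (star (e * u) * (1 - j n))‖ := by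
          rw [hsq]; exact norm_sub_le _ _
      _ ≤ nrm ρ u / Real.sqrt (n + 1) + nrm ρ u / Real.sqrt (n + 1) := add_le_add hb2 hb1
      _ = nrm ρ u * (2 / Real.sqrt (n + 1)) := by ring
  rcases (nrm_nonneg (ρ := ρ) u).eq_or_lt with h0 | h0
  · rw [← h0]; positivity
  · rw [sq] at hmain
    exact le_of_mul_le_mul_left hmain h0

lemma central_limit (hρ : IsCentralFunctional M A ρ) (hAM : ∀ a ∈ A, a ∈ M)
    (hA : ∀ a ∈ A, ∀ b ∈ A, a * b = b * a) (he₀ : e₀ ∈ M)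
    (hj : IsMinSeq ρ (idealJ M A e₀) j)
    (hψ : Tendsto (fun n => conjFun ρ (j n)) atTop (nhds ψ)) {e : H →L[ℂ] H} (he : e ∈ A)
    (hep : IsStarProjection e) {x : H →L[ℂ] H} (hx : x ∈ M) : ψ (e * x) = ψ (x * e) := by
  have hpos := hρ.isPos
  have hes : star e = e := hep.isSelfAdjoint.star_eq
  have heM := hAM e he
  have h1 := tendsto_apply_star_mul hpos hj hψ (M.toStarSubalgebra.mul_mem heM hx)
  have h2 := tendsto_apply_star_mul hpos hj hψ (M.toStarSubalgebra.mul_mem hx heM)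
  have h3 := h1.sub h2
  have h4 : ∀ n, ρ (star (j n) * (e * x)) - ρ (star (j n) * (x * e)) =
      ρ (star (e * j n - j n * e) * x) := by
    intro n
    have hjM : j n ∈ M := idealJ_le hAM he₀ (hj.1 n)
    have h5 : ρ (star (j n) * (x * e)) = ρ (e * (star (j n) * x)) := by
      rw [hρ.central e he hep (star (j n) * x) (M.toStarSubalgebra.mul_mem (star_mem (S := VonNeumannAlgebra H) hjM) hx),
        mul_assoc]
    rw [h5, ← map_sub]
    congr 1
    rw [star_sub, star_mul, star_mul, hes, sub_mul]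
    simp only [mul_assoc]
  have h6 : Tendsto (fun n => ρ (star (e * j n - j n * e) * x)) atTop (nhds 0) := by
    apply squeeze_zero_norm _ (tendsto_const_div_sqrt (2 * nrm ρ x))
    intro n
    calc ‖ρ (star (e * j n - j n * e) * x)‖ ≤ nrm ρ (e * j n - j n * e) * nrm ρ x :=
          hpos.norm_apply_star_mul_le _ _
      _ ≤ 2 / Real.sqrt (n + 1) * nrm ρ x := by
          gcongr
          · exact nrm_nonneg _
          · exact nrm_comm_le hρ hAM hA he₀ hj he hep n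
      _ = 2 * nrm ρ x / Real.sqrt (n + 1) := by ring
  simp only [h4] at h3
  have h7 := tendsto_nhds_unique h3 h6
  exact sub_eq_zero.mp h7

lemma conjFun_proj_re {p : H →L[ℂ] H} (hp : IsStarProjection p) (k : H →L[ℂ] H) :
    (conjFun ρ k p).re = sqN ρ (p * k) := by
  rw [conjFun_apply, sqN, star_mul, hp.isSelfAdjoint.star_eq]
  congr 2
  rw [mul_assoc, mul_assoc, ← mul_assoc p p k, hp.isIdempotentElem.eq]

lemma normal_limit (hρ : IsCentralFunctional M A ρ) (hAM : ∀ a ∈ A, a ∈ M)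
    (he₀ : e₀ ∈ M) (he₀p : IsStarProjection e₀) (F : Finset H) {C : ℝ} (hC : 0 ≤ C)
    (hdom : ∀ w ∈ M, 0 ≤ w → e₀ * w * e₀ = w → (ρ w).re ≤ C * ∑ ξ ∈ F, (⟪ξ, w ξ⟫_ℂ).re)
    (hj : IsMinSeq ρ (idealJ M A e₀) j)
    (hψ : Tendsto (fun n => conjFun ρ (j n)) atTop (nhds ψ)) : IsNormalOn M ψ := by
  intro τ hτ
  obtain ⟨N, hN⟩ := Metric.tendsto_atTop.mp hψ (τ / 2) (by positivity)
  have hN' := hN N le_rfl
  rw [dist_eq_norm] at hN'
  obtain ⟨F', δ', hδ', hF'⟩ := normal_of_mem_idealJ hρ hAM he₀ he₀p F hC hdom (hj.1 N)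
    (Real.sqrt (τ / 2)) (by positivity)
  refine ⟨F', δ', hδ', fun p hpM hp hsmall => ?_⟩
  have h1 := hF' p hpM hp hsmall
  have h2 : sqN ρ (p * j N) ≤ τ / 2 := by
    rw [← hρ.isPos.nrm_sq]
    calc nrm ρ (p * j N) ^ 2 ≤ Real.sqrt (τ / 2) ^ 2 := by
          gcongr
          exact nrm_nonneg _
      _ = τ / 2 := Real.sq_sqrt (by positivity)
  have h3 : ‖(conjFun ρ (j N) - ψ) p‖ ≤ τ / 2 := by
    calc ‖(conjFun ρ (j N) - ψ) p‖ ≤ ‖conjFun ρ (j N) - ψ‖ * ‖p‖ :=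
          ContinuousLinearMap.le_opNorm _ _
      _ ≤ τ / 2 * 1 := by
          gcongr
          exact hp.norm_le
      _ = τ / 2 := mul_one _
  have h4 : (ψ p).re = (conjFun ρ (j N) p).re - ((conjFun ρ (j N) - ψ) p).re := by
    simp
  have h5 : -((conjFun ρ (j N) - ψ) p).re ≤ ‖(conjFun ρ (j N) - ψ) p‖ := by
    have := Complex.abs_re_le_norm ((conjFun ρ (j N) - ψ) p)
    have h6 := neg_abs_le ((conjFun ρ (j N) - ψ) p).re
    linarith
  rw [h4, conjFun_proj_re hp]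
  linarith

lemma limit_one_ne_zero (hρ : IsPosFunctional ρ) (he₀p : IsStarProjection e₀)
    (hpos : 0 < (ρ e₀).re) (hj : IsMinSeq ρ (idealJ M A e₀) j)
    (hψ : Tendsto (fun n => conjFun ρ (j n)) atTop (nhds ψ)) : ψ 1 ≠ 0 := by
  intro h0
  -- `sqN ρ (j n) → 0`
  have h1 : Tendsto (fun n => (conjFun ρ (j n) 1).re) atTop (nhds (ψ 1).re) := by
    have h2 : Tendsto (fun n => conjFun ρ (j n) 1) atTop (nhds (ψ 1)) :=
      ((ContinuousLinearMap.apply ℂ ℂ (1 : H →L[ℂ] H)).continuous.tendsto ψ).comp hψ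
    exact (Complex.continuous_re.tendsto _).comp h2
  have h3 : ∀ n, (conjFun ρ (j n) 1).re = sqN ρ (j n) := by
    intro n
    rw [conjFun_apply, mul_one, sqN]
  simp only [h3, h0, Complex.zero_re] at h1
  have h4 : Tendsto (fun n => nrm ρ (j n)) atTop (nhds 0) := by
    have := (Real.continuous_sqrt.tendsto 0).comp h1
    simpa [nrm, Function.comp_def] using this
  -- the bound
  have h5 : ∀ n : ℕ, (ρ e₀).re ≤ nrm ρ e₀ * nrm ρ (j n) + nrm ρ e₀ / Real.sqrt (n + 1) := by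
    intro n
    have h6 := hj.2 n e₀ (self_mem_idealJ e₀)
    have h7 := hρ.norm_apply_star_mul_le e₀ (j n)
    have h8 : ρ e₀ = ρ (star e₀ * j n) + ρ (star e₀ * (1 - j n)) := by
      rw [← map_add, ← mul_add, add_sub_cancel, mul_one, he₀p.isSelfAdjoint.star_eq]
    calc (ρ e₀).re ≤ ‖ρ e₀‖ := Complex.re_le_norm _
      _ ≤ ‖ρ (star e₀ * j n)‖ + ‖ρ (star e₀ * (1 - j n))‖ := by
          rw [h8]; exact norm_add_le _ _
      _ ≤ _ := add_le_add h7 h6
  have h9 : Tendsto (fun n : ℕ => nrm ρ e₀ * nrm ρ (j n) + nrm ρ e₀ / Real.sqrt (n + 1)) atTop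
      (nhds (nrm ρ e₀ * 0 + 0)) := by
    refine (h4.const_mul _).add ?_
    apply Tendsto.div_atTop tendsto_const_nhds
    apply Real.tendsto_sqrt_atTop.comp
    exact tendsto_atTop_add_const_right _ _ tendsto_natCast_atTop_atTop
  have h10 := ge_of_tendsto' h9 h5
  simp at h10
  linarith

theorem exists_normal_central (hρ : IsCentralFunctional M A ρ) (hAM : ∀ a ∈ A, a ∈ M)
    (hA : ∀ a ∈ A, ∀ b ∈ A, a * b = b * a)
    (he₀ : e₀ ∈ M) (he₀p : IsStarProjection e₀) (hpos : 0 < (ρ e₀).re)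
    (F : Finset H) {C : ℝ} (hC : 0 ≤ C)
    (hdom : ∀ w ∈ M, 0 ≤ w → e₀ * w * e₀ = w → (ρ w).re ≤ C * ∑ ξ ∈ F, (⟪ξ, w ξ⟫_ℂ).re) :
    ∃ ψ : (H →L[ℂ] H) →L[ℂ] ℂ, IsCentralFunctional M A ψ ∧ IsNormalOn M ψ ∧ ψ 1 ≠ 0 := by
  obtain ⟨j, hj⟩ := exists_min_seq hρ.isPos (idealJ M A e₀)
  obtain ⟨ψ, hψpos, hψ⟩ := exists_limit_functional hρ.isPos hj
  exact ⟨ψ, ⟨hψpos, fun e he hep x hx => central_limit hρ hAM hA he₀ hj hψ he hep hx⟩,
    normal_limit hρ hAM he₀ he₀p F hC hdom hj hψ, limit_one_ne_zero hρ.isPos he₀p hpos hj hψ⟩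

theorem allCentralSingular_of_noNormalCentral (hAM : ∀ a ∈ A, a ∈ M)
    (hA : ∀ a ∈ A, ∀ b ∈ A, a * b = b * a) (h : NoNormalCentral M A) :
    AllCentralSingular M A := by
  intro ρ hρ
  by_contra hns
  unfold IsSingularOn at hns
  push Not at hns
  obtain ⟨F, δ, τ, hδ, hτ, hq⟩ := hns
  have hpos := hρ.isPos
  have h1 : 0 ≤ (ρ 1).re := by
    have := (hρ.pos 1).1
    simpa using this
  set C : ℝ := ((ρ 1).re + 1) / δ ^ 2 with hCdef
  have hC : 0 < C := by positivity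
  obtain ⟨p, hpM, hp, hdom1, hdom2⟩ := exists_dominated_corner (M := M) hpos F hC.le
  have hp1 : (ρ p).re ≤ (ρ 1).re := by
    apply hpos.mono
    have := hp.one_sub.nonneg
    exact sub_nonneg.mp this
  have hsmall : ∀ ξ ∈ F, ‖(1 - (1 - p)) ξ‖ < δ := by
    intro ξ hξ
    have h2 : ‖p ξ‖ ^ 2 ≤ ∑ ξ ∈ F, ‖p ξ‖ ^ 2 :=
      Finset.single_le_sum (f := fun ξ => ‖p ξ‖ ^ 2) (fun _ _ => by positivity) hξ
    have h3 : C * ‖p ξ‖ ^ 2 ≤ (ρ 1).re := by
      calc C * ‖p ξ‖ ^ 2 ≤ C * ∑ ξ ∈ F, ‖p ξ‖ ^ 2 := by gcongr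
        _ ≤ (ρ p).re := hdom1
        _ ≤ (ρ 1).re := hp1
    have h4 : ‖p ξ‖ ^ 2 < δ ^ 2 := by
      rw [hCdef, div_mul_eq_mul_div, div_le_iff₀ (by positivity)] at h3
      by_contra hc
      push Not at hc
      nlinarith [sq_nonneg δ, sq_nonneg ‖p ξ‖]
    have h5 : (1 - (1 - p)) = p := by abel
    rw [h5]
    exact lt_of_pow_lt_pow_left₀ 2 hδ.le h4
  have he₀M : (1 - p) ∈ M := M.toStarSubalgebra.sub_mem (M.toStarSubalgebra.one_mem) hpM
  have hbig := hq (1 - p) he₀M hp.one_sub hsmall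
  have hdom := corner_dominated (M := M) hpos hp.one_sub F hC.le (by
    intro p' hp'M hp' hpp
    apply hdom2 p' hp'M hp'
    simpa using hpp)
  obtain ⟨ψ, hψc, hψn, hψ1⟩ := exists_normal_central hρ hAM hA he₀M hp.one_sub
    (lt_trans hτ hbig) F hC.le hdom
  exact hψ1 (h ψ hψc hψn)

theorem noNormalCentral_of_allCentralSingular (h : AllCentralSingular M A) :
    NoNormalCentral M A := by
  intro ρ hρ hn
  have hs := h ρ hρ
  have h1 := hρ.pos 1
  simp only [star_one, mul_one] at h1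
  have hle : ∀ τ : ℝ, 0 < τ → (ρ 1).re ≤ 2 * τ := by
    intro τ hτ
    obtain ⟨F, δ, hδ, hF⟩ := hn τ hτ
    obtain ⟨q, hqM, hq, hqF, hqτ⟩ := hs F δ τ hδ hτ
    have h2 := hF (1 - q) (M.toStarSubalgebra.sub_mem (M.toStarSubalgebra.one_mem) hqM)
      hq.one_sub hqF
    have h3 : ρ 1 = ρ q + ρ (1 - q) := by rw [← map_add]; congr 1; abel
    rw [h3, Complex.add_re]
    linarith
  have h0 : (ρ 1).re ≤ 0 := by
    by_contra hc
    push Not at hc
    have := hle ((ρ 1).re / 4) (by linarith)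
    linarith
  apply Complex.ext
  · simp only [Complex.zero_re]; linarith [h1.1]
  · simpa using h1.2

end Vale.Agent.Lib.P078
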