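import Vale.Agent.Lib.P078.Thin.ChainSup
import Vale.Agent.Lib.P078.Thin.StateDefs

/-!
# P078 (subtask W6): the largest projection of `A` on which all normal `A`-central positive functionals vanish

Blueprint.  Call a projection `f ∈ A` null if `ρ f = 0` for every `ρ` with `IsCentralFunctional M A ρ` and `IsNormalOn M ρ`.  Order: `f ≤ f' ↔ f' * f = f`.  `0` is null.
* Chains.  Let `C` be a nonempty chain of null projections and `P` its supremum in `M` (`chain_sup`).  `P ∈ A`: for `a ∈ A`, `ξ : H`, `η > 0` choose `p ∈ C` with `‖P ξ - p ξ‖ ≤ η`, `‖P (a ξ) - p (a ξ)‖ ≤ η`; as `a p = p a`,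
  `‖a (P ξ) - P (a ξ)‖ ≤ (‖a‖ + 1) η`; so `a P = P a`, and `P ∈ A` by maximality.  `P` is null: for `τ > 0` take `F`, `δ` from normality of `ρ`, `p ∈ C` with `‖P ξ - p ξ‖ ≤ δ / 2` on `F`; `P - p` is a projection of `M` (`P p = p`), so
  `re ρ P = re ρ (P - p) + re ρ p ≤ τ`.  With positivity (`P = star P * P`) `ρ P = 0`.
* Zorn (`zorn_le₀` or `exists_maximal_of_chains_bounded` as in `ChainSup.lean` / `Fine.lean`) gives a maximal null projection `e`.
* If `f` is null then `g = e + f - e * f = e + (1 - e) * f` is a projection of `A`, `g * e = e`, and `ρ g = ρ e + ρ ((1 - e) f)` with `0 ≤ (1 - e) f ≤ f` (commuting projections), so `0 ≤ re ρ ((1 - e) f) ≤ re ρ f = 0` (`IsPosFunctional.mono`, `of_nonneg`): `g` is null.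
  By maximality `g = e`, i.e. `(1 - e) f = 0`, `e * f = f`.
-/

set_option linter.unusedSectionVars false

namespace Vale.Agent.Lib.P078

open scoped InnerProductSpace

variable {H : Type*} [NormedAddCommGroup H] [InnerProductSpace ℂ H] [CompleteSpace H]
variable {M : VonNeumannAlgebra H} {A : StarSubalgebra ℂ (H →L[ℂ] H)}

/-- `f` is annihilated by all normal `A`-central positive functionals. -/
def IsNullProj (M : VonNeumannAlgebra H) (A : StarSubalgebra ℂ (H →L[ℂ] H)) (f : H →L[ℂ] H) : Prop :=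
  ∀ ρ : (H →L[ℂ] H) →L[ℂ] ℂ, IsCentralFunctional M A ρ → IsNormalOn M ρ → ρ f = 0

/-- A positive functional vanishes on a projection as soon as its real part is nonpositive. -/
lemma eq_zero_of_re_le_zero {ρ : (H →L[ℂ] H) →L[ℂ] ℂ} (hρ : IsPosFunctional ρ)
    {P : H →L[ℂ] H} (hP : IsStarProjection P) (h : (ρ P).re ≤ 0) : ρ P = 0 := by
  have h1 := hρ.of_nonneg hP.nonneg
  apply Complex.ext
  · rw [Complex.zero_re]
    exact le_antisymm h h1.1
  · rw [Complex.zero_im]
    exact h1.2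

/-- The strong limit of a family of operators commuting with `a` commutes with `a`. -/
lemma commute_of_approx {C : Set (H →L[ℂ] H)} {P a : H →L[ℂ] H}
    (hcomm : ∀ p ∈ C, a * p = p * a)
    (happ : ∀ (F : Finset H) (η : ℝ), 0 < η → ∃ p ∈ C, ∀ ξ ∈ F, ‖P ξ - p ξ‖ ≤ η) :
    a * P = P * a := by
  classical
  ext ξ
  show a (P ξ) = P (a ξ)
  rw [← sub_eq_zero, ← norm_le_zero_iff]
  refine le_of_forall_pos_le_add fun ε hε => ?_
  rw [zero_add]
  set η : ℝ := ε / (‖a‖ + 1) with hη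
  have hpos : 0 < ‖a‖ + 1 := by positivity
  have hη0 : 0 < η := by positivity
  obtain ⟨p, hp, hclose⟩ := happ {ξ, a ξ} η hη0
  have h1 := hclose ξ (by simp)
  have h2 := hclose (a ξ) (by simp)
  have h3 : a (p ξ) = p (a ξ) := congrArg (fun T : H →L[ℂ] H => T ξ) (hcomm p hp)
  have h4 : a (P ξ) - P (a ξ) = a (P ξ - p ξ) - (P (a ξ) - p (a ξ)) := by
    rw [map_sub, h3]
    abel
  rw [h4]
  calc ‖a (P ξ - p ξ) - (P (a ξ) - p (a ξ))‖
      ≤ ‖a (P ξ - p ξ)‖ + ‖P (a ξ) - p (a ξ)‖ := norm_sub_le _ _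
    _ ≤ ‖a‖ * ‖P ξ - p ξ‖ + ‖P (a ξ) - p (a ξ)‖ := by
        gcongr
        exact a.le_opNorm _
    _ ≤ ‖a‖ * η + η := by gcongr
    _ = ε := by
        rw [hη]
        field_simp

/-- The supremum of a chain of null projections is null. -/
lemma null_sup {C : Set (H →L[ℂ] H)} (hCM : ∀ p ∈ C, p ∈ M)
    (hCp : ∀ p ∈ C, IsStarProjection p) (hCn : ∀ p ∈ C, IsNullProj M A p)
    {P : H →L[ℂ] H} (hPM : P ∈ M) (hP : IsStarProjection P) (hPp : ∀ p ∈ C, P * p = p)
    (happ : ∀ (F : Finset H) (η : ℝ), 0 < η → ∃ p ∈ C, ∀ ξ ∈ F, ‖P ξ - p ξ‖ ≤ η) :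
    IsNullProj M A P := by
  intro ρ hc hn
  refine eq_zero_of_re_le_zero hc.pos hP ?_
  refine le_of_forall_pos_le_add fun τ hτ => ?_
  rw [zero_add]
  obtain ⟨F, δ, hδ, hsmall⟩ := hn τ hτ
  obtain ⟨p, hp, hclose⟩ := happ F (δ / 2) (by positivity)
  have h1 : IsStarProjection (P - p) := isStarProjection_sub_of_le hP (hCp p hp) (hPp p hp)
  have h2 : (ρ (P - p)).re ≤ τ := by
    refine hsmall (P - p) (sub_mem hPM (hCM p hp)) h1 fun ξ hξ => ?_
    have h3 := hclose ξ hξ
    rw [sub_apply]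
    linarith
  rw [map_sub, hCn p hp ρ hc hn, sub_zero] at h2
  exact h2

/-- The join of two commuting null projections is null. -/
lemma null_join {e f : H →L[ℂ] H} (he : IsStarProjection e) (hf : IsStarProjection f)
    (hef : e * f = f * e) (hen : IsNullProj M A e) (hfn : IsNullProj M A f) :
    IsStarProjection (f - e * f) ∧ (f - e * f) * e = 0 ∧ IsNullProj M A (e + (f - e * f)) := by
  have hp : IsStarProjection (e * f) := he.mul hf hef
  have h1 : f * (e * f) = e * f := by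
    rw [← mul_assoc, ← hef, mul_assoc, hf.isIdempotentElem.eq]
  have h2 : IsStarProjection (f - e * f) := isStarProjection_sub_of_le hf hp h1
  refine ⟨h2, ?_, ?_⟩
  · rw [sub_mul, mul_assoc, ← hef, ← mul_assoc, he.isIdempotentElem.eq, hef, sub_self]
  · intro ρ hc hn
    rw [map_add, hen ρ hc hn, zero_add]
    refine eq_zero_of_re_le_zero hc.pos h2 ?_
    have h3 : (ρ (f - e * f)).re ≤ (ρ f).re := by
      refine IsPosFunctional.mono hc.pos ?_
      rw [← sub_nonneg]
      have h4 : f - (f - e * f) = e * f := by abel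
      rw [h4]
      exact hp.nonneg
    rw [hfn ρ hc hn, Complex.zero_re] at h3
    exact h3

theorem exists_largest_null (hM : IsMASA M A) :
    ∃ e ∈ A, IsStarProjection e ∧ IsNullProj M A e ∧
      ∀ f ∈ A, IsStarProjection f → IsNullProj M A f → e * f = f := by
  classical
  let α := {p : H →L[ℂ] H // p ∈ A ∧ IsStarProjection p ∧ IsNullProj M A p}
  let r : α → α → Prop := fun a b => b.1 * a.1 = a.1
  have hzero : (0 : H →L[ℂ] H) ∈ A ∧ IsStarProjection (0 : H →L[ℂ] H) ∧
      IsNullProj M A (0 : H →L[ℂ] H) :=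
    ⟨zero_mem A, IsStarProjection.zero _, fun ρ _ _ => map_zero ρ⟩
  have hzorn : ∃ m : α, ∀ a : α, r m a → r a m := by
    refine exists_maximal_of_chains_bounded ?_ ?_
    · intro c hc
      by_cases hne : c.Nonempty
      · obtain ⟨P, hPM, hPp, hPle, hPapp⟩ := chain_sup (M := M) (Subtype.val '' c) (hne.image _)
          (by rintro _ ⟨a, _, rfl⟩; exact hM.1 _ a.2.1) (by rintro _ ⟨a, _, rfl⟩; exact a.2.2.1)
          (by
            rintro _ ⟨a, ha, rfl⟩ _ ⟨b, hb, rfl⟩
            by_cases hab : a = b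
            · subst hab
              exact Or.inl a.2.2.1.isIdempotentElem.eq
            · rcases hc ha hb hab with h | h
              · exact Or.inl (proj_mul_swap b.2.2.1 a.2.2.1 a.2.2.1.isSelfAdjoint h)
              · exact Or.inr (proj_mul_swap a.2.2.1 b.2.2.1 b.2.2.1.isSelfAdjoint h))
        have hPA : P ∈ A := by
          refine hM.2.2 P hPM fun a ha => ?_
          refine commute_of_approx (C := Subtype.val '' c) ?_ hPapp
          rintro _ ⟨b, _, rfl⟩
          exact hM.2.1 a ha _ b.2.1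
        have hPn : IsNullProj M A P :=
          null_sup (C := Subtype.val '' c)
            (by rintro _ ⟨a, _, rfl⟩; exact hM.1 _ a.2.1)
            (by rintro _ ⟨a, _, rfl⟩; exact a.2.2.1) (by rintro _ ⟨a, _, rfl⟩; exact a.2.2.2)
            hPM hPp hPle hPapp
        exact ⟨⟨P, hPA, hPp, hPn⟩, fun a ha => hPle _ ⟨a, ha, rfl⟩⟩
      · refine ⟨⟨0, hzero⟩, fun a ha => ?_⟩
        exact absurd ⟨a, ha⟩ hne
    · intro a b c hab hbc
      show c.1 * a.1 = a.1
      have hab' : b.1 * a.1 = a.1 := hab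
      have hbc' : c.1 * b.1 = b.1 := hbc
      rw [← hab', ← mul_assoc, hbc']
  obtain ⟨m, hm⟩ := hzorn
  refine ⟨m.1, m.2.1, m.2.2.1, m.2.2.2, fun f hfA hf hfn => ?_⟩
  have hef : m.1 * f = f * m.1 := hM.2.1 _ m.2.1 _ hfA
  obtain ⟨h1, h2, h3⟩ := null_join m.2.2.1 hf hef m.2.2.2 hfn
  have hsum : IsStarProjection (m.1 + (f - m.1 * f)) :=
    isStarProjection_add_of_orth m.2.2.1 h1 h2
  have hmem : m.1 + (f - m.1 * f) ∈ A :=
    add_mem m.2.1 (sub_mem hfA (mul_mem m.2.1 hfA))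
  have h4 := hm ⟨m.1 + (f - m.1 * f), hmem, hsum, h3⟩
    (by
      show (m.1 + (f - m.1 * f)) * m.1 = m.1
      rw [add_mul, m.2.2.1.isIdempotentElem.eq, h2, add_zero])
  have h5 : m.1 * (m.1 + (f - m.1 * f)) = m.1 + (f - m.1 * f) := h4
  rw [mul_add, mul_sub, ← mul_assoc, m.2.2.1.isIdempotentElem.eq, sub_self, add_zero] at h5
  have h6 : f - m.1 * f = 0 := by
    have := h5.symm
    simpa using this
  exact (sub_eq_zero.1 h6).symm

end Vale.Agent.Lib.P078
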