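import Vale.Agent.Lib.P078.Basic

/-!
# P078 (subtask U9a): a state separating a convex set of positive operators of norm `≥ t` from `0`

Blueprint.  Let `U = {y | ∃ κ > 0, ∀ v, re ⟪v, y v⟫ ≤ (t - κ) ‖v‖^2}`: convex, open (if `‖y' - y‖ < κ / 2` then `y'` satisfies the bound with `κ / 2`), contains `0` and `-(s • p)` for `p ≥ 0`,
`s ≥ 0`, and `(t - κ) • 1`.  `U` is disjoint from `C`: if `c ≥ 0` and `⟪v, c v⟫ ≤ (t - κ) ‖v‖^2` for all `v`, then `c ≤ (t - κ) • 1` in the C*-order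
(`ContinuousLinearMap.le_def`, `IsPositive`), so `‖c‖ ≤ t - κ` (`CStarAlgebra.norm_le_norm_of_nonneg_of_le`, cf. `norm_le_of_between` in `Spectral.lean`).
`RCLike.geometric_hahn_banach_open` gives `φ : (H →L[ℂ] H) →L[ℂ] ℂ` and `u` with `re (φ y) < u` on `U` and `u ≤ re (φ c)` on `C`.
* `p ≥ 0 → re (φ p) ≥ 0` (else `re (φ (-(s • p))) → ∞`).
* `re (φ 1) > 0`: otherwise `0 ≤ re (φ c) ≤ ‖c‖ re (φ 1) = 0` for `c ∈ C` (`c ≤ ‖c‖ • 1`), so `u ≤ 0`, but `0 = re (φ 0) < u`.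
* `(t - κ) re (φ 1) < u` for all small `κ`, so `t re (φ 1) ≤ u ≤ re (φ c)`.
Symmetrise and normalise: `ρ x = (φ x + conj (φ (star x))) / (2 re (φ 1))` is complex linear and continuous, `ρ y = re (φ y) / re (φ 1)` for self-adjoint `y`.
`‖ρ‖ ≤ 2`: for `‖x‖ ≤ 1` write `x = ℜ x + i ℑ x`, and `|ρ y| ≤ ‖y‖` for self-adjoint `y` (`-‖y‖ ≤ y ≤ ‖y‖`).
-/

set_option linter.unusedSectionVars false

namespace Vale.Agent.Lib.P078

open scoped InnerProductSpace Pointwise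

variable {H : Type*} [NormedAddCommGroup H] [InnerProductSpace ℂ H] [CompleteSpace H]

/-- The open convex set used for the separation. -/
def sepSet (H : Type*) [NormedAddCommGroup H] [InnerProductSpace ℂ H] [CompleteSpace H] (t : ℝ) :
    Set (H →L[ℂ] H) :=
  Metric.ball (0 : H →L[ℂ] H) t + Set.Iic (0 : H →L[ℂ] H)

lemma sepSet_isOpen (t : ℝ) : IsOpen (sepSet H t) :=
  Metric.isOpen_ball.add_right

lemma sepSet_convex (t : ℝ) : Convex ℝ (sepSet H t) :=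
  (convex_ball _ _).add (convex_Iic 0)

lemma sepSet_disjoint {C : Set (H →L[ℂ] H)} {t : ℝ} (hC : ∀ c ∈ C, 0 ≤ c ∧ t ≤ ‖c‖) :
    Disjoint (sepSet H t) C := by
  rw [Set.disjoint_left]
  rintro c ⟨y, hy, p, hp, rfl⟩ hc
  obtain ⟨h0, ht⟩ := hC _ hc
  have hp' : p ≤ 0 := hp
  have hle : y + p ≤ y := by
    calc y + p ≤ y + 0 := by gcongr
      _ = y := add_zero y
  have h1 : ‖y + p‖ ≤ ‖y‖ := CStarAlgebra.norm_le_norm_of_nonneg_of_le h0 hle
  have h2 : ‖y‖ < t := by simpa using hy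
  simp only at ht
  linarith

lemma neg_smul_mem_sepSet {t : ℝ} (ht : 0 < t) {p : H →L[ℂ] H} (hp : 0 ≤ p) {s : ℝ} (hs : 0 ≤ s) :
    -(s • p) ∈ sepSet H t := by
  refine ⟨0, by simpa using ht, -(s • p), ?_, by simp⟩
  have : 0 ≤ s • p := smul_nonneg hs hp
  simpa using this

lemma smul_one_mem_sepSet {t r : ℝ} (hr : 0 ≤ r) (hrt : r < t) :
    (r • (1 : H →L[ℂ] H)) ∈ sepSet H t := by
  refine ⟨r • 1, ?_, 0, by simp, by simp⟩
  have h1 : ‖(1 : H →L[ℂ] H)‖ ≤ 1 := ContinuousLinearMap.norm_id_le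
  have h2 : ‖r • (1 : H →L[ℂ] H)‖ ≤ r := by
    rw [norm_smul, Real.norm_of_nonneg hr]
    nlinarith
  simpa using lt_of_le_of_lt h2 hrt

/-- The conjugate functional `x ↦ conj (φ (star x))`. -/
noncomputable def adjFun (φ : (H →L[ℂ] H) →L[ℂ] ℂ) : (H →L[ℂ] H) →L[ℂ] ℂ :=
  LinearMap.mkContinuous
    { toFun := fun x => (starRingEnd ℂ) (φ (star x))
      map_add' := fun x y => by simp
      map_smul' := fun c x => by simp }
    ‖φ‖ (fun x => by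
      simp only [LinearMap.coe_mk, AddHom.coe_mk, RCLike.norm_conj]
      calc ‖φ (star x)‖ ≤ ‖φ‖ * ‖star x‖ := φ.le_opNorm _
        _ = ‖φ‖ * ‖x‖ := by rw [norm_star])

lemma adjFun_apply (φ : (H →L[ℂ] H) →L[ℂ] ℂ) (x : H →L[ℂ] H) :
    adjFun φ x = (starRingEnd ℂ) (φ (star x)) := rfl

/-- The symmetrised and normalised functional. -/
noncomputable def symFun (φ : (H →L[ℂ] H) →L[ℂ] ℂ) : (H →L[ℂ] H) →L[ℂ] ℂ :=
  ((2 * (φ 1).re : ℝ) : ℂ)⁻¹ • (φ + adjFun φ)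

lemma symFun_sa (φ : (H →L[ℂ] H) →L[ℂ] ℂ) {y : H →L[ℂ] H} (hy : IsSelfAdjoint y) :
    symFun φ y = (((φ y).re / (φ 1).re : ℝ) : ℂ) := by
  have h1 : φ y + (starRingEnd ℂ) (φ y) = ((2 * (φ y).re : ℝ) : ℂ) := Complex.add_conj _
  simp only [symFun, smul_apply, add_apply, adjFun_apply,
    hy.star_eq, h1, smul_eq_mul]
  rw [← Complex.ofReal_inv, ← Complex.ofReal_mul]
  congr 1
  by_cases h : (φ 1).re = 0
  · simp [h]
  · field_simp


/-- Properties of the separating functional. -/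
structure SepProps (φ : (H →L[ℂ] H) →L[ℂ] ℂ) (u t : ℝ) : Prop where
  lt : ∀ y ∈ sepSet H t, (φ y).re < u

lemma SepProps.u_pos {φ : (H →L[ℂ] H) →L[ℂ] ℂ} {u t : ℝ} (h : SepProps φ u t) (ht : 0 < t) :
    0 < u := by
  have h0 := h.lt _ (smul_one_mem_sepSet (H := H) le_rfl ht)
  simpa using h0

lemma SepProps.nonneg {φ : (H →L[ℂ] H) →L[ℂ] ℂ} {u t : ℝ} (h : SepProps φ u t) (ht : 0 < t)
    {p : H →L[ℂ] H} (hp : 0 ≤ p) : 0 ≤ (φ p).re := by
  by_contra hneg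
  rw [not_le] at hneg
  have hu := h.u_pos ht
  have hs : 0 ≤ u / (-(φ p).re) := div_nonneg hu.le (by linarith)
  have h1 := h.lt _ (neg_smul_mem_sepSet ht hp hs)
  have h2 : (φ (-((u / (-(φ p).re)) • p))).re = u := by
    rw [map_neg, Complex.neg_re]
    have h3 : φ ((u / (-(φ p).re)) • p) = (u / (-(φ p).re)) • φ p := φ.map_smul_of_tower _ _
    rw [h3, Complex.smul_re, smul_eq_mul]
    have : (φ p).re ≠ 0 := hneg.ne
    field_simp
  linarith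

lemma SepProps.mul_le {φ : (H →L[ℂ] H) →L[ℂ] ℂ} {u t : ℝ} (h : SepProps φ u t) (ht : 0 < t) :
    t * (φ 1).re ≤ u := by
  by_contra hlt
  rw [not_le] at hlt
  have hu := h.u_pos ht
  have ha : 0 < (φ 1).re := by
    by_contra ha
    rw [not_lt] at ha
    nlinarith
  have hr : u / (φ 1).re < t := by
    rw [div_lt_iff₀ ha]
    exact hlt
  have h1 := h.lt _ (smul_one_mem_sepSet (H := H) (div_nonneg hu.le ha.le) hr)
  have h3 : φ ((u / (φ 1).re) • (1 : H →L[ℂ] H)) = (u / (φ 1).re) • φ 1 := φ.map_smul_of_tower _ _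
  rw [h3, Complex.smul_re, smul_eq_mul] at h1
  have : u / (φ 1).re * (φ 1).re = u := by field_simp
  linarith

lemma SepProps.abs_le {φ : (H →L[ℂ] H) →L[ℂ] ℂ} {u t : ℝ} (h : SepProps φ u t) (ht : 0 < t)
    {y : H →L[ℂ] H} (hy : IsSelfAdjoint y) : |(φ y).re| ≤ ‖y‖ * (φ 1).re := by
  have h1 : 0 ≤ ‖y‖ • (1 : H →L[ℂ] H) - y := by
    have := IsSelfAdjoint.le_algebraMap_norm_self (a := y) hy
    rw [Algebra.algebraMap_eq_smul_one] at this
    exact sub_nonneg.mpr this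
  have h2 : 0 ≤ ‖y‖ • (1 : H →L[ℂ] H) + y := by
    have := IsSelfAdjoint.neg_algebraMap_norm_le_self (a := y) hy
    rw [Algebra.algebraMap_eq_smul_one] at this
    have h3 := sub_nonneg.mpr this
    simpa [add_comm] using h3
  have h3 : φ (‖y‖ • (1 : H →L[ℂ] H)) = ‖y‖ • φ 1 := φ.map_smul_of_tower _ _
  have e1 := h.nonneg ht h1
  have e2 := h.nonneg ht h2
  rw [map_sub, h3, Complex.sub_re, Complex.smul_re, smul_eq_mul] at e1
  rw [map_add, h3, Complex.add_re, Complex.smul_re, smul_eq_mul] at e2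
  rw [_root_.abs_le]
  constructor <;> linarith

lemma SepProps.norm_symFun_sa {φ : (H →L[ℂ] H) →L[ℂ] ℂ} {u t : ℝ} (h : SepProps φ u t)
    (ht : 0 < t) (ha : 0 < (φ 1).re) {y : H →L[ℂ] H} (hy : IsSelfAdjoint y) :
    ‖symFun φ y‖ ≤ ‖y‖ := by
  rw [symFun_sa φ hy, Complex.norm_real, Real.norm_eq_abs, abs_div, abs_of_pos ha,
    div_le_iff₀ ha]
  exact h.abs_le ht hy

lemma decomp_sa (x : H →L[ℂ] H) :
    x = (2⁻¹ : ℂ) • (x + star x) + (2⁻¹ * Complex.I : ℂ) • (Complex.I • (star x - x)) := by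
  rw [smul_smul, mul_assoc, Complex.I_mul_I, smul_add, smul_sub]
  have : (2⁻¹ * (-1) : ℂ) = -(2⁻¹) := by ring
  rw [this, neg_smul, neg_smul]
  have h2 : x = (2⁻¹ : ℂ) • x + (2⁻¹ : ℂ) • x := by
    rw [← add_smul]
    norm_num
  nth_rewrite 1 [h2]
  abel

lemma isSelfAdjoint_add_star' (x : H →L[ℂ] H) : IsSelfAdjoint (x + star x) := by
  rw [isSelfAdjoint_iff, star_add, star_star, add_comm]

lemma isSelfAdjoint_I_smul_sub (x : H →L[ℂ] H) :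
    IsSelfAdjoint (Complex.I • (star x - x)) := by
  rw [isSelfAdjoint_iff, star_smul, star_sub, star_star]
  have : star Complex.I = -Complex.I := Complex.conj_I
  rw [this, neg_smul, ← smul_neg, neg_sub]

lemma SepProps.norm_symFun_le {φ : (H →L[ℂ] H) →L[ℂ] ℂ} {u t : ℝ} (h : SepProps φ u t)
    (ht : 0 < t) (ha : 0 < (φ 1).re) : ‖symFun φ‖ ≤ 2 := by
  refine ContinuousLinearMap.opNorm_le_bound _ (by norm_num) fun x => ?_
  have h1 := h.norm_symFun_sa ht ha (isSelfAdjoint_add_star' x)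
  have h2 := h.norm_symFun_sa ht ha (isSelfAdjoint_I_smul_sub x)
  have n1 : ‖x + star x‖ ≤ 2 * ‖x‖ := by
    calc ‖x + star x‖ ≤ ‖x‖ + ‖star x‖ := norm_add_le _ _
      _ = 2 * ‖x‖ := by rw [norm_star]; ring
  have n2 : ‖Complex.I • (star x - x)‖ ≤ 2 * ‖x‖ := by
    rw [norm_smul, Complex.norm_I, one_mul]
    calc ‖star x - x‖ ≤ ‖star x‖ + ‖x‖ := norm_sub_le _ _
      _ = 2 * ‖x‖ := by rw [norm_star]; ring
  have e : symFun φ x = (2⁻¹ : ℂ) * symFun φ (x + star x)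
      + (2⁻¹ * Complex.I : ℂ) * symFun φ (Complex.I • (star x - x)) := by
    nth_rewrite 1 [decomp_sa x]
    rw [map_add, map_smul, map_smul, smul_eq_mul, smul_eq_mul]
  rw [e]
  have m1 : ‖(2⁻¹ : ℂ) * symFun φ (x + star x)‖ ≤ ‖x‖ := by
    rw [norm_mul]
    have : ‖(2⁻¹ : ℂ)‖ = 2⁻¹ := by simp
    rw [this]
    linarith
  have m2 : ‖(2⁻¹ * Complex.I : ℂ) * symFun φ (Complex.I • (star x - x))‖ ≤ ‖x‖ := by
    rw [norm_mul]
    have : ‖(2⁻¹ * Complex.I : ℂ)‖ = 2⁻¹ := by simp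
    rw [this]
    linarith
  calc _ ≤ ‖(2⁻¹ : ℂ) * symFun φ (x + star x)‖
        + ‖(2⁻¹ * Complex.I : ℂ) * symFun φ (Complex.I • (star x - x))‖ := norm_add_le _ _
    _ ≤ 2 * ‖x‖ := by linarith

theorem exists_state_separating {C : Set (H →L[ℂ] H)} (hne : C.Nonempty) (hconv : Convex ℝ C)
    {t : ℝ} (ht : 0 < t) (hC : ∀ c ∈ C, 0 ≤ c ∧ t ≤ ‖c‖) :
    ∃ ρ : (H →L[ℂ] H) →L[ℂ] ℂ, ρ 1 = 1 ∧ ‖ρ‖ ≤ 2 ∧
      (∀ y : H →L[ℂ] H, 0 ≤ y → 0 ≤ (ρ y).re ∧ (ρ y).im = 0) ∧ ∀ c ∈ C, t ≤ (ρ c).re := by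
  obtain ⟨φ, u, hlt, hle⟩ := RCLike.geometric_hahn_banach_open (𝕜 := ℂ) (sepSet_convex (H := H) t)
    (sepSet_isOpen t) hconv (sepSet_disjoint hC)
  have h : SepProps φ u t := ⟨hlt⟩
  have hu := h.u_pos ht
  have ha : 0 < (φ 1).re := by
    obtain ⟨c, hc⟩ := hne
    have h1 : u ≤ (φ c).re := hle c hc
    have h2 := h.abs_le ht (IsSelfAdjoint.of_nonneg (hC c hc).1)
    have h3 : (φ c).re ≤ |(φ c).re| := le_abs_self _
    have h4 : 0 < ‖c‖ * (φ 1).re := by linarith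
    exact (pos_iff_pos_of_mul_pos h4).mp (lt_of_lt_of_le ht (hC c hc).2)
  refine ⟨symFun φ, ?_, h.norm_symFun_le ht ha, ?_, ?_⟩
  · rw [symFun_sa φ (IsSelfAdjoint.one _), div_self ha.ne']
    simp
  · intro y hy
    rw [symFun_sa φ (IsSelfAdjoint.of_nonneg hy)]
    exact ⟨by rw [Complex.ofReal_re]; exact div_nonneg (h.nonneg ht hy) ha.le,
      Complex.ofReal_im _⟩
  · intro c hc
    rw [symFun_sa φ (IsSelfAdjoint.of_nonneg (hC c hc).1), Complex.ofReal_re, le_div_iff₀ ha]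
    exact (h.mul_le ht).trans (hle c hc)

end Vale.Agent.Lib.P078
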