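import Vale.Agent.Lib.P078.Thin.StateDefs
import Vale.Agent.Lib.P078.Thin.Separation
import Vale.Agent.Lib.P078.Thin.Spectral2
import Vale.Agent.Lib.P078.Thin.Block
import Vale.Agent.Lib.P078.Step

/-!
# P078 (subtasks U9b, U9c): the half cut, and thin implies that central functionals are singular
-/

set_option linter.unusedSectionVars false

namespace Vale.Agent.Lib.P078

open scoped InnerProductSpace

variable {H : Type*} [NormedAddCommGroup H] [InnerProductSpace ℂ H] [CompleteSpace H]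
variable {M : VonNeumannAlgebra H} {A : StarSubalgebra ℂ (H →L[ℂ] H)}

lemma exists_half_cut' {k : H →L[ℂ] H} (hk : k ∈ M) (h0 : 0 ≤ k) (h1 : k ≤ 1) :
    ∃ e ∈ M, IsStarProjection e ∧ e ≤ (2 : ℂ) • k ∧ 1 - e ≤ (2 : ℂ) • (1 - k) := by
  have hks : star k = k := h0.isSelfAdjoint.star_eq
  have hone : IsSelfAdjoint (((1 / 2 : ℝ) : ℂ) • (1 : H →L[ℂ] H)) := by
    rw [IsSelfAdjoint, star_smul, star_one]
    simp
  have hbM : k - ((1 / 2 : ℝ) : ℂ) • (1 : H →L[ℂ] H) ∈ M :=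
    sub_mem hk (M.toStarSubalgebra.smul_mem (one_mem _) _)
  obtain ⟨e, heM, he, hcomm, hp, hn⟩ := exists_split_vN hbM (h0.isSelfAdjoint.sub hone)
  have hkb : k * (k - ((1 / 2 : ℝ) : ℂ) • (1 : H →L[ℂ] H))
      = (k - ((1 / 2 : ℝ) : ℂ) • (1 : H →L[ℂ] H)) * k := by
    rw [mul_sub, sub_mul, mul_smul_comm, smul_mul_assoc, mul_one, one_mul]
  have hke : k * e = e * k := hcomm k hkb (by rw [hks]; exact hkb)
  have hhalf : ∀ x : H →L[ℂ] H, ((1 / 2 : ℝ) : ℂ) • x + ((1 / 2 : ℝ) : ℂ) • x = x := by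
    intro x
    rw [← add_smul]
    have : (((1 / 2 : ℝ) : ℂ) + ((1 / 2 : ℝ) : ℂ)) = 1 := by
      push_cast
      norm_num
    rw [this, one_smul]
  refine ⟨e, heM, he, ?_, ?_⟩
  · have h2 : 0 ≤ k * (1 - e) :=
      nonneg_mul_proj h0 he.one_sub (by rw [mul_sub, sub_mul, mul_one, one_mul, hke])
    have h3 : (2 : ℂ) • k - e
        = (k * (1 - e) + (k - ((1 / 2 : ℝ) : ℂ) • (1 : H →L[ℂ] H)) * e)
          + (k * (1 - e) + (k - ((1 / 2 : ℝ) : ℂ) • (1 : H →L[ℂ] H)) * e) := by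
      rw [two_smul, mul_sub, sub_mul, mul_one, smul_mul_assoc, one_mul]
      nth_rewrite 1 [← hhalf e]
      abel
    rw [← sub_nonneg, h3]
    exact add_nonneg (add_nonneg h2 hp) (add_nonneg h2 hp)
  · have h2 : 0 ≤ (1 - k) * e :=
      nonneg_mul_proj (sub_nonneg.mpr h1) he
        (by rw [sub_mul, mul_sub, one_mul, mul_one, hke])
    have hX : (1 - k) * e + -((k - ((1 / 2 : ℝ) : ℂ) • (1 : H →L[ℂ] H)) * (1 - e))
        = (e - ((1 / 2 : ℝ) : ℂ) • e) + ((1 / 2 : ℝ) : ℂ) • (1 : H →L[ℂ] H) - k := by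
      simp only [mul_sub, sub_mul, mul_one, smul_mul_assoc, one_mul]
      abel
    have he2 : e - ((1 / 2 : ℝ) : ℂ) • e = ((1 / 2 : ℝ) : ℂ) • e := by
      rw [sub_eq_iff_eq_add]
      exact (hhalf e).symm
    have h3 : (2 : ℂ) • (1 - k) - (1 - e)
        = ((1 - k) * e + -((k - ((1 / 2 : ℝ) : ℂ) • (1 : H →L[ℂ] H)) * (1 - e)))
          + ((1 - k) * e + -((k - ((1 / 2 : ℝ) : ℂ) • (1 : H →L[ℂ] H)) * (1 - e))) := by
      rw [hX, he2, two_smul]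
      have h4 : (((1 / 2 : ℝ) : ℂ) • e + ((1 / 2 : ℝ) : ℂ) • (1 : H →L[ℂ] H) - k)
          + (((1 / 2 : ℝ) : ℂ) • e + ((1 / 2 : ℝ) : ℂ) • (1 : H →L[ℂ] H) - k)
          = (((1 / 2 : ℝ) : ℂ) • e + ((1 / 2 : ℝ) : ℂ) • e)
            + (((1 / 2 : ℝ) : ℂ) • (1 : H →L[ℂ] H) + ((1 / 2 : ℝ) : ℂ) • (1 : H →L[ℂ] H))
            - k - k := by abel
      rw [h4, hhalf, hhalf]
      abel
    rw [← sub_nonneg, h3]
    exact add_nonneg (add_nonneg h2 hn) (add_nonneg h2 hn)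

lemma central_pinching_eq {ρ : (H →L[ℂ] H) →L[ℂ] ℂ} (hAM : ∀ a ∈ A, a ∈ M)
    (hρ : IsCentralFunctional M A ρ) {ι : Type*} [Fintype ι] {f : ι → H →L[ℂ] H}
    (hf : IsPartition A f) {q : H →L[ℂ] H} (hq : q ∈ M) : ρ (pinching f q) = ρ q := by
  unfold pinching
  rw [map_sum]
  have h1 : ∀ b, ρ (f b * q * f b) = ρ (q * f b) := by
    intro b
    have h2 := hρ.central (f b) (hf.mem b) (hf.proj b) (q * f b)
      (mul_mem hq (hAM _ (hf.mem b)))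
    rw [mul_assoc, h2, mul_assoc, (hf.proj b).isIdempotentElem.eq]
  rw [Finset.sum_congr rfl fun b _ => h1 b, ← map_sum, ← Finset.mul_sum, hf.sum_eq, mul_one]

theorem allCentralSingular_of_isThin' (hAM : ∀ a ∈ A, a ∈ M) (h : IsThin M A) :
    AllCentralSingular M A := by
  intro ρ hρ F δ τ hδ hτ
  have hpos : 0 < ‖ρ‖ + 1 := by positivity
  obtain ⟨q, n, f, hqM, hq, hqF, hf, hnorm⟩ := h F δ (τ / (‖ρ‖ + 1)) hδ (div_pos hτ hpos)
  refine ⟨q, hqM, hq, hqF, ?_⟩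
  rw [← central_pinching_eq hAM hρ hf hqM]
  calc (ρ (pinching f q)).re ≤ ‖ρ (pinching f q)‖ := Complex.re_le_norm _
    _ ≤ ‖ρ‖ * ‖pinching f q‖ := ρ.le_opNorm _
    _ ≤ ‖ρ‖ * (τ / (‖ρ‖ + 1)) := mul_le_mul_of_nonneg_left hnorm (norm_nonneg _)
    _ ≤ (‖ρ‖ + 1) * (τ / (‖ρ‖ + 1)) :=
        mul_le_mul_of_nonneg_right (by linarith) (div_pos hτ hpos).le
    _ = τ := by field_simp

end Vale.Agent.Lib.P078
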