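import Vale.Agent.Lib.P078.Thin.StateDefs
import Vale.Agent.Lib.P078.Thin.Separation
import Vale.Agent.Lib.P078.Thin.Spectral2
import Vale.Agent.Lib.P078.Thin.Block
import Vale.Agent.Lib.P078.Step
import Vale.Agent.Lib.P078.Thin.SingularA

/-!
# P078 (subtasks U9b, U9c, U9d): thin `↔` every `A`-central positive functional is singular

Blueprint.
* U9b `exists_half_cut`: `exists_split_vN` for `b = k - (1/2) • 1` gives a projection `e ∈ M` commuting with `k`, `(k - 1/2) e ≥ 0`, `(k - 1/2) (1 - e) ≤ 0`.  Since `k (1 - e) ≥ 0` and `(1 - k) e ≥ 0`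
  (`nonneg_mul_proj` in `Spectral.lean`): `k ≥ k e ≥ e / 2` and `1 - k ≥ (1 - k)(1 - e) ≥ (1 - e) / 2`.
* U9c `allCentralSingular_of_isThin`: let `ρ` be central.  For a partition `f` and `q ∈ M`: `ρ (f b * q * f b) = ρ (q * f b * f b) = ρ (q * f b)` (centrality with `x = q * f b`), so `ρ (pinching f q) = ρ q`.
  Hence `re (ρ q) ≤ ‖ρ‖ ‖pinching f q‖ ≤ ‖ρ‖ τ'`; choose `τ'` with `‖ρ‖ τ' ≤ τ`.
* U9d `isThin_of_allCentralSingular`: by contradiction.  If `A` is not thin there are `F`, `δ`, `τ` such that `‖pinching f q‖ > τ` for all partitions `f` and all projections `q ∈ M` with `‖(1 - q) ξ‖ < δ` on `F`.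
  Let `K = {k ∈ M | 0 ≤ k ≤ 1, ∑ ξ ∈ F, re ⟪ξ, (1 - k) ξ⟫ < δ^2 / 2}` (convex, contains `1`).  By `exists_half_cut`, `‖pinching f k‖ ≥ τ / 2` for `k ∈ K` (`pinching f e ≤ 2 • pinching f k`, `‖(1 - e) ξ‖^2 = ⟪ξ, (1 - e) ξ⟫ ≤ 2 ⟪ξ, (1 - k) ξ⟫`).
  For a partition `f` (finite index type in `Type`) let `R f` be the set of `ρ` in the weak-star dual with: `ρ 1 = 1`, `‖ρ‖ ≤ 2`, `ρ` positive on positive operators, `τ / 2 ≤ re (ρ k)` for `k ∈ K`, and `ρ (f b * x) = ρ (x * f b)` for all `b`, `x`.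
  - `R f` is nonempty: take `ρ₀` from `exists_state_separating` for `C = pinching f '' K`, and `ρ = ρ₀ ∘ pinching f` (continuous linear; `pinching f 1 = 1`; `‖pinching f x‖ ≤ ‖x‖`; positivity preserving; `pinching f (f b * x) = f b * x * f b = pinching f (x * f b)`).
  - `R f` is weak-star closed in the closed ball of radius `2`, which is compact (`WeakDual.isCompact_closedBall`); `R (f × g) ⊆ R f ∩ R g` (`f b = ∑ c, f b * g c`).
  - So `⋂ f, R f` is nonempty (`IsCompact.nonempty_iInter_of_directed_nonempty_isCompact_isClosed`).  An element `ρ` is central (use `IsPartition.bool` for a projection `e ∈ A`), hence singular by hypothesis: there is a projection `q ∈ M` with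
    `‖(1 - q) ξ‖ < δ'` on `F` (`δ'` so small that `q ∈ K`) and `re (ρ q) ≤ τ / 4 < τ / 2`: contradiction.
-/

set_option linter.unusedSectionVars false

namespace Vale.Agent.Lib.P078

open scoped InnerProductSpace

variable {H : Type*} [NormedAddCommGroup H] [InnerProductSpace ℂ H] [CompleteSpace H]
variable {M : VonNeumannAlgebra H} {A : StarSubalgebra ℂ (H →L[ℂ] H)}

lemma exists_half_cut {k : H →L[ℂ] H} (hk : k ∈ M) (h0 : 0 ≤ k) (h1 : k ≤ 1) :
    ∃ e ∈ M, IsStarProjection e ∧ e ≤ (2 : ℂ) • k ∧ 1 - e ≤ (2 : ℂ) • (1 - k) :=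
  exists_half_cut' hk h0 h1

theorem allCentralSingular_of_isThin (hAM : ∀ a ∈ A, a ∈ M) (h : IsThin M A) :
    AllCentralSingular M A :=
  allCentralSingular_of_isThin' hAM h

section PinchingL

variable {ι : Type*} [Fintype ι] {f : ι → H →L[ℂ] H}

/-- The pinching as a continuous linear map. -/
noncomputable def pinchingL (f : ι → H →L[ℂ] H) : (H →L[ℂ] H) →L[ℂ] (H →L[ℂ] H) :=
  ∑ i, (ContinuousLinearMap.mul ℂ (H →L[ℂ] H) (f i)).comp
    ((ContinuousLinearMap.mul ℂ (H →L[ℂ] H)).flip (f i))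

lemma pinchingL_apply (f : ι → H →L[ℂ] H) (x : H →L[ℂ] H) : pinchingL f x = pinching f x := by
  simp [pinchingL, pinching, mul_assoc]

lemma norm_pinchingL_le (hf : IsPartition A f) : ‖pinchingL f‖ ≤ 1 :=
  ContinuousLinearMap.opNorm_le_bound _ zero_le_one fun x => by
    rw [pinchingL_apply, one_mul]
    exact hf.norm_pinching_le x

lemma pinching_nonneg (hf : IsPartition A f) {y : H →L[ℂ] H} (hy : 0 ≤ y) :
    0 ≤ pinching f y := by
  unfold pinching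
  refine Finset.sum_nonneg fun i _ => ?_
  have h := star_left_conjugate_nonneg hy (f i)
  rwa [(hf.proj i).isSelfAdjoint.star_eq] at h

lemma pinching_mono (hf : IsPartition A f) {x y : H →L[ℂ] H} (h : x ≤ y) :
    pinching f x ≤ pinching f y := by
  rw [← sub_nonneg] at h ⊢
  have h2 := pinching_nonneg hf h
  rwa [← pinchingL_apply, map_sub, pinchingL_apply, pinchingL_apply] at h2

lemma pinching_one (hf : IsPartition A f) : pinching f 1 = 1 := by
  unfold pinching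
  simp only [mul_one]
  rw [Finset.sum_congr rfl fun i _ => (hf.proj i).isIdempotentElem.eq, hf.sum_eq]

lemma pinching_left_mul (hf : IsPartition A f) (b : ι) (x : H →L[ℂ] H) :
    pinching f (f b * x) = f b * x * f b := by
  classical
  unfold pinching
  rw [Finset.sum_eq_single b]
  · rw [← mul_assoc, (hf.proj b).isIdempotentElem.eq]
  · intro c _ hc
    rw [← mul_assoc, hf.orth c b hc, zero_mul, zero_mul]
  · intro h
    exact absurd (Finset.mem_univ b) h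

lemma pinching_mul_right (hf : IsPartition A f) (b : ι) (x : H →L[ℂ] H) :
    pinching f (x * f b) = f b * x * f b := by
  classical
  unfold pinching
  rw [Finset.sum_eq_single b]
  · rw [mul_assoc, mul_assoc, (hf.proj b).isIdempotentElem.eq, mul_assoc]
  · intro c _ hc
    rw [mul_assoc, mul_assoc, hf.orth b c (Ne.symm hc), mul_zero, mul_zero]
  · intro h
    exact absurd (Finset.mem_univ b) h

end PinchingL

lemma norm_sq_proj_apply {p : H →L[ℂ] H} (hp : IsStarProjection p) (ξ : H) :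
    ‖p ξ‖ ^ 2 = (⟪ξ, p ξ⟫_ℂ).re := by
  rw [proj_inner_right hp, inner_self_ofReal, Complex.ofReal_re]

/-- The convex set of positive contractions of `M` close to `1` on `F`. -/
def cutSet (M : VonNeumannAlgebra H) (F : Finset H) (c : ℝ) : Set (H →L[ℂ] H) :=
  {k | k ∈ M ∧ 0 ≤ k ∧ k ≤ 1 ∧ ∑ ξ ∈ F, (⟪ξ, (1 - k) ξ⟫_ℂ).re < c}

lemma one_mem_cutSet (F : Finset H) {c : ℝ} (hc : 0 < c) : (1 : H →L[ℂ] H) ∈ cutSet M F c := by
  refine ⟨one_mem M, zero_le_one, le_rfl, ?_⟩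
  simpa using hc

lemma convex_cutSet (F : Finset H) (c : ℝ) : Convex ℝ (cutSet M F c) := by
  intro x hx y hy a b ha hb hab
  refine ⟨?_, ?_, ?_, ?_⟩
  · have h1 : a • x = (a : ℂ) • x := (Complex.coe_smul a x).symm
    have h2 : b • y = (b : ℂ) • y := (Complex.coe_smul b y).symm
    rw [h1, h2]
    exact add_mem (M.toStarSubalgebra.smul_mem hx.1 _) (M.toStarSubalgebra.smul_mem hy.1 _)
  · exact add_nonneg (smul_nonneg ha hx.2.1) (smul_nonneg hb hy.2.1)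
  · have h1 : a • x ≤ a • (1 : H →L[ℂ] H) := smul_le_smul_of_nonneg_left hx.2.2.1 ha
    have h2 : b • y ≤ b • (1 : H →L[ℂ] H) := smul_le_smul_of_nonneg_left hy.2.2.1 hb
    calc a • x + b • y ≤ a • (1 : H →L[ℂ] H) + b • (1 : H →L[ℂ] H) := add_le_add h1 h2
      _ = 1 := by rw [← add_smul, hab, one_smul]
  · have h1 : ∀ ξ : H, (⟪ξ, (1 - (a • x + b • y)) ξ⟫_ℂ).re
        = a * (⟪ξ, (1 - x) ξ⟫_ℂ).re + b * (⟪ξ, (1 - y) ξ⟫_ℂ).re := by
      intro ξ
      have h2 : (1 - (a • x + b • y) : H →L[ℂ] H) = (a : ℂ) • (1 - x) + (b : ℂ) • (1 - y) := by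
        rw [Complex.coe_smul, Complex.coe_smul, smul_sub, smul_sub]
        have h3 : (1 : H →L[ℂ] H) = a • (1 : H →L[ℂ] H) + b • (1 : H →L[ℂ] H) := by
          rw [← add_smul, hab, one_smul]
        nth_rewrite 1 [h3]
        abel
      rw [h2, add_apply, smul_apply, smul_apply, inner_add_right,
        inner_smul_right, inner_smul_right, Complex.add_re, Complex.re_ofReal_mul,
        Complex.re_ofReal_mul]
    rw [Finset.sum_congr rfl fun ξ _ => h1 ξ, Finset.sum_add_distrib, ← Finset.mul_sum,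
      ← Finset.mul_sum]
    exact convex_Iio c hx.2.2.2 hy.2.2.2 ha hb hab

lemma half_le_norm_pinching {ι : Type*} [Fintype ι] {f : ι → H →L[ℂ] H} (hf : IsPartition A f)
    {F : Finset H} {δ τ : ℝ} (hδ : 0 < δ)
    (hno : ∀ q ∈ M, IsStarProjection q → (∀ ξ ∈ F, ‖(1 - q) ξ‖ < δ) → τ < ‖pinching f q‖)
    {k : H →L[ℂ] H} (hk : k ∈ cutSet M F (δ ^ 2 / 2)) : τ / 2 ≤ ‖pinching f k‖ := by
  obtain ⟨e, heM, hep, he1, he2⟩ := exists_half_cut hk.1 hk.2.1 hk.2.2.1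
  have hF : ∀ ξ ∈ F, ‖(1 - e) ξ‖ < δ := by
    intro ξ hξ
    have h1 : ‖(1 - e) ξ‖ ^ 2 = (⟪ξ, (1 - e) ξ⟫_ℂ).re := norm_sq_proj_apply hep.one_sub ξ
    have h2 : (⟪ξ, (1 - e) ξ⟫_ℂ).re ≤ (⟪ξ, ((2 : ℂ) • (1 - k)) ξ⟫_ℂ).re := re_inner_le_of_le he2 ξ
    have h3 : (⟪ξ, ((2 : ℂ) • (1 - k)) ξ⟫_ℂ).re = 2 * (⟪ξ, (1 - k) ξ⟫_ℂ).re := by
      rw [smul_apply, inner_smul_right]
      have h8 : (2 : ℂ) = ((2 : ℝ) : ℂ) := by norm_num
      rw [h8, Complex.re_ofReal_mul]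
    have h4 : (⟪ξ, (1 - k) ξ⟫_ℂ).re ≤ ∑ η ∈ F, (⟪η, (1 - k) η⟫_ℂ).re := by
      refine Finset.single_le_sum (f := fun η => (⟪η, (1 - k) η⟫_ℂ).re) (fun η _ => ?_) hξ
      have h5 := re_inner_le_of_le (sub_nonneg.mpr hk.2.2.1) η
      simpa using h5
    have h6 := hk.2.2.2
    have h7 : ‖(1 - e) ξ‖ ^ 2 < δ ^ 2 := by linarith
    exact lt_of_pow_lt_pow_left₀ 2 hδ.le h7
  have h1 := hno e heM hep hF
  have h2 : ‖pinching f e‖ ≤ ‖pinching f ((2 : ℂ) • k)‖ :=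
    CStarAlgebra.norm_le_norm_of_nonneg_of_le (pinching_nonneg hf hep.nonneg) (pinching_mono hf he1)
  have h3 : ‖pinching f ((2 : ℂ) • k)‖ = 2 * ‖pinching f k‖ := by
    rw [← pinchingL_apply, map_smul, pinchingL_apply, norm_smul]
    simp
  linarith

/-- The weak-star compact set of normalised positive functionals that are at least `t` on `K` and
commute with the pieces of `f`. -/
def RSet (K : Set (H →L[ℂ] H)) (t : ℝ) {ι : Type*} (f : ι → H →L[ℂ] H) :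
    Set (WeakDual ℂ (H →L[ℂ] H)) :=
  {ρ | ρ ∈ WeakDual.toStrongDual ⁻¹' Metric.closedBall (0 : StrongDual ℂ (H →L[ℂ] H)) 2 ∧
    ρ 1 = 1 ∧ (∀ y : H →L[ℂ] H, 0 ≤ y → 0 ≤ (ρ y).re ∧ (ρ y).im = 0) ∧
    (∀ k ∈ K, t ≤ (ρ k).re) ∧ ∀ (b : ι) (x : H →L[ℂ] H), ρ (f b * x) = ρ (x * f b)}

lemma isClosed_RSet (K : Set (H →L[ℂ] H)) (t : ℝ) {ι : Type*} (f : ι → H →L[ℂ] H) :
    IsClosed (RSet K t f) := by
  have hev : ∀ y : H →L[ℂ] H, Continuous fun ρ : WeakDual ℂ (H →L[ℂ] H) => ρ y :=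
    fun y => WeakDual.eval_continuous y
  unfold RSet
  simp only [Set.ofPred_and, Set.ofPred_forall]
  refine IsClosed.inter (WeakDual.isClosed_closedBall 0 2) (IsClosed.inter ?_ (IsClosed.inter ?_
    (IsClosed.inter ?_ ?_)))
  · exact isClosed_eq (hev 1) continuous_const
  · refine isClosed_iInter fun y => isClosed_iInter fun _ => IsClosed.inter ?_ ?_
    · exact isClosed_le continuous_const (Complex.continuous_re.comp (hev y))
    · exact isClosed_eq (Complex.continuous_im.comp (hev y)) continuous_const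
  · refine isClosed_iInter fun k => isClosed_iInter fun _ => ?_
    exact isClosed_le continuous_const (Complex.continuous_re.comp (hev k))
  · refine isClosed_iInter fun b => isClosed_iInter fun x => ?_
    exact isClosed_eq (hev _) (hev _)

lemma isCompact_RSet (K : Set (H →L[ℂ] H)) (t : ℝ) {ι : Type*} (f : ι → H →L[ℂ] H) :
    IsCompact (RSet K t f) :=
  (WeakDual.isCompact_closedBall (0 : StrongDual ℂ (H →L[ℂ] H)) 2).of_isClosed_subset
    (isClosed_RSet K t f) fun _ hρ => hρ.1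

lemma nonempty_RSet {K : Set (H →L[ℂ] H)} (hne : K.Nonempty) (hconv : Convex ℝ K) {t : ℝ}
    (ht : 0 < t) {ι : Type*} [Fintype ι] {f : ι → H →L[ℂ] H} (hf : IsPartition A f)
    (hK : ∀ k ∈ K, 0 ≤ k ∧ t ≤ ‖pinching f k‖) : (RSet K t f).Nonempty := by
  have hC1 : (pinching f '' K).Nonempty := hne.image _
  have hC2 : Convex ℝ (pinching f '' K) := by
    have h1 : pinching f '' K = ((pinchingL f).restrictScalars ℝ) '' K := by
      refine Set.image_congr fun x _ => ?_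
      exact (pinchingL_apply f x).symm
    rw [h1]
    exact hconv.linear_image ((pinchingL f).restrictScalars ℝ).toLinearMap
  have hC3 : ∀ c ∈ pinching f '' K, 0 ≤ c ∧ t ≤ ‖c‖ := by
    rintro c ⟨k, hk, rfl⟩
    exact ⟨pinching_nonneg hf (hK k hk).1, (hK k hk).2⟩
  obtain ⟨ρ₀, h1, h2, h3, h4⟩ := exists_state_separating hC1 hC2 ht hC3
  have happ : ∀ x, (StrongDual.toWeakDual (ρ₀.comp (pinchingL f))) x = ρ₀ (pinching f x) := by
    intro x
    rw [← pinchingL_apply]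
    rfl
  refine ⟨StrongDual.toWeakDual (ρ₀.comp (pinchingL f)), ?_, ?_, ?_, ?_, ?_⟩
  · show ρ₀.comp (pinchingL f) ∈ Metric.closedBall (0 : StrongDual ℂ (H →L[ℂ] H)) 2
    rw [mem_closedBall_zero_iff]
    calc ‖ρ₀.comp (pinchingL f)‖ ≤ ‖ρ₀‖ * ‖pinchingL f‖ := ContinuousLinearMap.opNorm_comp_le _ _
      _ ≤ 2 * 1 := mul_le_mul h2 (norm_pinchingL_le hf) (norm_nonneg _) (by norm_num)
      _ = 2 := mul_one 2
  · rw [happ, pinching_one hf, h1]
  · intro y hy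
    rw [happ]
    exact h3 _ (pinching_nonneg hf hy)
  · intro k hk
    rw [happ]
    exact h4 _ ⟨k, hk, rfl⟩
  · intro b x
    rw [happ, happ, pinching_left_mul hf, pinching_mul_right hf]

lemma RSet_prod_subset_left (K : Set (H →L[ℂ] H)) (t : ℝ) {ι κ : Type*} [Fintype κ]
    {f : ι → H →L[ℂ] H} {g : κ → H →L[ℂ] H} (hg : ∑ c, g c = 1) :
    RSet K t (fun p : ι × κ => f p.1 * g p.2) ⊆ RSet K t f := by
  intro ρ hρ
  refine ⟨hρ.1, hρ.2.1, hρ.2.2.1, hρ.2.2.2.1, fun b x => ?_⟩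
  have h1 : f b = ∑ c, f b * g c := by rw [← Finset.mul_sum, hg, mul_one]
  rw [h1, Finset.sum_mul, Finset.mul_sum, map_sum, map_sum]
  exact Finset.sum_congr rfl fun c _ => hρ.2.2.2.2 (b, c) x

lemma RSet_prod_subset_right (K : Set (H →L[ℂ] H)) (t : ℝ) {ι κ : Type*} [Fintype ι]
    {f : ι → H →L[ℂ] H} {g : κ → H →L[ℂ] H} (hf : ∑ b, f b = 1) :
    RSet K t (fun p : ι × κ => f p.1 * g p.2) ⊆ RSet K t g := by
  intro ρ hρ
  refine ⟨hρ.1, hρ.2.1, hρ.2.2.1, hρ.2.2.2.1, fun c x => ?_⟩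
  have h1 : g c = ∑ b, f b * g c := by rw [← Finset.sum_mul, hf, one_mul]
  rw [h1, Finset.sum_mul, Finset.mul_sum, map_sum, map_sum]
  exact Finset.sum_congr rfl fun b _ => hρ.2.2.2.2 (b, c) x

lemma RSet_reindex_subset (K : Set (H →L[ℂ] H)) (t : ℝ) {ι κ : Type*} (f : ι → H →L[ℂ] H)
    (e : κ ≃ ι) : RSet K t (fun k => f (e k)) ⊆ RSet K t f := by
  intro ρ hρ
  refine ⟨hρ.1, hρ.2.1, hρ.2.2.1, hρ.2.2.2.1, fun b x => ?_⟩
  have h := hρ.2.2.2.2 (e.symm b) x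
  simpa using h

lemma exists_mem_all_RSet (hA : ∀ a ∈ A, ∀ b ∈ A, a * b = b * a) {K : Set (H →L[ℂ] H)}
    (hne : K.Nonempty) (hconv : Convex ℝ K) {t : ℝ} (ht : 0 < t)
    (hK : ∀ (n : ℕ) (f : Fin n → H →L[ℂ] H), IsPartition A f →
      ∀ k ∈ K, 0 ≤ k ∧ t ≤ ‖pinching f k‖) :
    ∃ ρ : WeakDual ℂ (H →L[ℂ] H), ∀ (n : ℕ) (f : Fin n → H →L[ℂ] H), IsPartition A f →
      ρ ∈ RSet K t f := by
  let P := Σ n : ℕ, {f : Fin n → H →L[ℂ] H // IsPartition A f}
  let R : P → Set (WeakDual ℂ (H →L[ℂ] H)) := fun p => RSet K t p.2.1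
  have hP : Nonempty P :=
    ⟨⟨1, fun _ => 1, (IsPartition.unit (A := A)).reindex (Equiv.equivPUnit (Fin 1))⟩⟩
  have hdir : Directed (fun x1 x2 => x1 ⊇ x2) R := by
    rintro ⟨n, f, hf⟩ ⟨m, g, hg⟩
    refine ⟨⟨n * m, fun k => (fun p : Fin n × Fin m => f p.1 * g p.2) (finProdFinEquiv.symm k),
      (hf.prod hA hg).reindex finProdFinEquiv.symm⟩, ?_, ?_⟩
    · exact (RSet_reindex_subset K t _ _).trans (RSet_prod_subset_left K t hg.sum_eq)
    · exact (RSet_reindex_subset K t _ _).trans (RSet_prod_subset_right K t hf.sum_eq)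
  obtain ⟨ρ, hρ⟩ := IsCompact.nonempty_iInter_of_directed_nonempty_isCompact_isClosed R hdir
    (fun p => nonempty_RSet hne hconv ht p.2.2 (hK p.1 p.2.1 p.2.2))
    (fun p => isCompact_RSet K t p.2.1) (fun p => isClosed_RSet K t p.2.1)
  exact ⟨ρ, fun n f hf => Set.mem_iInter.mp hρ ⟨n, f, hf⟩⟩

lemma proj_mem_cutSet {q : H →L[ℂ] H} (hqM : q ∈ M) (hq : IsStarProjection q) {F : Finset H}
    {c δ' : ℝ} (h0 : 0 < δ') (h1 : δ' ≤ 1) (h2 : ((F.card : ℝ) + 1) * δ' ≤ c)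
    (hF : ∀ ξ ∈ F, ‖(1 - q) ξ‖ < δ') : q ∈ cutSet M F c := by
  refine ⟨hqM, hq.nonneg, hq.le_one, ?_⟩
  have h3 : ∀ ξ ∈ F, (⟪ξ, (1 - q) ξ⟫_ℂ).re ≤ δ' := by
    intro ξ hξ
    rw [← norm_sq_proj_apply hq.one_sub]
    have h4 := hF ξ hξ
    have h5 := norm_nonneg ((1 - q) ξ)
    nlinarith
  have h4 : ∑ ξ ∈ F, (⟪ξ, (1 - q) ξ⟫_ℂ).re ≤ F.card • δ' := Finset.sum_le_card_nsmul _ _ _ h3
  rw [nsmul_eq_mul] at h4
  linarith

theorem isThin_of_allCentralSingular (hAM : ∀ a ∈ A, a ∈ M)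
    (hA : ∀ a ∈ A, ∀ b ∈ A, a * b = b * a) (h : AllCentralSingular M A) : IsThin M A := by
  by_contra hthin
  unfold IsThin at hthin
  push Not at hthin
  obtain ⟨F, δ, τ, hδ, hτ, hno⟩ := hthin
  have hc : 0 < δ ^ 2 / 2 := by positivity
  obtain ⟨ρ, hρ⟩ := exists_mem_all_RSet (A := A) hA (K := cutSet M F (δ ^ 2 / 2))
    ⟨1, one_mem_cutSet F hc⟩ (convex_cutSet F _) (half_pos hτ) (fun n f hf k hk =>
      ⟨hk.2.1, half_le_norm_pinching hf hδ (fun q hqM hq hqF => hno q n f hqM hq hqF hf) hk⟩)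
  have hunit := hρ 1 (fun _ => 1) ((IsPartition.unit (A := A)).reindex (Equiv.equivPUnit (Fin 1)))
  have hcent : IsCentralFunctional M A (WeakDual.toStrongDual ρ) := by
    refine ⟨fun x => hunit.2.2.1 _ (star_mul_self_nonneg x), fun e he hep x _ => ?_⟩
    have h1 := hρ 2 _ ((IsPartition.bool he hep).reindex finTwoEquiv)
    have h2 := RSet_reindex_subset (cutSet M F (δ ^ 2 / 2)) (τ / 2)
      (fun b : Bool => if b then e else 1 - e) finTwoEquiv h1
    exact h2.2.2.2.2 true x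
  set N : ℝ := (F.card : ℝ) + 1 with hN
  have hNpos : 0 < N := by positivity
  set δ' : ℝ := min 1 (δ ^ 2 / 2 / N) with hδ'
  have hδ'0 : 0 < δ' := lt_min one_pos (by positivity)
  obtain ⟨q, hqM, hq, hqF, hqτ⟩ := h _ hcent F δ' (τ / 4) hδ'0 (by positivity)
  have hqK : q ∈ cutSet M F (δ ^ 2 / 2) := by
    refine proj_mem_cutSet hqM hq hδ'0 (min_le_left _ _) ?_ hqF
    calc N * δ' ≤ N * (δ ^ 2 / 2 / N) := by gcongr; exact min_le_right _ _
      _ = δ ^ 2 / 2 := by field_simp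
  have h5 := hunit.2.2.2.1 q hqK
  have h6 : (ρ q).re ≤ τ / 4 := hqτ
  linarith

end Vale.Agent.Lib.P078
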