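import Vale.Agent.Lib.P078.Thin.Main
import Vale.Agent.Lib.P078.Thin.Singular
import Vale.Agent.Lib.P078.Thin.NormalPart
import Vale.Agent.Lib.P078.Thin.CornerCut
import Vale.Agent.Lib.P078.Thin.CornerNormal
import Vale.Agent.Lib.P078.Thin.CornerSum
import Vale.Agent.Lib.P078.Thin.NullProj

/-!
# P078: reduction of so-paving to the corner carrying the normal `A`-central functionals
-/

set_option linter.unusedSectionVars false

namespace Vale.Agent.Lib.P078

open scoped InnerProductSpace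

variable {H : Type*} [NormedAddCommGroup H] [InnerProductSpace ℂ H] [CompleteSpace H]
variable {M : VonNeumannAlgebra H} {A : StarSubalgebra ℂ (H →L[ℂ] H)}

/-- All self-adjoint elements are `(ε, ⌈1/ε⌉)` so-pavable over a MASA without normal central functionals. -/
theorem soPavable_of_noNormalCentral (hM : IsMASA M A) (hno : NoNormalCentral M A) {ε : ℝ}
    (h0 : 0 < ε) {x : H →L[ℂ] H} (hxM : x ∈ M) (hx : IsSelfAdjoint x) :
    SoPavable M A x ε ⌈1 / ε⌉₊ := by
  have hthin : IsThin M A := isThin_of_allCentralSingular hM.1 hM.2.1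
    (allCentralSingular_of_noNormalCentral hM.1 hM.2.1 hno)
  have hpos : 0 < 1 / ε := by positivity
  have hc1 : 1 ≤ ⌈1 / ε⌉₊ := Nat.one_le_iff_ne_zero.mpr (Nat.ceil_pos.mpr hpos).ne'
  refine (soPavable_of_thin_boundary hM hthin hxM hx hc1).mono ?_
  have h1 : 1 / ε ≤ (⌈1 / ε⌉₊ : ℝ) := Nat.le_ceil _
  have hr0 : (0 : ℝ) < (⌈1 / ε⌉₊ : ℝ) := by exact_mod_cast hc1
  rw [div_le_iff₀ hr0]
  rw [div_le_iff₀ h0] at h1
  linarith

lemma CornerPavable.mono {z x : H →L[ℂ] H} {κ κ' : ℝ} {r : ℕ} (h : CornerPavable M A z x κ r)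
    (hκ : κ ≤ κ') : CornerPavable M A z x κ' r := by
  intro F δ hδ
  obtain ⟨p, a, q, h1, h2, h3, h4, h5, h6, h7, h8, h9, h10, h11, h12, h13⟩ := h F δ hδ
  exact ⟨p, a, q, h1, h2, h3, h4, h5, h6, h7, h8, h9, h10, h11, h12, h13.trans hκ⟩

lemma compress_mem_vN {u x : H →L[ℂ] H} (hu : u ∈ M) (hx : x ∈ M) : u * x * u ∈ M :=
  M.toStarSubalgebra.mul_mem (M.toStarSubalgebra.mul_mem hu hx) hu

lemma isSelfAdjoint_compress_proj {u x : H →L[ℂ] H} (hu : IsStarProjection u) (hx : IsSelfAdjoint x) :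
    IsSelfAdjoint (u * x * u) := by
  rw [IsSelfAdjoint, star_mul, star_mul, hu.isSelfAdjoint.star_eq, hx.star_eq, mul_assoc]

lemma compress_compress_proj {u : H →L[ℂ] H} (hu : IsStarProjection u) (x : H →L[ℂ] H) :
    u * (u * x * u) * u = u * x * u := by
  have huu := hu.isIdempotentElem.eq
  calc u * (u * x * u) * u = (u * u) * x * (u * u) := by simp only [mul_assoc]
    _ = u * x * u := by rw [huu]

/-- The corner carrying the normal functionals. -/
lemma cornerPavable_normal (hM : IsMASA M A) {z : H →L[ℂ] H} (hz : IsStarProjection z)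
    (hzA : z ∈ A) {ε ε' : ℝ} {r : ℕ} (h0 : 0 < ε) (hε : ε < ε') (hr : 1 ≤ r)
    (hpav : ∀ x ∈ M, IsSelfAdjoint x → z * x * z = x → SoPavable M A x ε r)
    {x : H →L[ℂ] H} (hxM : x ∈ M) (hx : IsSelfAdjoint x) :
    CornerPavable M A z (z * x * z) (ε' * ‖x‖) r := by
  have hzM := hM.1 _ hzA
  have h1 := cornerPavable_of_soPavable hM hz hzA (compress_mem_vN hzM hxM)
    (isSelfAdjoint_compress_proj hz hx) (compress_compress_proj hz x) h0 hε hr
    (hpav _ (compress_mem_vN hzM hxM) (isSelfAdjoint_compress_proj hz hx) (compress_compress_proj hz x))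
  refine h1.mono ?_
  have h2 := norm_compress_le_of_proj hz x
  have h3 : 0 ≤ ε' := (h0.trans hε).le
  exact mul_le_mul_of_nonneg_left h2 h3

/-- The corner without normal functionals. -/
lemma cornerPavable_null (hM : IsMASA M A) {e : H →L[ℂ] H} (he : IsStarProjection e)
    (heA : e ∈ A) (hnull : IsNullProj M A e) {ε : ℝ} (h0 : 0 < ε)
    {x : H →L[ℂ] H} (hxM : x ∈ M) (hx : IsSelfAdjoint x) :
    CornerPavable M A e (e * x * e) (ε * ‖x‖) ⌈1 / ε⌉₊ := by
  have heM := hM.1 e heA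
  have hnoK := noNormalCentral_corner' hM he heA hnull
  have hMK := isMASA_corner he hM heA
  have hdownM : down he (e * x * e) ∈ cornerVN he M heM := by
    rw [mem_cornerVN, up_down, compress_compress_proj he]
    exact compress_mem_vN heM hxM
  have h1 := soPavable_of_noNormalCentral hMK hnoK h0 hdownM
    (isSelfAdjoint_down he (isSelfAdjoint_compress_proj he hx))
  refine (cornerPavable_of_corner hM he heA (compress_compress_proj he x) h1).mono ?_
  have h2 := norm_compress_le_of_proj he x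
  exact mul_le_mul_of_nonneg_left h2 h0.le

/-- The reduction theorem. -/
theorem exists_normal_corner (hM : IsMASA M A) :
    ∃ z ∈ A, IsStarProjection z ∧
      (∀ ρ : (H →L[ℂ] H) →L[ℂ] ℂ, IsCentralFunctional M A ρ → IsNormalOn M ρ → ρ (1 - z) = 0) ∧
      (∀ f ∈ A, IsStarProjection f → z * f = f → f ≠ 0 →
        ∃ ρ : (H →L[ℂ] H) →L[ℂ] ℂ, IsCentralFunctional M A ρ ∧ IsNormalOn M ρ ∧ ρ f ≠ 0) ∧
      ∀ (ε ε' : ℝ) (r : ℕ), 0 < ε → ε < ε' → 1 ≤ r →
        (∀ x ∈ M, IsSelfAdjoint x → z * x * z = x → SoPavable M A x ε r) →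
        pavingNumber M A ε' ≤ ((r + ⌈1 / ε'⌉₊ : ℕ) : ℕ∞) := by
  obtain ⟨e, heA, he, hnull, hmax⟩ := exists_largest_null hM
  have hzA : (1 - e) ∈ A := A.sub_mem A.one_mem heA
  have hz : IsStarProjection (1 - e) := he.one_sub
  have hez : (1 - (1 - e)) = e := by abel
  refine ⟨1 - e, hzA, hz, ?_, ?_, ?_⟩
  · intro ρ h1 h2
    rw [hez]
    exact hnull ρ h1 h2
  · intro f hfA hf hzf hf0
    by_contra hcon
    push Not at hcon
    have h1 := hmax f hfA hf (fun ρ h1 h2 => hcon ρ h1 h2)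
    apply hf0
    rw [← hzf, sub_mul, one_mul, h1, sub_self]
  · intro ε ε' r h0 hε hr hpav
    have h0' : 0 < ε' := h0.trans hε
    refine sInf_le ⟨r + ⌈1 / ε'⌉₊, by omega, rfl, ?_⟩
    intro x hxM hx
    refine soPavable_of_corners hM hz hzA hxM hx
      (cornerPavable_normal hM hz hzA h0 hε hr hpav hxM hx) ?_
    rw [hez]
    exact cornerPavable_null hM he heA hnull h0' hxM hx

end Vale.Agent.Lib.P078
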