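import Vale.Agent.Lib.P078.Thin.Approx

/-!
# P078 (subtask U7b): a symmetry `u ∈ A` that decorrelates `x` after compression by a jointly thin `q`

Blueprint.  Take `d = a'` and the partition `f` from `exists_pinching_approx` (tolerance `γ`).  By its refinement clause `f t = f₀ b * e` with `e` a projection, so
`‖q * f t‖^2 ≤ τ` and `‖q * x * f t‖^2 ≤ τ` (`‖(q * x) * (f₀ b * e)‖ ≤ ‖q * x * f₀ b‖ ‖e‖`).  `exists_signs_op` (with `τ' = τ`) gives `sg`; put `u = signOp f sg`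
(`IsPartition.signOp_mem`, `signOp_isSelfAdjoint`, `signOp_mul_self` in `Vale/Agent/Lib/P078/Rotation.lean`).  Each of the three sums of squares is at most
`8 (2 τ ‖x‖^2 + τ) Z ≤ (4 sqrt τ (‖x‖ + 1) sqrt Z)^2`, `Z = ∑ i ‖ζ i‖^2`.  Hence
`‖q ((u x u - d) ζ)‖ ≤ ‖q ((u x u - pinching f x) ζ)‖ + ‖q ((pinching f x - d) ζ)‖ ≤ (4 + 2) sqrt τ (‖x‖ + 1) sqrt Z + γ`,
`‖q ((x u - u x) ζ)‖ ≤ 8 sqrt τ (‖x‖ + 1) sqrt Z`.
-/

set_option linter.unusedSectionVars false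

namespace Vale.Agent.Lib.P078

open scoped InnerProductSpace

variable {H : Type*} [NormedAddCommGroup H] [InnerProductSpace ℂ H] [CompleteSpace H]
variable {M : VonNeumannAlgebra H} {A : StarSubalgebra ℂ (H →L[ℂ] H)}

private lemma norm_mul_proj_sq_le {y e : H →L[ℂ] H} (he : IsStarProjection e) {τ : ℝ}
    (h : ‖y‖ ^ 2 ≤ τ) : ‖y * e‖ ^ 2 ≤ τ := by
  have he1 : ‖e‖ ≤ 1 := IsStarProjection.norm_le e he
  have h1 : ‖y * e‖ ≤ ‖y‖ := by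
    calc ‖y * e‖ ≤ ‖y‖ * ‖e‖ := norm_mul_le _ _
      _ ≤ ‖y‖ * 1 := by gcongr
      _ = ‖y‖ := mul_one _
  refine le_trans ?_ h
  gcongr

private lemma le_of_sq_le_bound {a S B τ X Z : ℝ} (ha : 0 ≤ a) (hτ : 0 ≤ τ) (hX : 0 ≤ X)
    (hZ : 0 ≤ Z) (h1 : a ^ 2 ≤ S) (h2 : S ≤ B) (hB : B = 8 * (2 * τ * X ^ 2 + τ) * Z) :
    a ≤ 4 * Real.sqrt τ * (X + 1) * Real.sqrt Z := by
  have hb : 0 ≤ 4 * Real.sqrt τ * (X + 1) * Real.sqrt Z := by positivity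
  refine (pow_le_pow_iff_left₀ ha hb two_ne_zero).mp ?_
  have h3 : (4 * Real.sqrt τ * (X + 1) * Real.sqrt Z) ^ 2 = 16 * τ * (X + 1) ^ 2 * Z := by
    rw [mul_pow, mul_pow, mul_pow, Real.sq_sqrt hτ, Real.sq_sqrt hZ]
    ring
  rw [h3]
  refine (h1.trans h2).trans ?_
  rw [hB]
  have h4 : 0 ≤ τ * Z := mul_nonneg hτ hZ
  nlinarith [mul_nonneg h4 hX]

theorem exists_rotation_thin (hM : IsMASA M A) {x : H →L[ℂ] H} (hxM : x ∈ M)
    (hx : IsSelfAdjoint x) :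
    ∃ d ∈ A, IsSelfAdjoint d ∧ ‖d‖ ≤ ‖x‖ ∧
      ∀ (q : H →L[ℂ] H), IsStarProjection q → ∀ (ι₀ : Type) [Fintype ι₀] (f₀ : ι₀ → H →L[ℂ] H),
        IsPartition A f₀ → ∀ τ : ℝ, (∀ b, ‖q * f₀ b‖ ^ 2 ≤ τ) → (∀ b, ‖q * x * f₀ b‖ ^ 2 ≤ τ) →
        ∀ (I : Type) [Fintype I] (ζ : I → H) (γ : ℝ), 0 < γ →
          ∃ u ∈ A, IsSelfAdjoint u ∧ u * u = 1 ∧
            (∀ i, ‖q ((u * x * u - d) (ζ i))‖
              ≤ 8 * Real.sqrt τ * (‖x‖ + 1) * Real.sqrt (∑ i, ‖ζ i‖ ^ 2) + γ) ∧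
            ∀ i, ‖q ((x * u - u * x) (ζ i))‖
              ≤ 8 * Real.sqrt τ * (‖x‖ + 1) * Real.sqrt (∑ i, ‖ζ i‖ ^ 2) + γ := by
  classical
  obtain ⟨d, hdA, hdsa, hdn, hpin⟩ := exists_pinching_approx hM hxM hx
  refine ⟨d, hdA, hdsa, hdn, ?_⟩
  intro q hq ι₀ _ f₀ hf₀ τ hτ1 hτ2 I _ ζ γ hγ
  have hX : 0 ≤ ‖x‖ := norm_nonneg x
  have hZ : 0 ≤ ∑ i, ‖ζ i‖ ^ 2 := Finset.sum_nonneg fun _ _ => by positivity
  have hR : 0 ≤ Real.sqrt τ * (‖x‖ + 1) * Real.sqrt (∑ i, ‖ζ i‖ ^ 2) := by positivity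
  by_cases hτ0 : 0 ≤ τ
  swap
  · -- degenerate case: the index type is empty and the space is trivial
    have hemp : IsEmpty ι₀ := ⟨fun b => hτ0 ((by positivity : (0 : ℝ) ≤ ‖q * f₀ b‖ ^ 2).trans (hτ1 b))⟩
    have h01 : (0 : H →L[ℂ] H) = 1 := by
      rw [← hf₀.sum_eq]
      simp
    have hv : ∀ v : H, v = 0 := by
      intro v
      have : (1 : H →L[ℂ] H) v = 0 := by rw [← h01]; rfl
      simpa using this
    refine ⟨1, A.one_mem, IsSelfAdjoint.one _, one_mul 1, fun i => ?_, fun i => ?_⟩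
    · rw [hv (q _), norm_zero]
      linarith
    · rw [hv (q _), norm_zero]
      linarith
  obtain ⟨T, _, f, hf, href, hclose⟩ := hpin q hq ι₀ f₀ hf₀ τ hτ1 I ζ γ hγ
  have hq1 : ∀ t, ‖q * f t‖ ^ 2 ≤ τ := by
    intro t
    obtain ⟨b, e, he, hfe⟩ := href t
    rw [hfe, ← mul_assoc]
    exact norm_mul_proj_sq_le he (hτ1 b)
  have hq2 : ∀ t, ‖q * x * f t‖ ^ 2 ≤ τ := by
    intro t
    obtain ⟨b, e, he, hfe⟩ := href t
    rw [hfe, ← mul_assoc]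
    exact norm_mul_proj_sq_le he (hτ2 b)
  obtain ⟨sg, hsg, hsum⟩ := exists_signs_op hf q x hq1 hq2 ζ
  have huA := hf.signOp_mem sg
  have husa := hf.signOp_isSelfAdjoint hsg
  have huu := hf.signOp_mul_self hsg
  generalize signOp f sg = u at hsum huA husa huu
  have hS1 : 0 ≤ ∑ i, ‖q ((u * x * u - pinching f x) (ζ i))‖ ^ 2 :=
    Finset.sum_nonneg fun _ _ => by positivity
  have hS2 : 0 ≤ ∑ i, ‖q ((u * x) (ζ i))‖ ^ 2 := Finset.sum_nonneg fun _ _ => by positivity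
  have hS3 : 0 ≤ ∑ i, ‖q ((x * u) (ζ i))‖ ^ 2 := Finset.sum_nonneg fun _ _ => by positivity
  have b1 : ∀ i, ‖q ((u * x * u - pinching f x) (ζ i))‖
      ≤ 4 * Real.sqrt τ * (‖x‖ + 1) * Real.sqrt (∑ i, ‖ζ i‖ ^ 2) := by
    intro i
    refine le_of_sq_le_bound (norm_nonneg _) hτ0 hX hZ
      (Finset.single_le_sum (f := fun i => ‖q ((u * x * u - pinching f x) (ζ i))‖ ^ 2)
        (fun _ _ => by positivity) (Finset.mem_univ i)) ?_ rfl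
    linarith
  have b2 : ∀ i, ‖q ((u * x) (ζ i))‖
      ≤ 4 * Real.sqrt τ * (‖x‖ + 1) * Real.sqrt (∑ i, ‖ζ i‖ ^ 2) := by
    intro i
    refine le_of_sq_le_bound (norm_nonneg _) hτ0 hX hZ
      (Finset.single_le_sum (f := fun i => ‖q ((u * x) (ζ i))‖ ^ 2)
        (fun _ _ => by positivity) (Finset.mem_univ i)) ?_ rfl
    linarith
  have b3 : ∀ i, ‖q ((x * u) (ζ i))‖
      ≤ 4 * Real.sqrt τ * (‖x‖ + 1) * Real.sqrt (∑ i, ‖ζ i‖ ^ 2) := by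
    intro i
    refine le_of_sq_le_bound (norm_nonneg _) hτ0 hX hZ
      (Finset.single_le_sum (f := fun i => ‖q ((x * u) (ζ i))‖ ^ 2)
        (fun _ _ => by positivity) (Finset.mem_univ i)) ?_ rfl
    linarith
  refine ⟨u, huA, husa, huu, fun i => ?_, fun i => ?_⟩
  · have h1 : q ((u * x * u - d) (ζ i))
        = q ((u * x * u - pinching f x) (ζ i)) + q ((pinching f x - d) (ζ i)) := by
      rw [← map_add, ← add_apply]
      congr 2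
      abel
    rw [h1]
    have h2 : 2 * Real.sqrt τ * ‖x‖ * Real.sqrt (∑ i, ‖ζ i‖ ^ 2)
        ≤ 2 * (Real.sqrt τ * (‖x‖ + 1) * Real.sqrt (∑ i, ‖ζ i‖ ^ 2)) := by
      have : 0 ≤ Real.sqrt τ * Real.sqrt (∑ i, ‖ζ i‖ ^ 2) := by positivity
      nlinarith
    have := norm_add_le (q ((u * x * u - pinching f x) (ζ i))) (q ((pinching f x - d) (ζ i)))
    have := b1 i
    have := hclose i
    linarith
  · have h1 : q ((x * u - u * x) (ζ i)) = q ((x * u) (ζ i)) - q ((u * x) (ζ i)) := by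
      rw [← map_sub, ← sub_apply]
    rw [h1]
    have := norm_sub_le (q ((x * u) (ζ i))) (q ((u * x) (ζ i)))
    have := b2 i
    have := b3 i
    linarith

end Vale.Agent.Lib.P078
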