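import Vale.Agent.Lib.P078.Thin.VecColoring
import Vale.Agent.Lib.P078.Thin.Block

/-!
# P078 (subtask U5a): one pinching imitates a convex combination of pinchings (after compression by a thin `q`)

Setting: `f₀` a partition with `‖q * f₀ b‖^2 ≤ τ` for all `b`; `g j` (`j : Fin k`) partitions; weights `lam j ≥ 0`, sum `1`.
For `sel : ι₀ → Fin k` the partition `selPart κ f₀ g sel` refines the block `f₀ b` by `g (sel b)`.

Blueprint.  Put `Y b j = f₀ b * pinching (g j) x * f₀ b = ∑ u, (f₀ b * g j u) * x * (f₀ b * g j u)` (commutativity of `A`, `f₀ b` idempotent),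
`‖Y b j‖ ≤ ‖x‖`, and `Ybar b = ∑ j, lam j • Y b j`, `‖Ybar b‖ ≤ ‖x‖`.  Then
`pinching (selPart κ f₀ g sel) x = ∑ b, Y b (sel b)` (`Fintype.sum_sigma`) and
`∑ j, lam j • pinching (fun p : ι₀ × κ j => f₀ p.1 * g j p.2) x = ∑ b, Ybar b` (`Fintype.sum_prod_type`, `Finset.sum_comm`).
Apply `exists_selection_vec` to `v i b j = q ((Y b j - Ybar b) (ζ i))`: `hv` holds because `∑ lam = 1`, and
`‖v i b j‖ = ‖(q * f₀ b) ((Y b j - Ybar b) (f₀ b (ζ i)))‖ ≤ sqrt τ * 2 ‖x‖ * ‖f₀ b (ζ i)‖`, so `c b = 4 τ ‖x‖^2 ∑ i ‖f₀ b (ζ i)‖^2` works;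
`∑ b, c b = 4 τ ‖x‖^2 ∑ i ‖ζ i‖^2` by `IsPartition.parseval`.
-/

set_option linter.unusedSectionVars false

namespace Vale.Agent.Lib.P078

open scoped InnerProductSpace

variable {H : Type*} [NormedAddCommGroup H] [InnerProductSpace ℂ H] [CompleteSpace H]
variable {A : StarSubalgebra ℂ (H →L[ℂ] H)}

/-- Refine the block `f₀ b` by the partition `g (sel b)`. -/
def selPart {ι₀ : Type*} {k : ℕ} (κ : Fin k → Type) (f₀ : ι₀ → H →L[ℂ] H)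
    (g : ∀ j, κ j → H →L[ℂ] H) (sel : ι₀ → Fin k) : (Σ b : ι₀, κ (sel b)) → H →L[ℂ] H :=
  fun p => f₀ p.1 * g (sel p.1) p.2

lemma isPartition_selPart (hA : ∀ a ∈ A, ∀ b ∈ A, a * b = b * a) {ι₀ : Type*} [Fintype ι₀]
    {k : ℕ} {κ : Fin k → Type} [∀ j, Fintype (κ j)] {f₀ : ι₀ → H →L[ℂ] H}
    (hf₀ : IsPartition A f₀) {g : ∀ j, κ j → H →L[ℂ] H} (hg : ∀ j, IsPartition A (g j))
    (sel : ι₀ → Fin k) : IsPartition A (selPart κ f₀ g sel) where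
  mem p := A.mul_mem (hf₀.mem _) ((hg _).mem _)
  proj p := (hf₀.proj _).mul ((hg _).proj _) (hA _ (hf₀.mem _) _ ((hg _).mem _))
  orth := by
    rintro ⟨b, u⟩ ⟨b', u'⟩ h
    show f₀ b * g (sel b) u * (f₀ b' * g (sel b') u') = 0
    have h1 : f₀ b * g (sel b) u * (f₀ b' * g (sel b') u')
        = (f₀ b * f₀ b') * (g (sel b) u * g (sel b') u') := by
      rw [mul_assoc, ← mul_assoc (g (sel b) u), hA _ ((hg _).mem u) _ (hf₀.mem b'), mul_assoc,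
        ← mul_assoc]
    rw [h1]
    by_cases hb : b = b'
    · subst hb
      have hu : u ≠ u' := by
        rintro rfl
        exact h rfl
      rw [(hg (sel b)).orth u u' hu, mul_zero]
    · rw [hf₀.orth b b' hb, zero_mul]
  sum_eq := by
    rw [Fintype.sum_sigma]
    unfold selPart
    simp only [← Finset.mul_sum, (hg _).sum_eq, mul_one, hf₀.sum_eq]

lemma norm_mul_selPart_sq_le {ι₀ : Type*} {k : ℕ} {κ : Fin k → Type} {f₀ : ι₀ → H →L[ℂ] H}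
    {g : ∀ j, κ j → H →L[ℂ] H} (hg : ∀ j u, IsStarProjection (g j u)) {q : H →L[ℂ] H} {τ : ℝ}
    (hq : ∀ b, ‖q * f₀ b‖ ^ 2 ≤ τ) (sel : ι₀ → Fin k) (p : Σ b : ι₀, κ (sel b)) :
    ‖q * selPart κ f₀ g sel p‖ ^ 2 ≤ τ :=
  norm_mul_prod_sq_le (hg (sel p.1)) hq p.1 p.2

lemma sum_mul_block (hA : ∀ a ∈ A, ∀ b ∈ A, a * b = b * a) {e : H →L[ℂ] H} (he : e ∈ A)
    {κ : Type*} [Fintype κ] {g : κ → H →L[ℂ] H} (hg : ∀ u, g u ∈ A) (x : H →L[ℂ] H) :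
    ∑ u, (e * g u) * x * (e * g u) = e * pinching g x * e := by
  unfold pinching
  rw [Finset.mul_sum, Finset.sum_mul]
  refine Finset.sum_congr rfl fun u _ => ?_
  have h : e * g u = g u * e := hA _ he _ (hg u)
  calc e * g u * x * (e * g u) = e * g u * x * (g u * e) := by rw [← h]
    _ = e * (g u * x * g u) * e := by simp only [mul_assoc]

theorem exists_selection_op (hA : ∀ a ∈ A, ∀ b ∈ A, a * b = b * a) {ι₀ : Type*} [Fintype ι₀]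
    {k : ℕ} {κ : Fin k → Type} [∀ j, Fintype (κ j)] {f₀ : ι₀ → H →L[ℂ] H}
    (hf₀ : IsPartition A f₀) {g : ∀ j, κ j → H →L[ℂ] H} (hg : ∀ j, IsPartition A (g j))
    (lam : Fin k → ℝ) (h0 : ∀ j, 0 ≤ lam j) (h1 : ∑ j, lam j = 1) (q x : H →L[ℂ] H) {τ : ℝ}
    (hq : ∀ b, ‖q * f₀ b‖ ^ 2 ≤ τ) {I : Type*} [Fintype I] (ζ : I → H) :
    ∃ sel : ι₀ → Fin k,
      ∑ i, ‖q ((pinching (selPart κ f₀ g sel) x
          - ∑ j, (lam j : ℂ) • pinching (fun p : ι₀ × κ j => f₀ p.1 * g j p.2) x) (ζ i))‖ ^ 2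
        ≤ 4 * τ * ‖x‖ ^ 2 * ∑ i, ‖ζ i‖ ^ 2 := by
  obtain ⟨P, hP⟩ : ∃ P : Fin k → H →L[ℂ] H, ∀ j, P j = pinching (g j) x := ⟨_, fun _ => rfl⟩
  obtain ⟨Pbar, hPbar⟩ : ∃ Pbar : H →L[ℂ] H, Pbar = ∑ j, (lam j : ℂ) • P j := ⟨_, rfl⟩
  have hPn : ∀ j, ‖P j‖ ≤ ‖x‖ := fun j => by
    rw [hP j]
    exact (hg j).norm_pinching_le x
  have hPbarn : ‖Pbar‖ ≤ ‖x‖ := by
    calc ‖Pbar‖ ≤ ∑ j, ‖(lam j : ℂ) • P j‖ := by
          rw [hPbar]
          exact norm_sum_le _ _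
      _ ≤ ∑ j, lam j * ‖x‖ := by
          refine Finset.sum_le_sum fun j _ => ?_
          rw [norm_smul, Complex.norm_real, Real.norm_of_nonneg (h0 j)]
          exact mul_le_mul_of_nonneg_left (hPn j) (h0 j)
      _ = ‖x‖ := by rw [← Finset.sum_mul, h1, one_mul]
  have hD : ∀ j, ‖P j - Pbar‖ ≤ 2 * ‖x‖ := fun j => by
    calc ‖P j - Pbar‖ ≤ ‖P j‖ + ‖Pbar‖ := norm_sub_le _ _
      _ ≤ 2 * ‖x‖ := by linarith [hPn j]
  have hsel : ∀ sel : ι₀ → Fin k,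
      pinching (selPart κ f₀ g sel) x = ∑ b, f₀ b * P (sel b) * f₀ b := by
    intro sel
    simp only [hP]
    rw [pinching, Fintype.sum_sigma]
    exact Finset.sum_congr rfl fun b _ => sum_mul_block hA (hf₀.mem b) (hg (sel b)).mem x
  have hprod : ∀ j, pinching (fun p : ι₀ × κ j => f₀ p.1 * g j p.2) x
      = ∑ b, f₀ b * P j * f₀ b := by
    intro j
    simp only [hP]
    rw [pinching, Fintype.sum_prod_type]
    exact Finset.sum_congr rfl fun b _ => sum_mul_block hA (hf₀.mem b) (hg j).mem x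
  have hbar : ∑ j, (lam j : ℂ) • pinching (fun p : ι₀ × κ j => f₀ p.1 * g j p.2) x
      = ∑ b, f₀ b * Pbar * f₀ b := by
    simp only [hprod, Finset.smul_sum]
    rw [Finset.sum_comm]
    refine Finset.sum_congr rfl fun b _ => ?_
    rw [hPbar, Finset.mul_sum, Finset.sum_mul]
    refine Finset.sum_congr rfl fun j _ => ?_
    rw [mul_smul_comm, smul_mul_assoc]
  have hzero : ∑ j, (lam j : ℂ) • (P j - Pbar) = 0 := by
    have h1' : ∑ j, (lam j : ℂ) = 1 := by exact_mod_cast h1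
    simp only [smul_sub, Finset.sum_sub_distrib]
    rw [← Finset.sum_smul, h1', one_smul, ← hPbar, sub_self]
  have hv : ∀ (i : I) (b : ι₀),
      ∑ j, (lam j : ℂ) • (q * f₀ b * (P j - Pbar) * f₀ b) (ζ i) = 0 := by
    intro i b
    have h2 : (q * f₀ b * (∑ j, (lam j : ℂ) • (P j - Pbar)) * f₀ b) (ζ i)
        = ∑ j, (lam j : ℂ) • (q * f₀ b * (P j - Pbar) * f₀ b) (ζ i) := by
      rw [Finset.mul_sum, Finset.sum_mul, _root_.sum_apply]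
      refine Finset.sum_congr rfl fun j _ => ?_
      rw [mul_smul_comm, smul_mul_assoc]
      rfl
    rw [← h2, hzero, mul_zero, zero_mul]
    rfl
  have hc : ∀ (b : ι₀) (j : Fin k), ∑ i, ‖(q * f₀ b * (P j - Pbar) * f₀ b) (ζ i)‖ ^ 2
      ≤ 4 * τ * ‖x‖ ^ 2 * ∑ i, ‖f₀ b (ζ i)‖ ^ 2 := by
    intro b j
    rw [Finset.mul_sum]
    refine Finset.sum_le_sum fun i _ => ?_
    have hτ : 0 ≤ τ := (sq_nonneg _).trans (hq b)
    have h3 : ‖(q * f₀ b * (P j - Pbar) * f₀ b) (ζ i)‖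
        ≤ ‖q * f₀ b‖ * (‖P j - Pbar‖ * ‖f₀ b (ζ i)‖) := by
      calc ‖(q * f₀ b * (P j - Pbar) * f₀ b) (ζ i)‖
          = ‖(q * f₀ b) ((P j - Pbar) (f₀ b (ζ i)))‖ := rfl
        _ ≤ ‖q * f₀ b‖ * ‖(P j - Pbar) (f₀ b (ζ i))‖ := (q * f₀ b).le_opNorm _
        _ ≤ ‖q * f₀ b‖ * (‖P j - Pbar‖ * ‖f₀ b (ζ i)‖) :=
          mul_le_mul_of_nonneg_left ((P j - Pbar).le_opNorm _) (norm_nonneg _)
    calc ‖(q * f₀ b * (P j - Pbar) * f₀ b) (ζ i)‖ ^ 2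
        ≤ (‖q * f₀ b‖ * (‖P j - Pbar‖ * ‖f₀ b (ζ i)‖)) ^ 2 :=
          pow_le_pow_left₀ (norm_nonneg _) h3 2
      _ = ‖q * f₀ b‖ ^ 2 * (‖P j - Pbar‖ ^ 2 * ‖f₀ b (ζ i)‖ ^ 2) := by ring
      _ ≤ τ * ((2 * ‖x‖) ^ 2 * ‖f₀ b (ζ i)‖ ^ 2) := by
          refine mul_le_mul (hq b) ?_ (by positivity) hτ
          exact mul_le_mul_of_nonneg_right (pow_le_pow_left₀ (norm_nonneg _) (hD j) 2)
            (sq_nonneg _)
      _ = 4 * τ * ‖x‖ ^ 2 * ‖f₀ b (ζ i)‖ ^ 2 := by ring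
  obtain ⟨sel, hs⟩ := exists_selection_vec lam h0 h1
    (fun i b j => (q * f₀ b * (P j - Pbar) * f₀ b) (ζ i)) hv
    (fun b => 4 * τ * ‖x‖ ^ 2 * ∑ i, ‖f₀ b (ζ i)‖ ^ 2) hc
  refine ⟨sel, ?_⟩
  have hL : ∀ i, q ((pinching (selPart κ f₀ g sel) x
      - ∑ j, (lam j : ℂ) • pinching (fun p : ι₀ × κ j => f₀ p.1 * g j p.2) x) (ζ i))
      = ∑ b, (q * f₀ b * (P (sel b) - Pbar) * f₀ b) (ζ i) := by
    intro i
    rw [hsel sel, hbar, ← Finset.sum_sub_distrib, _root_.sum_apply, map_sum]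
    refine Finset.sum_congr rfl fun b _ => ?_
    rw [← sub_mul, ← mul_sub]
    rfl
  have hR : ∑ b, 4 * τ * ‖x‖ ^ 2 * ∑ i, ‖f₀ b (ζ i)‖ ^ 2
      = 4 * τ * ‖x‖ ^ 2 * ∑ i, ‖ζ i‖ ^ 2 := by
    rw [← Finset.mul_sum, Finset.sum_comm]
    simp only [hf₀.parseval]
  simp only [hL]
  rw [← hR]
  exact hs

end Vale.Agent.Lib.P078
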