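import Vale.Agent.Lib.P078.Thin.Approx

/-!
# P078 (subtask U5d): so-pavability over a thin MASA for `ε > 1 / r`

Blueprint.  If `‖x‖ = 0` (so `x = 0`) take `p` = any partition with `r` pieces (e.g. `coarsen (fun _ : Unit => 1) (fun _ => ⟨0, hr⟩)`, see `IsPartition.unit` in `Step.lean`),
`a = 0`, `q = 1`.  Otherwise let `η = (ε - 1/r) ‖x‖ > 0`.
Given `F`, `δ`: index type `I = ↥F`, choose `γ₀ > 0` with `γ₀ / η < δ / 2` (e.g. `γ₀ = η δ / 4`), then `τ > 0` with `4 sqrt τ ‖x‖ sqrt (∑ ξ ∈ F, ‖ξ‖^2) ≤ γ₀ / 2`, and `γ = γ₀ / 2`.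
`IsThin.exists_proj` gives `q`, `f₀` with `‖(1 - q) ξ‖ < δ / 2` on `F`.  Apply `exists_paving_approx` with `ζ ξ = q ξ` (`‖q ξ‖ ≤ ‖ξ‖`).
Let `a = (1 - 1/r) • a'` (real scalar in `[0, 1]`, so `a` is self-adjoint, in `A`, `‖a‖ ≤ ‖x‖`) and `y = q * (pinching p x - a - (1/r) • x) * q`: self-adjoint, in `M`
(`A ⊆ M`), `q * y = y`, `‖y ξ‖ ≤ γ₀`.
`exists_cut` gives `q' ≤ q` with `‖q' y q'‖ ≤ η`, `η ‖(q - q') ξ‖ ≤ γ₀`.  Then `‖(1 - q') ξ‖ ≤ ‖(1 - q) ξ‖ + ‖(q - q') ξ‖ < δ`, and since `q' = q * q' = q' * q`,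
`q' (pinching p x - a) q' = q' y q' + (1/r) q' x q'`, of norm `≤ η + ‖x‖ / r = ε ‖x‖`.
-/

set_option linter.unusedSectionVars false

namespace Vale.Agent.Lib.P078

open scoped InnerProductSpace

variable {H : Type*} [NormedAddCommGroup H] [InnerProductSpace ℂ H] [CompleteSpace H]
variable {M : VonNeumannAlgebra H} {A : StarSubalgebra ℂ (H →L[ℂ] H)}

lemma vN_smul_mem {x : H →L[ℂ] H} (hx : x ∈ M) (c : ℂ) : c • x ∈ M :=
  M.toStarSubalgebra.smul_mem hx c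

lemma pinching_mem_vN {ι : Type*} [Fintype ι] {p : ι → H →L[ℂ] H} (hp : ∀ i, p i ∈ M)
    {x : H →L[ℂ] H} (hx : x ∈ M) : pinching p x ∈ M :=
  sum_mem fun i _ => mul_mem (mul_mem (hp i) hx) (hp i)

lemma pinching_isSelfAdjoint {ι : Type*} [Fintype ι] {p : ι → H →L[ℂ] H}
    (hp : ∀ i, IsSelfAdjoint (p i)) {x : H →L[ℂ] H} (hx : IsSelfAdjoint x) :
    IsSelfAdjoint (pinching p x) := by
  refine isSelfAdjoint_sum _ fun i _ => ?_
  rw [IsSelfAdjoint, star_mul, star_mul, (hp i).star_eq, hx.star_eq, mul_assoc]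

lemma isSelfAdjoint_compress {q w : H →L[ℂ] H} (hq : IsSelfAdjoint q) (hw : IsSelfAdjoint w) :
    IsSelfAdjoint (q * w * q) := by
  rw [IsSelfAdjoint, star_mul, star_mul, hq.star_eq, hw.star_eq, mul_assoc]

lemma isSelfAdjoint_real_smul (c : ℝ) {w : H →L[ℂ] H} (hw : IsSelfAdjoint w) :
    IsSelfAdjoint ((c : ℂ) • w) := by
  rw [IsSelfAdjoint, star_smul, hw.star_eq]
  simp

/-- Choice of the small parameter `τ`. -/
lemma exists_tau {X Z g : ℝ} (hX : 0 < X) (_hZ : 0 ≤ Z) (hg : 0 < g) :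
    ∃ τ : ℝ, 0 < τ ∧ 4 * Real.sqrt τ * X * Real.sqrt Z ≤ g := by
  have hs : 0 ≤ Real.sqrt Z := Real.sqrt_nonneg Z
  have hd : 0 < 4 * X * (Real.sqrt Z + 1) := by positivity
  refine ⟨(g / (4 * X * (Real.sqrt Z + 1))) ^ 2, by positivity, ?_⟩
  rw [Real.sqrt_sq (by positivity)]
  have h1 : 4 * (g / (4 * X * (Real.sqrt Z + 1))) * X * Real.sqrt Z
      = g * (Real.sqrt Z / (Real.sqrt Z + 1)) := by
    field_simp
  rw [h1]
  have h2 : Real.sqrt Z / (Real.sqrt Z + 1) ≤ 1 := by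
    rw [div_le_one (by positivity)]
    linarith
  nlinarith

lemma soPavable_zero {r' : ℕ} (hr : 0 < r') {ε : ℝ} : SoPavable M A (0 : H →L[ℂ] H) ε r' := by
  classical
  intro F δ hδ
  refine ⟨coarsen (fun _ : Unit => (1 : H →L[ℂ] H)) (fun _ => ⟨0, hr⟩), 0, 1,
    IsPartition.unit.coarsen _, A.zero_mem, IsSelfAdjoint.zero _, by simp, one_mem M,
    ⟨IsIdempotentElem.one, IsSelfAdjoint.one _⟩, ?_, ?_⟩
  · intro ξ _
    simpa using hδ
  · simp [pinching]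

theorem soPavable_of_thin (hM : IsMASA M A) (hthin : IsThin M A) {x : H →L[ℂ] H} (hxM : x ∈ M)
    (hx : IsSelfAdjoint x) {r : ℕ} (hr : 0 < r) {ε : ℝ} (hε : 1 / (r : ℝ) < ε) :
    SoPavable M A x ε r := by
  classical
  by_cases hx0 : x = 0
  · subst hx0
    exact soPavable_zero hr
  have hX : 0 < ‖x‖ := norm_pos_iff.2 hx0
  have hr0 : (0 : ℝ) < r := by exact_mod_cast hr
  have hρ0 : (0 : ℝ) ≤ 1 / (r : ℝ) := by positivity
  set η : ℝ := (ε - 1 / r) * ‖x‖ with hη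
  have hη0 : 0 < η := mul_pos (by linarith) hX
  intro F δ hδ
  obtain ⟨a', ha'A, ha'sa, ha'n, Hyp⟩ := exists_paving_approx hM hxM hx
  set γ₀ : ℝ := η * δ / 4 with hγ₀
  have hγ₀0 : 0 < γ₀ := by positivity
  set Z : ℝ := ∑ i : Fin F.card, ‖((F.equivFin.symm i : F) : H)‖ ^ 2 with hZ
  have hZ0 : 0 ≤ Z := Finset.sum_nonneg fun _ _ => by positivity
  obtain ⟨τ, hτ0, hτ⟩ := exists_tau hX hZ0 (half_pos hγ₀0)
  obtain ⟨q, n, f₀, hqM, hq, hqF, hf₀, hqf⟩ := hthin.exists_proj F (half_pos hδ) hτ0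
  obtain ⟨p, hp, hest⟩ := Hyp q hq (Fin n) f₀ hf₀ τ hqf r hr (Fin F.card)
    (fun i => q ((F.equivFin.symm i : F) : H)) (γ₀ / 2) (half_pos hγ₀0)
  have hs : (1 - 1 / (r : ℂ)) = ((1 - 1 / (r : ℝ) : ℝ) : ℂ) := by
    push_cast
    ring
  have hs' : (1 / (r : ℂ)) = ((1 / (r : ℝ) : ℝ) : ℂ) := by
    push_cast
    ring
  set a : H →L[ℂ] H := (1 - 1 / (r : ℂ)) • a' with ha
  have haA : a ∈ A := A.smul_mem ha'A _
  have hasa : IsSelfAdjoint a := by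
    rw [ha, hs]
    exact isSelfAdjoint_real_smul _ ha'sa
  have han : ‖a‖ ≤ ‖x‖ := by
    rw [ha, norm_smul]
    calc ‖(1 - 1 / (r : ℂ))‖ * ‖a'‖ ≤ 1 * ‖x‖ :=
          mul_le_mul (norm_one_sub_inv_le hr) ha'n (norm_nonneg _) zero_le_one
      _ = ‖x‖ := one_mul _
  set W : H →L[ℂ] H := pinching p x - a - (1 / (r : ℂ)) • x with hW
  have hWM : W ∈ M :=
    sub_mem (sub_mem (pinching_mem_vN (fun i => hM.1 _ (hp.mem i)) hxM) (hM.1 _ haA))
      (vN_smul_mem hxM _)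
  have hWsa : IsSelfAdjoint W := by
    refine ((pinching_isSelfAdjoint (fun i => (hp.proj i).isSelfAdjoint) hx).sub hasa).sub ?_
    rw [hs']
    exact isSelfAdjoint_real_smul _ hx
  set y : H →L[ℂ] H := q * W * q with hy
  have hyM : y ∈ M := mul_mem (mul_mem hqM hWM) hqM
  have hysa : IsSelfAdjoint y := isSelfAdjoint_compress hq.isSelfAdjoint hWsa
  have hqq : q * q = q := hq.isIdempotentElem.eq
  have hqy : q * y = y := by
    rw [hy, ← mul_assoc, ← mul_assoc, hqq]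
  have hZ' : ∑ i : Fin F.card, ‖q ((F.equivFin.symm i : F) : H)‖ ^ 2 ≤ Z := by
    refine Finset.sum_le_sum fun i _ => ?_
    have := proj_norm_le hq ((F.equivFin.symm i : F) : H)
    gcongr
  have hyF : ∀ ξ ∈ F, ‖y ξ‖ ≤ γ₀ := by
    intro ξ hξ
    have h1 := hest (F.equivFin ⟨ξ, hξ⟩)
    simp only [Equiv.symm_apply_apply] at h1
    have h2 : y ξ = q (W (q ξ)) := rfl
    rw [h2]
    refine h1.trans ?_
    have h3 : 4 * Real.sqrt τ * ‖x‖
        * Real.sqrt (∑ i : Fin F.card, ‖q ((F.equivFin.symm i : F) : H)‖ ^ 2)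
        ≤ 4 * Real.sqrt τ * ‖x‖ * Real.sqrt Z :=
      mul_le_mul_of_nonneg_left (Real.sqrt_le_sqrt hZ') (by positivity)
    linarith
  obtain ⟨q', hq'M, hq', hqq', hq'y, hcut⟩ := exists_cut hqM hq hyM hysa hqy hη0
  have hq'q : q' * q = q' := by
    have := congrArg star hqq'
    rwa [star_mul, hq'.isSelfAdjoint.star_eq, hq.isSelfAdjoint.star_eq] at this
  refine ⟨p, a, q', hp, haA, hasa, han, hq'M, hq', ?_, ?_⟩
  · intro ξ hξ
    have h1 : (1 - q') ξ = (1 - q) ξ + (q - q') ξ := by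
      simp only [sub_apply]
      abel
    have h2 : ‖(q - q') ξ‖ ≤ δ / 4 := by
      have h3 := (hcut ξ).trans (hyF ξ hξ)
      rw [hγ₀] at h3
      have h4 : η * ‖(q - q') ξ‖ ≤ η * (δ / 4) := by linarith
      exact le_of_mul_le_mul_left h4 hη0
    rw [h1]
    have h5 := hqF ξ hξ
    have h6 := norm_add_le ((1 - q) ξ) ((q - q') ξ)
    linarith
  · refine norm_compress_paving_le (ρ := 1 / (r : ℝ)) (η := ε - 1 / (r : ℝ)) hq' hρ0 ?_
      (by linarith)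
    rw [← hs', ← hW, ← hη]
    have h1 : q' * y * q' = q' * W * q' := by
      rw [hy]
      calc q' * (q * W * q) * q' = (q' * q) * W * (q * q') := by
            simp only [mul_assoc]
        _ = q' * W * q' := by rw [hq'q, hqq']
    rw [← h1]
    exact hq'y

end Vale.Agent.Lib.P078
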