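import Vale.Agent.Lib.P078.Coloring2

/-!
# P078 (subtask U1): Hilbert-space valued colouring, sign and selection lemmas

All three lemmas are about finite families of vectors of an inner product space `E` (no operators).

Blueprint.
* `exists_coloring_vec`: the vector version of `exists_coloring` (file `Coloring.lean`).  Either repeat the second
  moment computation with inner products (`‖∑ p, Z p • w p‖^2 = ∑ p p', Z p * Z p' * ⟪w p, w p'⟫`, then
  `norm_sum_Zc_mul_Zc_le` and `2 |⟪a, b⟫| ≤ ‖a‖^2 + ‖b‖^2`), or reduce to the scalar lemma: the finitely many vectors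
  `w i s t` span a finite dimensional subspace; take an orthonormal basis `b` of it (`stdOrthonormalBasis`) and apply
  `exists_coloring` to the coordinates `c (i, k) s t = ⟪b k, w i s t⟫` (Parseval on both sides).
* `exists_signs_vec`: the same for `exists_signs` (file `Coloring2.lean`).
* `exists_selection_vec`: greedy choice.  Order does not matter: induct on a `Finset` of indices `b`.  If `S i` is the
  partial sum, then `∑ j, lam j * (∑ i, re ⟪S i, v i b j⟫) = 0` by `hv`, so some `j` with `∑ i, re ⟪S i, v i b j⟫ ≤ 0`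
  exists (all `lam j ≥ 0`, sum `1`); for this `j`,
  `∑ i ‖S i + v i b j‖^2 ≤ ∑ i ‖S i‖^2 + ∑ i ‖v i b j‖^2 ≤ ∑ i ‖S i‖^2 + c b`.
-/

set_option linter.unusedSectionVars false

namespace Vale.Agent.Lib.P078

open scoped InnerProductSpace

variable {E : Type*} [NormedAddCommGroup E] [InnerProductSpace ℂ E]

/-- Coordinates: finitely many vectors live in a finite dimensional subspace, on which the norm is given by
finitely many linear functionals (Parseval). -/
lemma exists_coords {A : Type*} [Finite A] (x : A → E) :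
    ∃ (n : ℕ) (φ : E →ₗ[ℂ] (Fin n → ℂ)),
      ∀ y ∈ Submodule.span ℂ (Set.range x), ∑ k, ‖φ y k‖ ^ 2 = ‖y‖ ^ 2 := by
  classical
  set V : Submodule ℂ E := Submodule.span ℂ (Set.range x) with hV
  have : FiniteDimensional ℂ V := FiniteDimensional.span_of_finite ℂ (Set.finite_range x)
  let b := stdOrthonormalBasis ℂ V
  refine ⟨Module.finrank ℂ V, LinearMap.pi fun k => innerₛₗ ℂ ((b k : V) : E), ?_⟩
  intro y hy
  have h := b.sum_sq_norm_inner_right (⟨y, hy⟩ : V)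
  simpa using h

lemma coords_sum_smul₂ {n : ℕ} (φ : E →ₗ[ℂ] (Fin n → ℂ)) {T : Type*} [Fintype T]
    (Z : T → T → ℂ) (w : T → T → E) (k : Fin n) :
    φ (∑ s, ∑ t, Z s t • w s t) k = ∑ s, ∑ t, Z s t * φ (w s t) k := by
  simp [map_sum, Finset.sum_apply]

lemma coords_sum_smul₁ {n : ℕ} (φ : E →ₗ[ℂ] (Fin n → ℂ)) {T : Type*} [Fintype T]
    (Z : T → ℂ) (w : T → E) (k : Fin n) :
    φ (∑ t, Z t • w t) k = ∑ t, Z t * φ (w t) k := by
  simp [map_sum, Finset.sum_apply]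

lemma exists_coloring_vec {I T : Type*} [Fintype I] [Fintype T] [DecidableEq T] {r : ℕ}
    (hr : 0 < r) (w : I → T → T → E) :
    ∃ col : T → Fin r, ∑ i, ‖∑ s, ∑ t, Zc col s t • w i s t‖ ^ 2
      ≤ 2 * ∑ i, ∑ s, ∑ t, ‖w i s t‖ ^ 2 := by
  obtain ⟨n, φ, hφ⟩ := exists_coords (fun a : I × T × T => w a.1 a.2.1 a.2.2)
  have hmem : ∀ i s t, w i s t ∈ Submodule.span ℂ
      (Set.range fun a : I × T × T => w a.1 a.2.1 a.2.2) := fun i s t =>
    Submodule.subset_span ⟨(i, s, t), rfl⟩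
  obtain ⟨col, hcol⟩ := exists_coloring (I := I × Fin n) hr
    (fun ik s t => φ (w ik.1 s t) ik.2)
  refine ⟨col, ?_⟩
  rw [Fintype.sum_prod_type, Fintype.sum_prod_type] at hcol
  have h1 : ∀ i, ∑ k, ‖∑ s, ∑ t, Zc col s t * φ (w i s t) k‖ ^ 2
      = ‖∑ s, ∑ t, Zc col s t • w i s t‖ ^ 2 := by
    intro i
    rw [← hφ _ (Submodule.sum_mem _ fun s _ => Submodule.sum_mem _ fun t _ =>
      Submodule.smul_mem _ _ (hmem i s t))]
    refine Finset.sum_congr rfl fun k _ => ?_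
    rw [coords_sum_smul₂]
  have h2 : ∀ i, ∑ k, ∑ s, ∑ t, ‖φ (w i s t) k‖ ^ 2 = ∑ s, ∑ t, ‖w i s t‖ ^ 2 := by
    intro i
    rw [Finset.sum_comm]
    refine Finset.sum_congr rfl fun s _ => ?_
    rw [Finset.sum_comm]
    exact Finset.sum_congr rfl fun t _ => hφ _ (hmem i s t)
  simp only [h1, h2] at hcol
  exact hcol

lemma exists_signs_vec {I K T : Type*} [Fintype I] [Fintype K] [Fintype T] [DecidableEq T]
    (wq : I → T → T → E) (wl : K → T → E) :
    ∃ sg : T → ℂ, (∀ t, sg t = 1 ∨ sg t = -1) ∧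
      ∑ i, ‖∑ s, ∑ t, (sg s * sg t - (if s = t then 1 else 0)) • wq i s t‖ ^ 2
        + ∑ k, ‖∑ t, sg t • wl k t‖ ^ 2
      ≤ 8 * (∑ i, ∑ s, ∑ t, ‖wq i s t‖ ^ 2 + ∑ k, ∑ t, ‖wl k t‖ ^ 2) := by
  obtain ⟨n, φ, hφ⟩ := exists_coords
    (Sum.elim (fun a : I × T × T => wq a.1 a.2.1 a.2.2) (fun a : K × T => wl a.1 a.2))
  have hmq : ∀ i s t, wq i s t ∈ Submodule.span ℂ (Set.range
      (Sum.elim (fun a : I × T × T => wq a.1 a.2.1 a.2.2) (fun a : K × T => wl a.1 a.2))) :=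
    fun i s t => Submodule.subset_span ⟨Sum.inl (i, s, t), rfl⟩
  have hml : ∀ k t, wl k t ∈ Submodule.span ℂ (Set.range
      (Sum.elim (fun a : I × T × T => wq a.1 a.2.1 a.2.2) (fun a : K × T => wl a.1 a.2))) :=
    fun k t => Submodule.subset_span ⟨Sum.inr (k, t), rfl⟩
  obtain ⟨sg, hsg, h⟩ := exists_signs (I := I × Fin n) (K := K × Fin n)
    (fun ik s t => φ (wq ik.1 s t) ik.2) (fun kk t => φ (wl kk.1 t) kk.2)
  refine ⟨sg, hsg, ?_⟩
  rw [Fintype.sum_prod_type, Fintype.sum_prod_type, Fintype.sum_prod_type,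
    Fintype.sum_prod_type] at h
  have h1 : ∀ i, ∑ k, ‖∑ s, ∑ t, (sg s * sg t - (if s = t then 1 else 0)) * φ (wq i s t) k‖ ^ 2
      = ‖∑ s, ∑ t, (sg s * sg t - (if s = t then 1 else 0)) • wq i s t‖ ^ 2 := by
    intro i
    rw [← hφ _ (Submodule.sum_mem _ fun s _ => Submodule.sum_mem _ fun t _ =>
      Submodule.smul_mem _ _ (hmq i s t))]
    refine Finset.sum_congr rfl fun k _ => ?_
    rw [coords_sum_smul₂ φ (fun s t => sg s * sg t - (if s = t then 1 else 0))]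
  have h2 : ∀ i, ∑ k, ∑ s, ∑ t, ‖φ (wq i s t) k‖ ^ 2 = ∑ s, ∑ t, ‖wq i s t‖ ^ 2 := by
    intro i
    rw [Finset.sum_comm]
    refine Finset.sum_congr rfl fun s _ => ?_
    rw [Finset.sum_comm]
    exact Finset.sum_congr rfl fun t _ => hφ _ (hmq i s t)
  have h3 : ∀ j, ∑ k, ‖∑ t, sg t * φ (wl j t) k‖ ^ 2 = ‖∑ t, sg t • wl j t‖ ^ 2 := by
    intro j
    rw [← hφ _ (Submodule.sum_mem _ fun t _ => Submodule.smul_mem _ _ (hml j t))]
    refine Finset.sum_congr rfl fun k _ => ?_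
    rw [coords_sum_smul₁]
  have h4 : ∀ j, ∑ k, ∑ t, ‖φ (wl j t) k‖ ^ 2 = ∑ t, ‖wl j t‖ ^ 2 := by
    intro j
    rw [Finset.sum_comm]
    exact Finset.sum_congr rfl fun t _ => hφ _ (hml j t)
  simp only [h1, h2, h3, h4] at h
  exact h

/-- One greedy step: some index `j` has non-positive total correlation with the partial sums. -/
lemma exists_index_nonpos {I : Type*} [Fintype I] {k : ℕ} (lam : Fin k → ℝ)
    (h0 : ∀ j, 0 ≤ lam j) (h1 : ∑ j, lam j = 1) (S : I → E) (u : I → Fin k → E)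
    (hu : ∀ i, ∑ j, (lam j : ℂ) • u i j = 0) :
    ∃ j, ∑ i, RCLike.re ⟪S i, u i j⟫_ℂ ≤ 0 := by
  by_contra hcon
  push Not at hcon
  have hz : ∑ j, lam j * ∑ i, RCLike.re ⟪S i, u i j⟫_ℂ = 0 := by
    have e1 : ∀ i, ∑ j, lam j * RCLike.re ⟪S i, u i j⟫_ℂ = 0 := by
      intro i
      have e2 : ⟪S i, ∑ j, (lam j : ℂ) • u i j⟫_ℂ = 0 := by rw [hu i, inner_zero_right]
      rw [inner_sum] at e2
      have e3 := congrArg RCLike.re e2
      rw [map_sum] at e3
      rw [← e3.trans (map_zero _)]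
      refine Finset.sum_congr rfl fun j _ => ?_
      rw [inner_smul_right]
      simp
    calc ∑ j, lam j * ∑ i, RCLike.re ⟪S i, u i j⟫_ℂ
        = ∑ i, ∑ j, lam j * RCLike.re ⟪S i, u i j⟫_ℂ := by
          rw [Finset.sum_comm]
          exact Finset.sum_congr rfl fun j _ => Finset.mul_sum _ _ _
      _ = 0 := Finset.sum_eq_zero fun i _ => e1 i
  have hex : ∃ j, 0 < lam j := by
    by_contra hno
    push Not at hno
    have : ∑ j, lam j ≤ 0 := Finset.sum_nonpos fun j _ => hno j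
    linarith
  obtain ⟨j0, hj0⟩ := hex
  have hpos : 0 < ∑ j, lam j * ∑ i, RCLike.re ⟪S i, u i j⟫_ℂ :=
    Finset.sum_pos' (fun j _ => mul_nonneg (h0 j) (hcon j).le)
      ⟨j0, Finset.mem_univ _, mul_pos hj0 (hcon j0)⟩
  linarith

lemma exists_selection_finset {I B : Type*} [Fintype I] [DecidableEq B] {k : ℕ} (lam : Fin k → ℝ)
    (h0 : ∀ j, 0 ≤ lam j) (h1 : ∑ j, lam j = 1) (v : I → B → Fin k → E)
    (hv : ∀ i b, ∑ j, (lam j : ℂ) • v i b j = 0) (c : B → ℝ)
    (hc : ∀ b j, ∑ i, ‖v i b j‖ ^ 2 ≤ c b) (F : Finset B) :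
    ∃ sel : B → Fin k, ∑ i, ‖∑ b ∈ F, v i b (sel b)‖ ^ 2 ≤ ∑ b ∈ F, c b := by
  induction F using Finset.induction_on with
  | empty =>
    have hk : 0 < k := by
      rcases Nat.eq_zero_or_pos k with hk | hk
      · subst hk
        simp at h1
      · exact hk
    exact ⟨fun _ => ⟨0, hk⟩, by simp⟩
  | insert b0 F hb ih =>
    obtain ⟨sel, hsel⟩ := ih
    obtain ⟨j, hj⟩ := exists_index_nonpos lam h0 h1 (fun i => ∑ b ∈ F, v i b (sel b))
      (fun i j => v i b0 j) (fun i => hv i b0)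
    refine ⟨Function.update sel b0 j, ?_⟩
    have hsum : ∀ i, ∑ b ∈ insert b0 F, v i b (Function.update sel b0 j b)
        = (∑ b ∈ F, v i b (sel b)) + v i b0 j := by
      intro i
      rw [Finset.sum_insert hb, Function.update_self, add_comm]
      congr 1
      refine Finset.sum_congr rfl fun b hbF => ?_
      have : b ≠ b0 := fun h => hb (h ▸ hbF)
      rw [Function.update_of_ne this]
    simp only [hsum]
    rw [Finset.sum_insert hb]
    have hexp : ∀ i, ‖(∑ b ∈ F, v i b (sel b)) + v i b0 j‖ ^ 2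
        = ‖∑ b ∈ F, v i b (sel b)‖ ^ 2
          + 2 * RCLike.re ⟪∑ b ∈ F, v i b (sel b), v i b0 j⟫_ℂ + ‖v i b0 j‖ ^ 2 :=
      fun i => norm_add_sq (𝕜 := ℂ) _ _
    rw [Finset.sum_congr rfl fun i _ => hexp i, Finset.sum_add_distrib, Finset.sum_add_distrib,
      ← Finset.mul_sum]
    have := hc b0 j
    linarith

lemma exists_selection_vec {I B : Type*} [Fintype I] [Fintype B] {k : ℕ} (lam : Fin k → ℝ)
    (h0 : ∀ j, 0 ≤ lam j) (h1 : ∑ j, lam j = 1) (v : I → B → Fin k → E)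
    (hv : ∀ i b, ∑ j, (lam j : ℂ) • v i b j = 0) (c : B → ℝ)
    (hc : ∀ b j, ∑ i, ‖v i b j‖ ^ 2 ≤ c b) :
    ∃ sel : B → Fin k, ∑ i, ‖∑ b, v i b (sel b)‖ ^ 2 ≤ ∑ b, c b := by
  classical
  exact exists_selection_finset lam h0 h1 v hv c hc Finset.univ

end Vale.Agent.Lib.P078
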