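import Vale.Agent.Lib.P078.Basic

/-!
# P078 (subtask U3a): weak operator compactness of balls of `B(H)`, ultrafilter form

Blueprint.  For fixed `u v`, the function `T ↦ ⟪u, T v⟫` maps `𝒰` to an ultrafilter on `ℂ` that contains the compact
ball of radius `C ‖u‖ ‖v‖`, hence converges (`IsCompact.ultrafilter_le_nhds` applied to `𝒰.map _`); call the limit
`β u v` (`Classical.choose`).  By uniqueness of limits (`tendsto_nhds_unique`) `β` is conjugate linear in `u`, linear in `v`, and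
`‖β u v‖ ≤ C ‖u‖ ‖v‖` (`le_of_tendsto`).  A bounded sesquilinear form is given by an operator: for fixed `v` the map
`u ↦ conj (β u v)` is a bounded linear functional, use `InnerProductSpace.toDual` (Riesz), or build
`B : H →L⋆[ℂ] H →L[ℂ] ℂ` with `LinearMap.mkContinuous₂` and use `InnerProductSpace.continuousLinearMapOfBilin`
(then take the adjoint if necessary).  `‖a‖ ≤ C` from `ContinuousLinearMap.opNorm_le_bound` and
`‖a v‖^2 = ⟪a v, a v⟫ = β (a v) v ≤ C ‖a v‖ ‖v‖`.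
-/

set_option linter.unusedSectionVars false

namespace Vale.Agent.Lib.P078

open scoped InnerProductSpace

variable {H : Type*} [NormedAddCommGroup H] [InnerProductSpace ℂ H] [CompleteSpace H]

/-- pointwise ultralimit of the matrix coefficients. -/
lemma exists_coeff_ultralimit (U : Ultrafilter (H →L[ℂ] H)) {C : ℝ}
    (hC : ∀ᶠ T in (U : Filter (H →L[ℂ] H)), ‖T‖ ≤ C) (u v : H) :
    ∃ b : ℂ, ‖b‖ ≤ C * ‖u‖ * ‖v‖ ∧
      Filter.Tendsto (fun T : H →L[ℂ] H => ⟪u, T v⟫_ℂ) (U : Filter (H →L[ℂ] H)) (nhds b) := by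
  have hcomp : IsCompact (Metric.closedBall (0 : ℂ) (C * ‖u‖ * ‖v‖)) :=
    isCompact_closedBall _ _
  have hle : ((U.map fun T : H →L[ℂ] H => ⟪u, T v⟫_ℂ : Ultrafilter ℂ) : Filter ℂ) ≤
      Filter.principal (Metric.closedBall (0 : ℂ) (C * ‖u‖ * ‖v‖)) := by
    rw [Filter.le_principal_iff, Ultrafilter.mem_coe, Ultrafilter.mem_map]
    filter_upwards [hC] with T hT
    rw [Set.mem_preimage, mem_closedBall_zero_iff]
    calc ‖⟪u, T v⟫_ℂ‖ ≤ ‖u‖ * ‖T v‖ := norm_inner_le_norm _ _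
      _ ≤ ‖u‖ * (‖T‖ * ‖v‖) := by gcongr; exact T.le_opNorm v
      _ ≤ ‖u‖ * (C * ‖v‖) := by gcongr
      _ = C * ‖u‖ * ‖v‖ := by ring
  obtain ⟨b, hb, hlim⟩ := hcomp.ultrafilter_le_nhds _ hle
  exact ⟨b, mem_closedBall_zero_iff.1 hb, hlim⟩

theorem exists_wot_ultralimit (U : Ultrafilter (H →L[ℂ] H)) {C : ℝ}
    (hC : ∀ᶠ T in (U : Filter (H →L[ℂ] H)), ‖T‖ ≤ C) :
    ∃ a : H →L[ℂ] H, ‖a‖ ≤ C ∧ ∀ u v : H,
      Filter.Tendsto (fun T : H →L[ℂ] H => ⟪u, T v⟫_ℂ) (U : Filter (H →L[ℂ] H))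
        (nhds ⟪u, a v⟫_ℂ) := by
  have hC0 : 0 ≤ C := by
    obtain ⟨T, hT⟩ := hC.exists
    exact (norm_nonneg T).trans hT
  choose β hβn hβ using exists_coeff_ultralimit U hC
  have add_left : ∀ u u' v, β (u + u') v = β u v + β u' v := by
    intro u u' v
    refine tendsto_nhds_unique (hβ (u + u') v) ?_
    have := (hβ u v).add (hβ u' v)
    refine this.congr fun T => ?_
    rw [inner_add_left]
  have smul_left : ∀ (c : ℂ) u v, β (c • u) v = (starRingEnd ℂ) c • β u v := by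
    intro c u v
    refine tendsto_nhds_unique (hβ (c • u) v) ?_
    have := (hβ u v).const_smul ((starRingEnd ℂ) c)
    refine this.congr fun T => ?_
    rw [inner_smul_left, smul_eq_mul]
  have add_right : ∀ u v v', β u (v + v') = β u v + β u v' := by
    intro u v v'
    refine tendsto_nhds_unique (hβ u (v + v')) ?_
    have := (hβ u v).add (hβ u v')
    refine this.congr fun T => ?_
    rw [map_add, inner_add_right]
  have smul_right : ∀ (c : ℂ) u v, β u (c • v) = (RingHom.id ℂ) c • β u v := by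
    intro c u v
    refine tendsto_nhds_unique (hβ u (c • v)) ?_
    have := (hβ u v).const_smul c
    refine this.congr fun T => ?_
    rw [map_smul, inner_smul_right, smul_eq_mul]
  let B₀ : H →ₛₗ[starRingEnd ℂ] H →ₗ[ℂ] ℂ :=
    LinearMap.mk₂'ₛₗ (starRingEnd ℂ) (RingHom.id ℂ) β add_left smul_left add_right smul_right
  let B : H →L⋆[ℂ] H →L[ℂ] ℂ := B₀.mkContinuous₂ C (fun u v => hβn u v)
  have hB : ∀ u v, B u v = β u v := fun u v => rfl
  let A : H →L[ℂ] H := InnerProductSpace.continuousLinearMapOfBilin B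
  have hA : ∀ u v, ⟪A u, v⟫_ℂ = β u v := fun u v => by
    rw [← hB]; exact InnerProductSpace.continuousLinearMapOfBilin_apply B u v
  have ha : ∀ u v, ⟪u, (ContinuousLinearMap.adjoint A) v⟫_ℂ = β u v := fun u v => by
    rw [ContinuousLinearMap.adjoint_inner_right, hA]
  refine ⟨ContinuousLinearMap.adjoint A, ?_, fun u v => ?_⟩
  · refine ContinuousLinearMap.opNorm_le_bound _ hC0 fun v => ?_
    set w := (ContinuousLinearMap.adjoint A) v with hw
    by_cases hw0 : ‖w‖ = 0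
    · rw [hw0]; positivity
    · have hpos : 0 < ‖w‖ := lt_of_le_of_ne (norm_nonneg _) (Ne.symm hw0)
      have h1 : ‖w‖ * ‖w‖ ≤ ‖w‖ * (C * ‖v‖) := by
        have h2 : ‖⟪w, w⟫_ℂ‖ = ‖w‖ * ‖w‖ := by
          rw [inner_self_eq_norm_sq_to_K]
          simp [pow_two]
        calc ‖w‖ * ‖w‖ = ‖⟪w, w⟫_ℂ‖ := h2.symm
          _ = ‖β w v‖ := by rw [← ha w v]
          _ ≤ C * ‖w‖ * ‖v‖ := hβn w v
          _ = ‖w‖ * (C * ‖v‖) := by ring
      exact le_of_mul_le_mul_left h1 hpos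
  · rw [ha]; exact hβ u v

end Vale.Agent.Lib.P078
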